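import Crest.Agent.R197.Defs

/-! Basic properties of `chain`, `bd`, `d1`, `tr`, `expo`. -/

set_option autoImplicit false

namespace Crest.Agent.R197

open Crest.Agent.Lib.CWComb

variable {G E F : Type} [Group G]

@[simp] theorem chain_of (γ : E → G) (g : G) (e : E) :
    chain γ g (FreeGroup.of e) = Finsupp.single (g, e) 1 := by simp [chain]

@[simp] theorem chain_one (γ : E → G) (g : G) : chain γ g 1 = 0 := by simp [chain]

theorem chain_mul (γ : E → G) (g : G) (u v : FreeGroup E) :
    chain γ g (u * v) = chain γ g u + chain γ (g * FreeGroup.lift γ u) v := by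
  simp [chain, hol_mul]

theorem chain_inv (γ : E → G) (g : G) (u : FreeGroup E) :
    chain γ g u⁻¹ = -chain γ (g * (FreeGroup.lift γ u)⁻¹) u := by
  simp [chain, hol_inv]

/-- holonomy with commutative coefficients is a linear functional of the chain -/
theorem hol_eq_chain {M : Type} [AddCommGroup M] (γ : E → G) (y : G → E → M) (g : G)
    (u : FreeGroup E) :
    Multiplicative.toAdd (hol γ (fun h e => Multiplicative.ofAdd (y h e)) g u) =
      Finsupp.linearCombination ℤ (fun p : G × E => y p.1 p.2) (chain γ g u) := by
  induction u using FreeGroup.induction_on generalizing g with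
  | C1 => simp
  | of s => simp
  | inv_of s ih => rw [hol_inv, chain_inv, toAdd_inv, ih, map_neg]
  | mul u v ihu ihv => rw [hol_mul, chain_mul, toAdd_mul, ihu, ihv, map_add]

@[simp] theorem tr_single {X : Type} (g : G) (p : G × X) (n : ℤ) :
    tr g (Finsupp.single p n) = Finsupp.single (g * p.1, p.2) n := by
  simp [tr]

theorem tr_apply {X : Type} (g : G) (c : G × X →₀ ℤ) (p : G × X) :
    tr g c (g * p.1, p.2) = c p := by
  have hinj : Function.Injective fun p : G × X => (g * p.1, p.2) := by
    intro p q h
    simp only [Prod.mk.injEq, mul_right_inj] at h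
    exact Prod.ext h.1 h.2
  exact Finsupp.mapDomain_apply hinj c p

theorem tr_tr {X : Type} (g h : G) (c : G × X →₀ ℤ) : tr g (tr h c) = tr (g * h) c := by
  induction c using Finsupp.induction_linear with
  | zero => simp
  | add a b ha hb => simp [ha, hb]
  | single p n => simp [mul_assoc]

@[simp] theorem tr_one {X : Type} (c : G × X →₀ ℤ) : tr (1 : G) c = c := by
  induction c using Finsupp.induction_linear with
  | zero => simp
  | add a b ha hb => simp [ha, hb]
  | single p n => simp

theorem tr_chain (γ : E → G) (h g : G) (u : FreeGroup E) :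
    tr h (chain γ g u) = chain γ (h * g) u := by
  induction u using FreeGroup.induction_on generalizing g with
  | C1 => simp
  | of s => simp
  | inv_of s ih => rw [chain_inv, chain_inv, map_neg, ih, mul_assoc]
  | mul u v ihu ihv => rw [chain_mul, chain_mul, map_add, ihu, ihv, mul_assoc]

@[simp] theorem bd_single (γ : E → G) (w : F → FreeGroup E) (c : G × F) (n : ℤ) :
    bd γ w (Finsupp.single c n) = n • chain γ c.1 (w c.2) := by simp [bd]

theorem bd_tr (γ : E → G) (w : F → FreeGroup E) (h : G) (c : G × F →₀ ℤ) :
    bd γ w (tr h c) = tr h (bd γ w c) := by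
  induction c using Finsupp.induction_linear with
  | zero => simp
  | add a b ha hb => simp [ha, hb]
  | single p n => simp [tr_chain]

@[simp] theorem d1_single (γ : E → G) (e : G × E) (n : ℤ) :
    d1 γ (Finsupp.single e n) =
      n • (Finsupp.single (e.1 * γ e.2) 1 - Finsupp.single e.1 1 : G →₀ ℤ) := by simp [d1]

theorem d1_chain (γ : E → G) (g : G) (u : FreeGroup E) :
    d1 γ (chain γ g u) = Finsupp.single (g * FreeGroup.lift γ u) 1 - Finsupp.single g 1 := by
  induction u using FreeGroup.induction_on generalizing g with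
  | C1 => simp
  | of s => simp
  | inv_of s ih => rw [chain_inv, map_neg, ih]; simp
  | mul u v ihu ihv => rw [chain_mul, map_add, ihu, ihv]; simp [mul_assoc]

theorem d1_bd {γ : E → G} {w : F → FreeGroup E} (hw : ∀ τ, FreeGroup.lift γ (w τ) = 1)
    (c : G × F →₀ ℤ) : d1 γ (bd γ w c) = 0 := by
  induction c using Finsupp.induction_linear with
  | zero => simp
  | add a b ha hb => simp [ha, hb]
  | single p n => simp [d1_chain, hw]

theorem chain_map {E' : Type} (ι : E → E') (π : E' → G) (g : G) (u : FreeGroup E) :
    chain π g (FreeGroup.map ι u) =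
      Finsupp.mapDomain (fun p : G × E => (p.1, ι p.2)) (chain (π ∘ ι) g u) := by
  have hl : ∀ w : FreeGroup E, FreeGroup.lift π (FreeGroup.map ι w) = FreeGroup.lift (π ∘ ι) w := by
    intro w
    have : (FreeGroup.lift π).comp (FreeGroup.map ι) = FreeGroup.lift (π ∘ ι) := by ext s; simp
    exact DFunLike.congr_fun this w
  induction u using FreeGroup.induction_on generalizing g with
  | C1 => simp
  | of s => simp [Finsupp.mapDomain_single]
  | inv_of s ih =>
    rw [map_inv, chain_inv, chain_inv, hl, ih]
    exact (map_neg (Finsupp.lmapDomain ℤ ℤ fun p : G × E => (p.1, ι p.2)) _).symm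
  | mul u v ihu ihv => rw [map_mul, chain_mul, chain_mul, hl, ihu, ihv, Finsupp.mapDomain_add]

/-- the boundary map of an acyclic complex stays injective modulo every integer -/
theorem Res.pure {γ : E → G} {w : F → FreeGroup E} (h : Res γ w) (p : ℤ) (d : G × F →₀ ℤ)
    (hd : ∀ e, p ∣ bd γ w d e) (τ : G × F) : p ∣ d τ := by
  by_cases hp : p = 0
  · subst hp
    have : bd γ w d = 0 := by ext e; simpa using hd e
    rw [h.inj (this.trans (map_zero _).symm)]
    simp
  let μ : G × E →₀ ℤ := (bd γ w d).mapRange (· / p) (by simp)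
  have hμ : p • μ = bd γ w d := by
    ext e
    simp [μ, Int.mul_ediv_cancel' (hd e)]
  have h1 : d1 γ μ = 0 := by
    have : p • d1 γ μ = 0 := by rw [← map_smul, hμ, d1_bd h.rel]
    exact (smul_eq_zero.1 this).resolve_left hp
  obtain ⟨d', hd'⟩ := h.exact μ h1
  have : d = p • d' := h.inj (by rw [map_smul, hd', hμ])
  rw [this]
  simp

@[simp] theorem expo_of {X : Type} (x : X) : expo (FreeGroup.of x) = Finsupp.single x 1 := by
  simp [expo]

@[simp] theorem expo_one {X : Type} : expo (1 : FreeGroup X) = 0 := by simp [expo]

@[simp] theorem expo_mul {X : Type} (u v : FreeGroup X) : expo (u * v) = expo u + expo v := by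
  simp [expo]

@[simp] theorem expo_inv {X : Type} (u : FreeGroup X) : expo u⁻¹ = -expo u := by simp [expo]

theorem expo_hol {X : Type} (γ : E → G) (Y : G → E → FreeGroup X) (g : G) (u : FreeGroup E) :
    expo (hol γ Y g u) =
      Finsupp.linearCombination ℤ (fun p : G × E => expo (Y p.1 p.2)) (chain γ g u) := by
  induction u using FreeGroup.induction_on generalizing g with
  | C1 => simp
  | of s => simp
  | inv_of s ih => rw [hol_inv, chain_inv, expo_inv, ih, map_neg]
  | mul u v ihu ihv => rw [hol_mul, chain_mul, expo_mul, ihu, ihv, map_add]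

end Crest.Agent.R197
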