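import Crest.Agent.R197.Chains

/-! Group cohomology from the acyclic 2-complex.

Recipe. `isZero_of_res`: build a `ProjectiveResolution (Rep.trivial ℤ G ℤ)` with terms
`Rep.leftRegular`/`Rep.free ℤ G Unit`, `Rep.free ℤ G E`, `Rep.free ℤ G F`, `0, 0, …` (or directly
`Rep.ofMulAction ℤ G (G × E)`, projective by `Rep.ofMulAction` of a free action / `Rep.free` iso) and use
`groupCohomologyIso`; the term in degree `n ≥ 3` of the `linearYonedaObj` complex is zero. An alternative
is dimension shifting with `Abelian.Ext`/`HasProjectiveDimensionLE` and `groupCohomologyIsoExt`.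
Exactness at `ℤ[G]`: `d1_chain` and `Res.surj`. `exists_not_isZero_two`: trivial coefficients `ℤ`, the cocycle
`(x, y) ↦ α x * β y`; a coboundary is symmetric on commuting pairs (`groupCohomology.H2π_eq_zero_iff`). -/

set_option autoImplicit false

open Quaternion

namespace Crest.Agent.R197

open Crest.Agent.Lib.CWComb

section general

open CategoryTheory CategoryTheory.Limits
open scoped ZeroObject

variable {k G : Type} [CommRing k] [Group G]

/-- the terms of a resolution of length two -/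
noncomputable def CohomX (P₀ P₁ P₂ : Rep.{0} k G) : ℕ → Rep.{0} k G
  | 0 => P₀
  | 1 => P₁
  | 2 => P₂
  | _ + 3 => 0

/-- the differentials of a resolution of length two -/
noncomputable def CohomD {P₀ P₁ P₂ : Rep.{0} k G} (f₂ : P₂ ⟶ P₁) (f₁ : P₁ ⟶ P₀) :
    ∀ n, CohomX P₀ P₁ P₂ (n + 1) ⟶ CohomX P₀ P₁ P₂ n
  | 0 => f₁
  | 1 => f₂
  | _ + 2 => 0

/-- the complex -/
noncomputable def CohomC {P₀ P₁ P₂ : Rep.{0} k G} (f₂ : P₂ ⟶ P₁) (f₁ : P₁ ⟶ P₀)
    (h : f₂ ≫ f₁ = 0) : ChainComplex (Rep.{0} k G) ℕ :=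
  ChainComplex.of (CohomX P₀ P₁ P₂) (CohomD f₂ f₁) fun n => match n with
    | 0 => h
    | _ + 1 => zero_comp

theorem CohomC_d {P₀ P₁ P₂ : Rep.{0} k G} (f₂ : P₂ ⟶ P₁) (f₁ : P₁ ⟶ P₀)
    (h : f₂ ≫ f₁ = 0) (n : ℕ) : (CohomC f₂ f₁ h).d (n + 1) n = CohomD f₂ f₁ n :=
  ChainComplex.of_d _ _ n

theorem Cohom_exact {A B C : Rep.{0} k G} (f : A ⟶ B) (g : B ⟶ C) (h : f ≫ g = 0)
    (he : ∀ x : B, g.hom x = 0 → ∃ y : A, f.hom y = x) : (ShortComplex.mk f g h).Exact := by
  apply (forget₂ _ (ModuleCat k)).reflects_exact_of_faithful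
  rw [ShortComplex.moduleCat_exact_iff]
  exact he

theorem Cohom_isZero {P₀ P₁ P₂ : Rep.{0} k G} [Projective P₀] [Projective P₁] [Projective P₂]
    (f₂ : P₂ ⟶ P₁) (f₁ : P₁ ⟶ P₀) (ε : P₀ ⟶ Rep.trivial k G k) (h₂ : f₂ ≫ f₁ = 0)
    (h₁ : f₁ ≫ ε = 0) (hinj : Function.Injective f₂.hom)
    (e₁ : ∀ x : P₁, f₁.hom x = 0 → ∃ y : P₂, f₂.hom y = x)
    (e₀ : ∀ x : P₀, ε.hom x = 0 → ∃ y : P₁, f₁.hom y = x) (hsurj : Function.Surjective ε.hom)
    (A : Rep.{0} k G) (n : ℕ) (hn : 3 ≤ n) : IsZero (groupCohomology A n) := by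
  let π : CohomC f₂ f₁ h₂ ⟶ (ChainComplex.single₀ (Rep.{0} k G)).obj (Rep.trivial k G k) :=
    ((CohomC f₂ f₁ h₂).toSingle₀Equiv _).symm ⟨ε, by rw [CohomC_d f₂ f₁ h₂ 0]; exact h₁⟩
  have hπ : π.f 0 = ε := ChainComplex.toSingle₀Equiv_symm_apply_f_zero _ _
  have hq : QuasiIso π := by
    refine ⟨fun m => ?_⟩
    rcases m with _ | m
    · rw [ChainComplex.quasiIsoAt₀_iff, ShortComplex.quasiIso_iff_of_zeros' _ rfl rfl rfl]
      constructor
      · refine Cohom_exact _ _ _ fun x hx => ?_
        have h3 : ε.hom x = 0 := by rw [← hπ]; exact hx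
        obtain ⟨y, hy⟩ := e₀ x h3
        refine ⟨y, ?_⟩
        change ((CohomC f₂ f₁ h₂).d (0 + 1) 0).hom y = x
        rw [CohomC_d]
        exact hy
      · change Epi (π.f 0)
        rw [hπ]
        exact (Rep.epi_iff_surjective ε).2 hsurj
    · rw [quasiIsoAt_iff_exactAt' (hL := ChainComplex.exactAt_succ_single_obj ..),
        HomologicalComplex.exactAt_iff' _ (m + 2) (m + 1) m (by simp) (by simp)]
      rcases m with _ | _ | m
      · refine Cohom_exact _ _ _ fun x hx => ?_
        have h3 : f₁.hom x = 0 := by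
          change ((CohomC f₂ f₁ h₂).d (0 + 1) 0).hom x = 0 at hx
          rw [CohomC_d] at hx
          exact hx
        obtain ⟨y, hy⟩ := e₁ x h3
        refine ⟨y, ?_⟩
        change ((CohomC f₂ f₁ h₂).d (1 + 1) 1).hom y = x
        rw [CohomC_d]
        exact hy
      · refine Cohom_exact _ _ _ fun x hx => ?_
        have h3 : f₂.hom x = 0 := by
          change ((CohomC f₂ f₁ h₂).d (1 + 1) 1).hom x = 0 at hx
          rw [CohomC_d] at hx
          exact hx
        have h4 : x = 0 := hinj (h3.trans (map_zero f₂.hom).symm)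
        exact ⟨0, by rw [h4]; exact map_zero _⟩
      · exact ShortComplex.exact_of_isZero_X₂ _ (isZero_zero (Rep.{0} k G))
  let P : ProjectiveResolution (Rep.trivial k G k) :=
    { complex := CohomC f₂ f₁ h₂
      projective := fun n => match n with
        | 0 => inferInstanceAs (Projective P₀)
        | 1 => inferInstanceAs (Projective P₁)
        | 2 => inferInstanceAs (Projective P₂)
        | _ + 3 => (isZero_zero (Rep.{0} k G)).projective
      π := π
      quasiIso := hq }
  refine IsZero.of_iso ?_ (groupCohomologyIso A n P)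
  obtain ⟨m, rfl⟩ : ∃ m, n = m + 3 := ⟨n - 3, by omega⟩
  rw [← HomologicalComplex.exactAt_iff_isZero_homology]
  refine ShortComplex.exact_of_isZero_X₂ _ ?_
  have hz : IsZero (P.complex.X (m + 3)) := isZero_zero (Rep.{0} k G)
  have : Subsingleton (P.complex.X (m + 3) ⟶ A) := ⟨fun f g => hz.eq_of_src f g⟩
  exact ModuleCat.isZero_of_subsingleton (ModuleCat.of k (P.complex.X (m + 3) ⟶ A))

/-- the free representation on `X`, as chains on `G × X` -/
noncomputable def CohomRep (k G X : Type) [CommRing k] [Group G] :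
    Representation k G (G × X →₀ k) where
  toFun g := Finsupp.lmapDomain k k fun p => (g * p.1, p.2)
  map_one' := by
    ext p : 2
    simp
  map_mul' g h := by
    ext p : 2
    simp [mul_assoc]

theorem CohomRep_single {X : Type} (g : G) (p : G × X) (n : k) :
    CohomRep k G X g (Finsupp.single p n) = Finsupp.single (g * p.1, p.2) n := by
  simp [CohomRep]

/-- the universal property -/
noncomputable def CohomLift {X : Type} (A : Rep.{0} k G) (a : X → A) :
    Rep.of (CohomRep k G X) ⟶ A :=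
  Rep.ofHom (σ := A.ρ) ⟨Finsupp.linearCombination k fun p : G × X => A.ρ p.1 (a p.2), fun g => by
    ext p : 2
    simp [CohomRep_single]⟩

theorem CohomLift_single {X : Type} (A : Rep.{0} k G) (a : X → A) (p : G × X) (n : k) :
    (CohomLift A a).hom (Finsupp.single p n) = n • A.ρ p.1 (a p.2) :=
  Finsupp.linearCombination_single k n p

instance CohomRep_projective (X : Type) : Projective (Rep.of (CohomRep k G X)) where
  factors {A B} f e he := by
    choose a ha using fun x : X =>
      (Rep.epi_iff_surjective e).1 he (f.hom (Finsupp.single ((1 : G), x) 1))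
    refine ⟨CohomLift A a, Rep.hom_ext (Representation.IntertwiningMap.ext ?_)⟩
    refine Finsupp.lhom_ext' fun p => LinearMap.ext_ring ?_
    change e.hom ((CohomLift A a).hom (Finsupp.single p 1)) = f.hom (Finsupp.single p 1)
    rw [CohomLift_single, one_smul, Rep.hom_comm_apply, ha, ← Rep.hom_comm_apply]
    change f.hom (CohomRep k G X p.1 (Finsupp.single ((1 : G), p.2) 1)) = _
    rw [CohomRep_single, mul_one]

end general

/-- `d1` with values in chains on `G × Unit` -/
noncomputable def CohomD1 {G E : Type} [Group G] (γ : E → G) :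
    (G × E →₀ ℤ) →ₗ[ℤ] (G × Unit →₀ ℤ) :=
  (Finsupp.lmapDomain ℤ ℤ fun g : G => (g, ())) ∘ₗ d1 γ

theorem CohomD1_eq_zero {G E : Type} [Group G] (γ : E → G) (z : G × E →₀ ℤ) :
    CohomD1 γ z = 0 ↔ d1 γ z = 0 := by
  have hinj : Function.Injective fun g : G => (g, ()) := fun a b h => congrArg Prod.fst h
  constructor
  · intro h
    exact Finsupp.mapDomain_injective hinj (h.trans Finsupp.mapDomain_zero.symm)
  · intro h
    rw [CohomD1, LinearMap.comp_apply, h, map_zero]

theorem CohomD1_single {G E : Type} [Group G] (γ : E → G) (e : G × E) (n : ℤ) :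
    CohomD1 γ (Finsupp.single e n) =
      n • (Finsupp.single (e.1 * γ e.2, ()) 1 - Finsupp.single (e.1, ()) 1) := by
  rw [CohomD1, LinearMap.comp_apply, d1_single, map_smul, map_sub]
  simp

theorem CohomD1_chain {G E : Type} [Group G] (γ : E → G) (g : G) (u : FreeGroup E) :
    CohomD1 γ (chain γ g u) =
      Finsupp.single (g * FreeGroup.lift γ u, ()) 1 - Finsupp.single (g, ()) 1 := by
  rw [CohomD1, LinearMap.comp_apply, d1_chain, map_sub]
  simp

theorem isZero_of_res {G E F : Type} [Group G] {γ : E → G} {w : F → FreeGroup E} (h : Res γ w)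
    (A : Rep ℤ G) (n : ℕ) (hn : 3 ≤ n) : CategoryTheory.Limits.IsZero (groupCohomology A n) := by
  let f₂ : Rep.of (CohomRep ℤ G F) ⟶ Rep.of (CohomRep ℤ G E) :=
    Rep.ofHom ⟨bd γ w, fun g => LinearMap.ext fun c => bd_tr γ w g c⟩
  let f₁ : Rep.of (CohomRep ℤ G E) ⟶ Rep.of (CohomRep ℤ G Unit) :=
    Rep.ofHom ⟨CohomD1 γ, fun g => by
      refine Finsupp.lhom_ext' fun p => LinearMap.ext_ring ?_
      simp [CohomRep_single, CohomD1_single, mul_assoc]⟩
  let ε : Rep.of (CohomRep ℤ G Unit) ⟶ Rep.trivial ℤ G ℤ :=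
    Rep.ofHom ⟨Finsupp.linearCombination ℤ fun _ => (1 : ℤ), fun g => by
      refine Finsupp.lhom_ext' fun p => LinearMap.ext_ring ?_
      simp [CohomRep_single]⟩
  refine Cohom_isZero f₂ f₁ ε ?_ ?_ h.inj ?_ ?_ ?_ A n hn
  · refine Rep.hom_ext (Representation.IntertwiningMap.ext (LinearMap.ext fun c => ?_))
    exact (CohomD1_eq_zero γ _).2 (d1_bd h.rel c)
  · refine Rep.hom_ext (Representation.IntertwiningMap.ext ?_)
    refine Finsupp.lhom_ext' fun p => LinearMap.ext_ring ?_
    change Finsupp.linearCombination ℤ (fun _ => (1 : ℤ)) (CohomD1 γ (Finsupp.single p 1)) = 0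
    simp [CohomD1_single]
  · exact fun x hx => h.exact x ((CohomD1_eq_zero γ x).1 hx)
  · have key : ∀ x : G × Unit →₀ ℤ,
        x - (Finsupp.linearCombination ℤ (fun _ => (1 : ℤ)) x) • Finsupp.single ((1 : G), ()) 1 ∈
          LinearMap.range (CohomD1 γ) := by
      intro x
      induction x using Finsupp.induction_linear with
      | zero => simp
      | add a b ha hb =>
        rw [map_add, add_smul, add_sub_add_comm]
        exact add_mem ha hb
      | single p m =>
        obtain ⟨u, hu⟩ := h.surj p.1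
        refine ⟨m • chain γ 1 u, ?_⟩
        rw [map_smul, CohomD1_chain, hu, one_mul, smul_sub]
        simp
    intro x hx
    have h1 := key x
    rw [show Finsupp.linearCombination ℤ (fun _ => (1 : ℤ)) x = 0 from hx, zero_smul, sub_zero] at h1
    exact h1
  · intro m
    refine ⟨Finsupp.single ((1 : G), ()) m, ?_⟩
    change Finsupp.linearCombination ℤ (fun _ => (1 : ℤ)) (Finsupp.single ((1 : G), ()) m) = m
    simp

theorem exists_not_isZero_two {G : Type} [Group G] (α β : G →* Multiplicative ℤ) (g h : G)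
    (hc : Commute g h)
    (hne : (α g).toAdd * (β h).toAdd ≠ (α h).toAdd * (β g).toAdd) :
    ∃ A : Rep ℤ G, ¬ CategoryTheory.Limits.IsZero (groupCohomology A 2) := by
  refine ⟨Rep.trivial ℤ G ℤ, fun hz => hne ?_⟩
  let c : groupCohomology.cocycles₂ (Rep.trivial ℤ G ℤ) :=
    ⟨fun p => (α p.1).toAdd * (β p.2).toAdd, (groupCohomology.mem_cocycles₂_iff _).2 fun x y z => by
      simp only [map_mul, toAdd_mul, Representation.trivial_apply]
      ring⟩
  have h0 : groupCohomology.H2π (Rep.trivial ℤ G ℤ) c = 0 :=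
    (ModuleCat.subsingleton_of_isZero hz).elim _ _
  obtain ⟨f, hf⟩ := (groupCohomology.H2π_eq_zero_iff c).1 h0
  have h1 := congrFun hf (g, h)
  have h2 := congrFun hf (h, g)
  rw [groupCohomology.d₁₂_hom_apply] at h1 h2
  change (f h - f (g * h) + f g : ℤ) = (α g).toAdd * (β h).toAdd at h1
  change (f g - f (h * g) + f h : ℤ) = (α h).toAdd * (β g).toAdd at h2
  rw [← h1, ← h2, hc.eq]
  ring

end Crest.Agent.R197
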