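import Crest.Agent.R197.Quat

/-! Linear and quadratic holonomy bounds.

Recipe. Let `P k u` say: `lift π u = 1` and there are `C ≥ 0` and a finite `D` as in the conclusion with
`ζ ^ k`. `{u | P k u}` is a normal subgroup (`hol_mul`, `hol_inv`; for conjugation by `v` replace `D` by
its translate by `lift π v`), contains the relators (`D = {(1, j)}`, `C = 0`); for `k = 1` it contains the slack
letters, for `k = 2` the commutators of elements of `P 1` (`Subgroup.commutator_le`). -/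

set_option autoImplicit false

open Quaternion

namespace Crest.Agent.R197

open Crest.Agent.Lib.CWComb

variable {G B R : Type} [Group G]

/-- the elements whose holonomy is `O(ζ ^ k)` -/
def estSub (π : B → G) (rel : R → FreeGroup B) (Z : Set B) (k : ℕ) : Subgroup (FreeGroup B) where
  carrier := {u | FreeGroup.lift π u = 1 ∧
    ∃ (C : ℝ) (D : Finset (G × R)), 0 ≤ C ∧ ∀ (g : G) (y : G → B → S3) (ζ : ℝ), 0 ≤ ζ →
      (∀ c ∈ D, hol π y (g * c.1) (rel c.2) = 1) → (∀ h, ∀ z ∈ Z, ‖(y h z : ℍ[ℝ]) - 1‖ ≤ ζ) →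
      ‖((hol π y g u : S3) : ℍ[ℝ]) - 1‖ ≤ C * ζ ^ k}
  one_mem' := ⟨map_one _, 0, ∅, le_rfl, fun g y ζ _ _ _ => by simp⟩
  mul_mem' := by
    classical
    rintro u v ⟨hu, C, D, hC, h⟩ ⟨hv, C', D', hC', h'⟩
    refine ⟨by rw [map_mul, hu, hv, one_mul], C + C', D ∪ D', add_nonneg hC hC',
      fun g y ζ hζ hD hy => ?_⟩
    rw [hol_mul, hu, mul_one, add_mul]
    exact (norm_mul_sub_one_le _ _).trans (add_le_add
      (h g y ζ hζ (fun c hc => hD c (Finset.mem_union_left _ hc)) hy)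
      (h' g y ζ hζ (fun c hc => hD c (Finset.mem_union_right _ hc)) hy))
  inv_mem' := by
    rintro u ⟨hu, C, D, hC, h⟩
    refine ⟨by rw [map_inv, hu, inv_one], C, D, hC, fun g y ζ hζ hD hy => ?_⟩
    rw [hol_inv, hu, inv_one, mul_one, norm_inv_sub_one]
    exact h g y ζ hζ hD hy

instance estSub_normal (π : B → G) (rel : R → FreeGroup B) (Z : Set B) (k : ℕ) :
    (estSub π rel Z k).Normal := ⟨by
  classical
  rintro u ⟨hu, C, D, hC, h⟩ v
  refine ⟨by rw [map_mul, map_mul, hu, mul_one, map_inv, mul_inv_cancel], C,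
    D.image fun c => (FreeGroup.lift π v * c.1, c.2), hC, fun g y ζ hζ hD hy => ?_⟩
  rw [hol_mul, hol_mul, hol_inv, map_mul, hu, mul_one, mul_inv_cancel_right, norm_conj_sub_one]
  refine h _ y ζ hζ (fun c hc => ?_) hy
  rw [mul_assoc]
  exact hD _ (Finset.mem_image_of_mem _ hc)⟩

theorem est_rel (π : B → G) (rel : R → FreeGroup B) (hrel : ∀ j, FreeGroup.lift π (rel j) = 1)
    (Z : Set B) (k : ℕ) : Subgroup.normalClosure (Set.range rel) ≤ estSub π rel Z k := by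
  refine Subgroup.normalClosure_le_normal ?_
  rintro _ ⟨j, rfl⟩
  refine ⟨hrel j, 0, {(1, j)}, le_rfl, fun g y ζ _ hD _ => ?_⟩
  have h := hD _ (Finset.mem_singleton_self _)
  rw [mul_one] at h
  simp [h]

theorem est_slack (π : B → G) (rel : R → FreeGroup B) (Z : Set B) (hZ : ∀ z ∈ Z, π z = 1) :
    Subgroup.normalClosure (FreeGroup.of '' Z) ≤ estSub π rel Z 1 := by
  refine Subgroup.normalClosure_le_normal ?_
  rintro _ ⟨z, hz, rfl⟩
  exact ⟨by simp [hZ z hz], 1, ∅, zero_le_one, fun g y ζ _ _ hy => by simpa using hy g z hz⟩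

theorem est_comm (π : B → G) (rel : R → FreeGroup B) (Z : Set B) :
    ⁅estSub π rel Z 1, estSub π rel Z 1⁆ ≤ estSub π rel Z 2 := by
  classical
  rw [Subgroup.commutator_le]
  rintro u ⟨hu, C, D, hC, h⟩ v ⟨hv, C', D', hC', h'⟩
  refine ⟨by rw [map_commutatorElement, hu, commutatorElement_one_left], 2 * C * C', D ∪ D',
    by positivity, fun g y ζ hζ hD hy => ?_⟩
  have h1 := h g y ζ hζ (fun c hc => hD c (Finset.mem_union_left _ hc)) hy
  have h2 := h' g y ζ hζ (fun c hc => hD c (Finset.mem_union_right _ hc)) hy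
  simp only [commutatorElement_def, hol_mul, hol_inv, map_mul, map_inv, hu, hv, mul_one, inv_one]
  refine (norm_commutator_sub_one_le _ _).trans ?_
  calc _ ≤ 2 * (C * ζ ^ 1) * (C' * ζ ^ 1) := by gcongr
    _ = _ := by ring

theorem exists_lin (π : B → G) (rel : R → FreeGroup B) (hrel : ∀ j, FreeGroup.lift π (rel j) = 1)
    (Z : Set B) (hZ : ∀ z ∈ Z, π z = 1) (u : FreeGroup B)
    (hu : u ∈ Subgroup.normalClosure (Set.range rel) ⊔ Subgroup.normalClosure (FreeGroup.of '' Z)) :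
    ∃ (C : ℝ) (D : Finset (G × R)), 0 ≤ C ∧ ∀ (g : G) (y : G → B → S3) (ζ : ℝ), 0 ≤ ζ →
      (∀ c ∈ D, hol π y (g * c.1) (rel c.2) = 1) → (∀ h, ∀ z ∈ Z, ‖(y h z : ℍ[ℝ]) - 1‖ ≤ ζ) →
      ‖((hol π y g u : S3) : ℍ[ℝ]) - 1‖ ≤ C * ζ := by
  simpa only [pow_one] using (sup_le (est_rel π rel hrel Z 1) (est_slack π rel Z hZ) hu).2

theorem exists_quad (π : B → G) (rel : R → FreeGroup B) (hrel : ∀ j, FreeGroup.lift π (rel j) = 1)
    (Z : Set B) (hZ : ∀ z ∈ Z, π z = 1) (u : FreeGroup B)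
    (hu : u ∈ Subgroup.normalClosure (Set.range rel) ⊔
      ⁅Subgroup.normalClosure (FreeGroup.of '' Z), Subgroup.normalClosure (FreeGroup.of '' Z)⁆) :
    ∃ (C : ℝ) (D : Finset (G × R)), 0 ≤ C ∧ ∀ (g : G) (y : G → B → S3) (ζ : ℝ), 0 ≤ ζ →
      (∀ c ∈ D, hol π y (g * c.1) (rel c.2) = 1) → (∀ h, ∀ z ∈ Z, ‖(y h z : ℍ[ℝ]) - 1‖ ≤ ζ) →
      ‖((hol π y g u : S3) : ℍ[ℝ]) - 1‖ ≤ C * ζ ^ 2 := by
  exact (sup_le (est_rel π rel hrel Z 2) ((Subgroup.commutator_mono (est_slack π rel Z hZ)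
    (est_slack π rel Z hZ)).trans (est_comm π rel Z)) hu).2

end Crest.Agent.R197
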