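import Crest.Agent.R197.Chains

/-! Inserting slack letters into the relators.

Recipe. `T = E ⊕ S`. Choose `r : T → FreeGroup E` with `lift γ (r x) = π x`, `r (inl e) = of e`, and
`g₁ [(g, x)] = chain γ g (r x)`, so `g₁ (chain π g u) = chain γ g (lift r u)`. For `u ∈ ker (lift π)` let
`lam u` be the unique 2-chain with `bd (lam u) = g₁ (chain π 1 u)` (`Res.exact`, `d1_chain`, `Res.inj`):
additive, `lam (v u v⁻¹) = tr (lift π v) (lam u)`, `lam (map inl (w τ)) = [(1, τ)]`. Put `ℓ j = lam (rel j)`,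
choose `sec g` with `lift π (sec g) = g` and
`sl j = ∏ over (g, τ) ∈ (ℓ j).support.toList of (sec g * of (inr τ) * (sec g)⁻¹) ^ ℓ j (g, τ)`.
Second clause: modulo `𝓡 ⊔ N` the relators die, so the kernel dies. First clause: in
`Ψ = FreeGroup (T ⊕ F) ⧸ (𝓡 ⊔ ⁅N, N⁆)` the image of `N` is commutative and contains the image of
`ker (lift π)`, so conjugates of `of (inr τ)` by `v` only depend on `lift π v`; let `θ` be the additive map
from 2-chains to the image of `N` with `θ [(g, τ)] = sec g * of (inr τ) * (sec g)⁻¹`. The set of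
`u ∈ ker (lift π)` whose image in `Ψ` is `θ (lam u)` is a normal subgroup containing the relators. -/

set_option autoImplicit false
set_option linter.unusedSectionVars false

open Quaternion

namespace Crest.Agent.R197

open Crest.Agent.Lib.CWComb

variable {G E F S R : Type} [Group G]

/-- the alphabet map with trivial slack letters -/
def piP (π : E ⊕ S → G) : (E ⊕ S) ⊕ F → G := Sum.elim π fun _ => 1

/-- the normal closure of the slack letters -/
def slackN (E S F : Type) : Subgroup (FreeGroup ((E ⊕ S) ⊕ F)) :=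
  Subgroup.normalClosure (FreeGroup.of '' Set.range Sum.inr)

instance : (slackN E S F).Normal := Subgroup.normalClosure_normal

theorem Slack_lift_map {X Y : Type} (ι : X → Y) (π : Y → G) (u : FreeGroup X) :
    FreeGroup.lift π (FreeGroup.map ι u) = FreeGroup.lift (π ∘ ι) u := by
  have : (FreeGroup.lift π).comp (FreeGroup.map ι) = FreeGroup.lift (π ∘ ι) := by ext s; simp
  exact DFunLike.congr_fun this u

theorem Slack_chain_conj {X : Type} (π : X → G) (g : G) (v u : FreeGroup X)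
    (hu : FreeGroup.lift π u = 1) :
    chain π g (v * u * v⁻¹) = chain π (g * FreeGroup.lift π v) u := by
  rw [chain_mul, chain_mul, chain_inv]
  simp [hu]

/-- the conjugated slack letter -/
def Slack_c (sec : G → FreeGroup (E ⊕ S)) (p : G × F) : FreeGroup ((E ⊕ S) ⊕ F) :=
  FreeGroup.map Sum.inl (sec p.1) * FreeGroup.of (Sum.inr p.2) * (FreeGroup.map Sum.inl (sec p.1))⁻¹

theorem Slack_of_mem (τ : F) : FreeGroup.of (Sum.inr τ) ∈ slackN E S F :=
  Subgroup.subset_normalClosure ⟨_, ⟨τ, rfl⟩, rfl⟩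

theorem Slack_c_mem (sec : G → FreeGroup (E ⊕ S)) (p : G × F) : Slack_c sec p ∈ slackN E S F :=
  Subgroup.Normal.conj_mem inferInstance _ (Slack_of_mem p.2) _

/-- pairs of a 2-chain and a product of conjugated slack letters that represents it -/
noncomputable def Slack_H (F : Type) (sec : G → FreeGroup (E ⊕ S)) :
    Subgroup (Multiplicative (G × F →₀ ℤ) × FreeGroup ((E ⊕ S) ⊕ F)) :=
  Subgroup.closure (Set.range fun p : G × F =>
    (Multiplicative.ofAdd (Finsupp.single p (1 : ℤ)), Slack_c sec p))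

theorem Slack_H_gen (sec : G → FreeGroup (E ⊕ S)) (p : G × F) :
    (Multiplicative.ofAdd (Finsupp.single p (1 : ℤ)), Slack_c sec p) ∈ Slack_H F sec :=
  Subgroup.subset_closure ⟨p, rfl⟩

theorem Slack_H_exists (sec : G → FreeGroup (E ⊕ S)) (d : G × F →₀ ℤ) :
    ∃ s, (Multiplicative.ofAdd d, s) ∈ Slack_H F sec := by
  induction d using Finsupp.induction_linear with
  | zero => exact ⟨1, one_mem _⟩
  | add a b ha hb =>
    obtain ⟨s, hs⟩ := ha
    obtain ⟨t, ht⟩ := hb
    exact ⟨s * t, mul_mem hs ht⟩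
  | single p n =>
    refine ⟨Slack_c sec p ^ n, ?_⟩
    have := zpow_mem (Slack_H_gen sec p) n
    rw [Prod.pow_mk, ← ofAdd_zsmul] at this
    simpa using this

theorem Slack_H_chain (π : E ⊕ S → G) (sec : G → FreeGroup (E ⊕ S))
    (hsec : ∀ g, FreeGroup.lift π (sec g) = g)
    {x : Multiplicative (G × F →₀ ℤ) × FreeGroup ((E ⊕ S) ⊕ F)} (hx : x ∈ Slack_H F sec) :
    FreeGroup.lift (piP π) x.2 = 1 ∧ ∀ g, chain (piP π) g x.2 =
      Finsupp.mapDomain (fun p => (p.1, Sum.inr p.2)) (tr g (Multiplicative.toAdd x.1)) := by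
  induction hx using Subgroup.closure_induction with
  | mem x hx =>
    obtain ⟨p, rfl⟩ := hx
    have h1 : FreeGroup.lift (piP π) (FreeGroup.of (Sum.inr p.2) : FreeGroup ((E ⊕ S) ⊕ F)) = 1 := by
      simp [piP]
    have h2 : FreeGroup.lift (piP π) (FreeGroup.map Sum.inl (sec p.1) :
        FreeGroup ((E ⊕ S) ⊕ F)) = p.1 := by
      rw [Slack_lift_map]; exact hsec _
    refine ⟨?_, fun g => ?_⟩
    · simp only [Slack_c, map_mul, map_inv, h1, mul_one, mul_inv_cancel]
    · simp only [Slack_c]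
      rw [Slack_chain_conj _ _ _ _ h1, h2]
      simp [Finsupp.mapDomain_single]
  | one => simp
  | mul x y _ _ hx hy =>
    refine ⟨by simp [hx.1, hy.1], fun g => ?_⟩
    rw [Prod.snd_mul, chain_mul, hx.1, mul_one, hx.2, hy.2, Prod.fst_mul, toAdd_mul, map_add,
      Finsupp.mapDomain_add]
  | inv x _ hx =>
    refine ⟨by simp [hx.1], fun g => ?_⟩
    rw [Prod.snd_inv, chain_inv, hx.1, inv_one, mul_one, hx.2, Prod.fst_inv, toAdd_inv, map_neg]
    exact (map_neg (Finsupp.lmapDomain ℤ ℤ fun p : G × F => (p.1, (Sum.inr p.2 : (E ⊕ S) ⊕ F))) _).symm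

theorem Slack_H_ab (sec : G → FreeGroup (E ⊕ S))
    {x : Multiplicative (G × F →₀ ℤ) × FreeGroup ((E ⊕ S) ⊕ F)} (hx : x ∈ Slack_H F sec) :
    ∃ hs : x.2 ∈ slackN E S F, Additive.ofMul (Abelianization.of (⟨x.2, hs⟩ : slackN E S F)) =
      Finsupp.linearCombination ℤ (fun p : G × F => Additive.ofMul
        (Abelianization.of (⟨Slack_c sec p, Slack_c_mem sec p⟩ : slackN E S F)))
        (Multiplicative.toAdd x.1) := by
  induction hx using Subgroup.closure_induction with
  | mem x hx =>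
    obtain ⟨p, rfl⟩ := hx
    exact ⟨Slack_c_mem sec p, by simp⟩
  | one =>
    refine ⟨one_mem _, ?_⟩
    rw [Prod.fst_one, toAdd_one, map_zero, ofMul_eq_zero]
    exact map_one _
  | mul x y _ _ hx hy =>
    obtain ⟨h1, h2⟩ := hx
    obtain ⟨h3, h4⟩ := hy
    refine ⟨mul_mem h1 h3, ?_⟩
    rw [Prod.fst_mul, toAdd_mul, map_add, ← h2, ← h4, ← ofMul_mul, ← map_mul]
    rfl
  | inv x _ hx =>
    obtain ⟨h1, h2⟩ := hx
    refine ⟨inv_mem h1, ?_⟩
    rw [Prod.fst_inv, toAdd_inv, map_neg, ← h2, ← ofMul_inv, ← map_inv]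
    rfl

theorem Slack_H_comm (sec : G → FreeGroup (E ⊕ S)) {s : FreeGroup ((E ⊕ S) ⊕ F)}
    (hx : (1, s) ∈ Slack_H F sec) : s ∈ ⁅slackN E S F, slackN E S F⁆ := by
  obtain ⟨hs, h⟩ := Slack_H_ab sec hx
  simp only [toAdd_one, map_zero, ofMul_eq_zero] at h
  have h1 : (⟨s, hs⟩ : slackN E S F) ∈ commutator (slackN E S F) := by
    rw [← Abelianization.ker_of]; exact h
  have h2 := Subgroup.mem_map_of_mem (slackN E S F).subtype h1
  rwa [Subgroup.map_subtype_commutator] at h2

theorem exists_slack {γ : E → G} {w : F → FreeGroup E} (h : Res γ w) (π : E ⊕ S → G)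
    (hπ : ∀ e, π (.inl e) = γ e) (rel : R → FreeGroup (E ⊕ S))
    (hker : (FreeGroup.lift π).ker = Subgroup.normalClosure (Set.range rel)) :
    ∃ (ℓ : R → (G × F →₀ ℤ)) (relP : R → FreeGroup ((E ⊕ S) ⊕ F))
      (g₁ : (G × (E ⊕ S) →₀ ℤ) →ₗ[ℤ] (G × E →₀ ℤ)),
      (∀ j, FreeGroup.lift (piP π) (relP j) = 1) ∧
      (∀ g j, chain (piP π) g (relP j) =
        Finsupp.mapDomain (fun p => (p.1, Sum.inl p.2)) (chain π g (rel j)) -
        Finsupp.mapDomain (fun p => (p.1, Sum.inr p.2)) (tr g (ℓ j))) ∧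
      (∀ g e, g₁ (Finsupp.single (g, .inl e) 1) = Finsupp.single (g, e) 1) ∧
      (∀ g j, bd γ w (tr g (ℓ j)) = g₁ (chain π g (rel j))) ∧
      (∀ τ, FreeGroup.map (Sum.inl ∘ Sum.inl) (w τ) * (FreeGroup.of (Sum.inr τ))⁻¹ ∈
        Subgroup.normalClosure (Set.range relP) ⊔ ⁅slackN E S F, slackN E S F⁆) ∧
      (∀ u, FreeGroup.lift γ u = 1 → FreeGroup.map (Sum.inl ∘ Sum.inl) u ∈
        Subgroup.normalClosure (Set.range relP) ⊔ slackN E S F) := by
  classical
  -- representatives of the letters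
  let r : E ⊕ S → FreeGroup E := Sum.elim FreeGroup.of (fun x => (h.surj (π (.inr x))).choose)
  have hr : ∀ x, FreeGroup.lift γ (r x) = π x := by
    rintro (e | x)
    · simp [r, hπ]
    · exact (h.surj (π (.inr x))).choose_spec
  have hlr : ∀ u, FreeGroup.lift γ (FreeGroup.lift r u) = FreeGroup.lift π u := by
    intro u
    have : (FreeGroup.lift γ).comp (FreeGroup.lift r) = FreeGroup.lift π := by ext x; simp [hr]
    exact DFunLike.congr_fun this u
  let g₁ : (G × (E ⊕ S) →₀ ℤ) →ₗ[ℤ] (G × E →₀ ℤ) :=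
    Finsupp.linearCombination ℤ (fun p => chain γ p.1 (r p.2))
  have hg₁ : ∀ u g, g₁ (chain π g u) = chain γ g (FreeGroup.lift r u) := by
    intro u
    induction u using FreeGroup.induction_on with
    | C1 => intro g; simp
    | of x => intro g; simp [g₁]
    | inv_of x ih => intro g; rw [chain_inv, map_neg, ih, map_inv, chain_inv, hlr]
    | mul u v ihu ihv => intro g; rw [chain_mul, map_add, ihu, ihv, map_mul, chain_mul, hlr]
  have hπγ : π ∘ Sum.inl = γ := funext hπ
  have hsurj : Function.Surjective (FreeGroup.lift π) := fun g => by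
    obtain ⟨u, rfl⟩ := h.surj g
    exact ⟨FreeGroup.map Sum.inl u, by rw [Slack_lift_map, hπγ]⟩
  choose sec hsec using hsurj
  have hrel : ∀ j, FreeGroup.lift π (rel j) = 1 := fun j => by
    rw [← MonoidHom.mem_ker, hker]
    exact Subgroup.subset_normalClosure ⟨j, rfl⟩
  have hℓ : ∀ j, ∃ d, bd γ w d = g₁ (chain π 1 (rel j)) := fun j =>
    h.exact _ (by rw [hg₁, d1_chain, hlr, hrel]; simp)
  choose ℓ hℓ using hℓ
  choose sl hsl using fun j => Slack_H_exists (F := F) sec (ℓ j)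
  let ι : FreeGroup (E ⊕ S) →* FreeGroup ((E ⊕ S) ⊕ F) := FreeGroup.map Sum.inl
  have hι : ∀ u, FreeGroup.lift (piP π) (ι u) = FreeGroup.lift π u := fun u =>
    Slack_lift_map _ _ u
  let relP : R → FreeGroup ((E ⊕ S) ⊕ F) := fun j => ι (rel j) * (sl j)⁻¹
  have hmap : ∀ u : FreeGroup E, FreeGroup.map (Sum.inl ∘ Sum.inl) u =
      ι (FreeGroup.map Sum.inl u) := fun u => by
    simp only [ι]; rw [FreeGroup.map.comp]
  -- the second clause
  have hsecond : ∀ u, FreeGroup.lift π u = 1 →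
      ι u ∈ Subgroup.normalClosure (Set.range relP) ⊔ slackN E S F := by
    intro u hu
    have h1 : Subgroup.normalClosure (Set.range rel) ≤
        (Subgroup.normalClosure (Set.range relP) ⊔ slackN E S F).comap ι := by
      refine Subgroup.normalClosure_le_normal ?_
      rintro _ ⟨j, rfl⟩
      have e : ι (rel j) = relP j * sl j := by simp [relP]
      rw [SetLike.mem_coe, Subgroup.mem_comap, e]
      exact mul_mem (Subgroup.mem_sup_left (Subgroup.subset_normalClosure ⟨j, rfl⟩))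
        (Subgroup.mem_sup_right (Slack_H_ab sec (hsl j)).1)
    exact h1 (hker ▸ MonoidHom.mem_ker.2 hu)
  let W : Subgroup (FreeGroup ((E ⊕ S) ⊕ F)) :=
    Subgroup.normalClosure (Set.range relP) ⊔ ⁅slackN E S F, slackN E S F⁆
  have : W.Normal := Subgroup.sup_normal _ _
  let q := QuotientGroup.mk' W
  have hq : ∀ y, q y = 1 ↔ y ∈ W := fun y => QuotientGroup.eq_one_iff y
  have hcomm : ∀ u, FreeGroup.lift π u = 1 → ∀ x ∈ slackN E S F, Commute (q (ι u)) (q x) := by
    intro u hu x hx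
    obtain ⟨a, ha, b, hb, e⟩ := Subgroup.mem_sup_of_normal_right.1 (hsecond u hu)
    rw [← e, map_mul, (hq a).2 (Subgroup.mem_sup_left ha), one_mul,
      ← commutatorElement_eq_one_iff_commute, ← map_commutatorElement, hq]
    exact Subgroup.mem_sup_right (Subgroup.commutator_mem_commutator hb hx)
  have hc : ∀ v (p : G × F), q (ι v * Slack_c sec p * (ι v)⁻¹) =
      q (Slack_c sec (FreeGroup.lift π v * p.1, p.2)) := by
    intro v p
    have h1 := hcomm ((sec (FreeGroup.lift π v * p.1))⁻¹ * v * sec p.1) (by simp [hsec, mul_assoc]) _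
      (Slack_of_mem p.2)
    simp only [Slack_c, map_mul, map_inv] at h1 ⊢
    change _ = q (ι _) * _ * (q (ι _))⁻¹
    change q (ι v) * (q (ι _) * _ * (q (ι _))⁻¹) * _ = _
    generalize q (ι (sec (FreeGroup.lift π v * p.1))) = A at h1 ⊢
    generalize q (ι (sec p.1)) = B at h1 ⊢
    generalize q (FreeGroup.of (Sum.inr p.2)) = X at h1 ⊢
    generalize q (ι v) = V at h1 ⊢
    have h2 : X = (A⁻¹ * V * B) * X * (A⁻¹ * V * B)⁻¹ := by rw [h1.eq]; group
    conv_rhs => rw [h2]
    group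
  have hconj : ∀ v, ∀ x ∈ Slack_H F sec, ∃ s', (Multiplicative.ofAdd
      (tr (FreeGroup.lift π v) (Multiplicative.toAdd x.1)), s') ∈ Slack_H F sec ∧
      q (ι v * x.2 * (ι v)⁻¹) = q s' := by
    intro v x hx
    induction hx using Subgroup.closure_induction with
    | mem x hx =>
      obtain ⟨p, rfl⟩ := hx
      exact ⟨_, by simpa using Slack_H_gen sec (FreeGroup.lift π v * p.1, p.2), hc v p⟩
    | one => exact ⟨1, by rw [Prod.fst_one, toAdd_one, map_zero]; exact one_mem _, by simp⟩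
    | mul x y _ _ hx hy =>
      obtain ⟨s, h1, h2⟩ := hx
      obtain ⟨t, h3, h4⟩ := hy
      refine ⟨s * t, by simpa using mul_mem h1 h3, ?_⟩
      rw [map_mul q s, ← h2, ← h4, ← map_mul, Prod.snd_mul]
      congr 1; group
    | inv x _ hx =>
      obtain ⟨s, h1, h2⟩ := hx
      refine ⟨s⁻¹, by simpa using inv_mem h1, ?_⟩
      rw [map_inv q s, ← h2, ← map_inv q, Prod.snd_inv]
      congr 1; group
  let K : Subgroup (FreeGroup (E ⊕ S)) :=
    { carrier := {u | FreeGroup.lift π u = 1 ∧ ∃ d s, (Multiplicative.ofAdd d, s) ∈ Slack_H F sec ∧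
        bd γ w d = g₁ (chain π 1 u) ∧ q (ι u) = q s}
      one_mem' := ⟨map_one _, 0, 1, one_mem _, by simp, by simp⟩
      mul_mem' := by
        rintro a b ⟨ha, d, s, h1, h2, h3⟩ ⟨hb, d', s', h4, h5, h6⟩
        refine ⟨by rw [map_mul, ha, hb, mul_one], d + d', s * s', mul_mem h1 h4, ?_, ?_⟩
        · rw [chain_mul, ha, mul_one, map_add, map_add, h2, h5]
        · rw [map_mul, map_mul, map_mul, h3, h6]
      inv_mem' := by
        rintro a ⟨ha, d, s, h1, h2, h3⟩
        refine ⟨by rw [map_inv, ha, inv_one], -d, s⁻¹, inv_mem h1, ?_, ?_⟩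
        · rw [chain_inv, ha, inv_one, mul_one, map_neg, map_neg, h2]
        · rw [map_inv, map_inv, map_inv, h3] }
  have hK : K.Normal := ⟨by
    rintro u ⟨hu, d, s, h1, h2, h3⟩ v
    obtain ⟨s', h4, h5⟩ := hconj v _ h1
    refine ⟨by simp [hu], _, s', h4, ?_, ?_⟩
    · rw [toAdd_ofAdd, bd_tr, h2, Slack_chain_conj _ _ _ _ hu, hg₁, hg₁, tr_chain, mul_one, one_mul]
    · rw [← h5, map_mul ι, map_mul ι, map_inv, map_mul, map_mul, map_mul, map_mul, h3]⟩
  have hKle : Subgroup.normalClosure (Set.range rel) ≤ K := by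
    refine Subgroup.normalClosure_le_normal ?_
    rintro _ ⟨j, rfl⟩
    refine ⟨hrel j, ℓ j, sl j, hsl j, hℓ j, ?_⟩
    rw [← mul_inv_eq_one, ← map_inv, ← map_mul, hq]
    exact Subgroup.mem_sup_left (Subgroup.subset_normalClosure ⟨j, rfl⟩)
  refine ⟨ℓ, relP, g₁, fun j => ?_, fun g j => ?_, fun g e => ?_, fun g j => ?_, fun τ => ?_,
    fun u hu => ?_⟩
  · have := (Slack_H_chain π sec hsec (hsl j)).1
    simp only [relP, map_mul, map_inv, hι, hrel, one_mul, inv_eq_one]
    exact this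
  · obtain ⟨h1, h2⟩ := Slack_H_chain π sec hsec (hsl j)
    simp only [relP]
    rw [chain_mul, hι, hrel, mul_one, chain_inv, h1, inv_one, mul_one, h2, toAdd_ofAdd,
      sub_eq_add_neg]
    congr 1
    exact chain_map _ _ _ _
  · simp [g₁, r]
  · rw [bd_tr, hℓ, hg₁, hg₁, tr_chain, mul_one]
  · have hu : FreeGroup.lift π (FreeGroup.map Sum.inl (w τ)) = 1 := by
      rw [Slack_lift_map, hπγ, h.rel]
    obtain ⟨-, d, s, h1, h2, h3⟩ := hKle (hker ▸ MonoidHom.mem_ker.2 hu)
    have e1 : FreeGroup.lift r (FreeGroup.map Sum.inl (w τ)) = w τ := by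
      rw [Slack_lift_map]
      exact FreeGroup.lift_of_apply _
    have e2 : d = Finsupp.single (1, τ) 1 := h.inj (by rw [h2, hg₁, e1]; simp)
    subst e2
    have h4 := mul_mem h1 (inv_mem (Slack_H_gen sec (1, τ)))
    rw [Prod.inv_mk, Prod.mk_mul_mk, mul_inv_cancel] at h4
    have h5 : q s = q (Slack_c sec (1, τ)) := by
      rw [← mul_inv_eq_one, ← map_inv, ← map_mul, hq]
      exact Subgroup.mem_sup_right (Slack_H_comm sec h4)
    have h6 : q (Slack_c sec (1, τ)) = q (FreeGroup.of (Sum.inr τ)) := by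
      have := (hcomm (sec 1) (hsec 1) _ (Slack_of_mem τ)).eq
      simp only [Slack_c, map_mul, map_inv]
      change q (ι _) * _ * (q (ι _))⁻¹ = _
      rw [this, mul_inv_cancel_right]
    show _ ∈ W
    rw [← hq, hmap, map_mul, map_inv, h3, h5, h6, mul_inv_cancel]
  · rw [hmap]
    exact hsecond _ (by rw [Slack_lift_map, hπγ, hu])

end Crest.Agent.R197
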