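import Crest.Agent.R197.GRPure
import Crest.Agent.R197.Slack
import Crest.Agent.R197.Est
import Crest.Agent.Lib.CWComb.Main

/-! The core contradiction. -/

set_option autoImplicit false

open Quaternion

namespace Crest.Agent.R197

open Crest.Agent.Lib.CWComb

theorem dvd_map {X Y : Type} (p : ℤ) (f : (X →₀ ℤ) →ₗ[ℤ] (Y →₀ ℤ)) (c : X →₀ ℤ)
    (h : ∀ x, p ∣ c x) (y : Y) : p ∣ f c y := by
  have : c = p • c.mapRange (· / p) (by simp) := by
    ext x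
    simp [Int.mul_ediv_cancel' (h x)]
  rw [this, map_smul]
  simp

theorem dvd_map' {X : Type} (p : ℤ) (f : (X →₀ ℤ) →ₗ[ℤ] ℤ) (c : X →₀ ℤ)
    (h : ∀ x, p ∣ c x) : p ∣ f c := by
  have : c = p • c.mapRange (· / p) (by simp) := by
    ext x
    simp [Int.mul_ediv_cancel' (h x)]
  rw [this, map_smul]
  simp

section

variable {G E F : Type} [Group G] {γ : E → G} {w : F → FreeGroup E} {ε : ℝ}

/-- the unknowns -/
abbrev Unk (S : Type) (Λ : SmallFlat γ w ε) : Type := (G × (E ⊕ S)) ⊕ (Λ.Vx ⊕ (G × F))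

open Classical in
/-- the substitution of unknowns and constants for the edges -/
noncomputable def subY (S : Type) (Λ : SmallFlat γ w ε) (g : G) :
    (E ⊕ S) ⊕ F → FreeGroup (Unk S Λ ⊕ (G × E))
  | .inl (.inl e) =>
    if (g, e) ∈ Λ.Λ₁ then FreeGroup.of (.inl (.inr (.inl (Λ.o (g, e))))) *
      FreeGroup.of (.inr (g, e)) * (FreeGroup.of (.inl (.inr (.inl (Λ.t (g, e))))))⁻¹
    else FreeGroup.of (.inl (.inl (g, .inl e)))
  | .inl (.inr s) => FreeGroup.of (.inl (.inl (g, .inr s)))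
  | .inr τ => if (g, τ) ∈ Λ.Λ₂ then FreeGroup.of (.inl (.inr (.inr (g, τ)))) else 1

open Classical in
/-- the part of a chain on the edges of `Λ` -/
noncomputable def lamF (S : Type) (Λ : SmallFlat γ w ε) :
    (G × (E ⊕ S) →₀ ℤ) →ₗ[ℤ] (G × E →₀ ℤ) :=
  Finsupp.linearCombination ℤ fun x => match x.2 with
    | .inl e => if (x.1, e) ∈ Λ.Λ₁ then Finsupp.single (x.1, e) 1 else 0
    | .inr _ => 0

theorem lamF_support (S : Type) (Λ : SmallFlat γ w ε) (B : G × (E ⊕ S) →₀ ℤ) :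
    ∀ e ∈ (lamF S Λ B).support, e ∈ Λ.Λ₁ := by
  classical
  intro e he
  by_contra hn
  refine Finsupp.mem_support_iff.1 he ?_
  clear he
  induction B using Finsupp.induction_linear with
  | zero => simp
  | add a b ha hb => simp [ha, hb]
  | single x n =>
    obtain ⟨g, e' | s⟩ := x
    · by_cases h : (g, e') ∈ Λ.Λ₁
      · have : (g, e') ≠ e := fun h' => hn (h' ▸ h)
        simp [lamF, h, this]
      · simp [lamF, h]
    · simp [lamF]

theorem pure_system {S R : Type} (h : Res γ w) (Λ : SmallFlat γ w ε) {π : E ⊕ S → G}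
    {rel : R → FreeGroup (E ⊕ S)} (hP : IsAsphPres π rel) (ℓ : R → (G × F →₀ ℤ))
    (relP : R → FreeGroup ((E ⊕ S) ⊕ F)) (g₁ : (G × (E ⊕ S) →₀ ℤ) →ₗ[ℤ] (G × E →₀ ℤ))
    (h2 : ∀ g j, chain (piP π) g (relP j) =
      Finsupp.mapDomain (fun p => (p.1, Sum.inl p.2)) (chain π g (rel j)) -
      Finsupp.mapDomain (fun p => (p.1, Sum.inr p.2)) (tr g (ℓ j)))
    (h3 : ∀ g e, g₁ (Finsupp.single (g, .inl e) 1) = Finsupp.single (g, e) 1)
    (h4 : ∀ g j, bd γ w (tr g (ℓ j)) = g₁ (chain π g (rel j))) (D : Finset (G × R))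
    (p : ℤ) (c : D → ℤ)
    (hc : ∀ u, p ∣ ∑ j : D, c j * expo (hol (piP π) (subY S Λ) j.1.1 (relP j.1.2)) (.inl u))
    (j₀ : D) : p ∣ c j₀ := by
  classical
  let Φ : (G × ((E ⊕ S) ⊕ F) →₀ ℤ) →ₗ[ℤ] (Unk S Λ ⊕ (G × E) →₀ ℤ) :=
    Finsupp.linearCombination ℤ fun x => expo (subY S Λ x.1 x.2)
  let i₁ : (G × (E ⊕ S) →₀ ℤ) →ₗ[ℤ] (G × ((E ⊕ S) ⊕ F) →₀ ℤ) :=
    Finsupp.lmapDomain ℤ ℤ fun p => (p.1, Sum.inl p.2)
  let i₂ : (G × F →₀ ℤ) →ₗ[ℤ] (G × ((E ⊕ S) ⊕ F) →₀ ℤ) :=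
    Finsupp.lmapDomain ℤ ℤ fun p => (p.1, Sum.inr p.2)
  let ι : (G × E →₀ ℤ) →ₗ[ℤ] (G × (E ⊕ S) →₀ ℤ) :=
    Finsupp.lmapDomain ℤ ℤ fun p => (p.1, Sum.inl p.2)
  let B : G × (E ⊕ S) →₀ ℤ := ∑ j : D, c j • chain π j.1.1 (rel j.1.2)
  let L : G × F →₀ ℤ := ∑ j : D, c j • tr j.1.1 (ℓ j.1.2)
  have hc' : ∀ u, p ∣ (Φ (i₁ B) - Φ (i₂ L)) (.inl u) := by
    intro u
    have := hc u
    simp only [expo_hol, h2] at this
    convert this using 1
    simp only [B, L, map_sum, map_smul, map_sub, Finsupp.sub_apply, Finsupp.finsetSum_apply,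
      Finsupp.smul_apply, smul_eq_mul, mul_sub, Finset.sum_sub_distrib]
    rfl
  have e1 : ∀ (B : G × (E ⊕ S) →₀ ℤ) x, Φ (i₁ B) (.inl (.inl x)) = (B - ι (lamF S Λ B)) x := by
    intro B x
    induction B using Finsupp.induction_linear with
    | zero => simp
    | add a b ha hb =>
      simp only [map_add, Finsupp.add_apply, ha, hb, Finsupp.sub_apply]
      ring
    | single y n =>
      obtain ⟨g, e | s⟩ := y
      · by_cases hΛ : (g, e) ∈ Λ.Λ₁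
        · simp [Φ, i₁, ι, lamF, subY, hΛ]
        · simp [Φ, i₁, ι, lamF, subY, hΛ, Finsupp.single_apply]
      · simp [Φ, i₁, ι, lamF, subY, Finsupp.single_apply]
  have e2 : ∀ (B : G × (E ⊕ S) →₀ ℤ) v, Φ (i₁ B) (.inl (.inr (.inl v))) =
      -(Finsupp.lmapDomain ℤ ℤ Λ.t (lamF S Λ B) - Finsupp.lmapDomain ℤ ℤ Λ.o (lamF S Λ B)) v := by
    intro B v
    induction B using Finsupp.induction_linear with
    | zero => simp
    | add a b ha hb =>
      simp only [map_add, Finsupp.add_apply, ha, hb, Finsupp.sub_apply]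
      ring
    | single y n =>
      obtain ⟨g, e | s⟩ := y
      · by_cases hΛ : (g, e) ∈ Λ.Λ₁
        · simp [Φ, i₁, lamF, subY, hΛ, Finsupp.single_apply, sub_eq_add_neg, add_comm]
        · simp [Φ, i₁, lamF, subY, hΛ]
      · simp [Φ, i₁, lamF, subY]
  have e3 : ∀ (B : G × (E ⊕ S) →₀ ℤ) τ, Φ (i₁ B) (.inl (.inr (.inr τ))) = 0 := by
    intro B v
    induction B using Finsupp.induction_linear with
    | zero => simp
    | add a b ha hb => simp only [map_add, Finsupp.add_apply, ha, hb, add_zero]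
    | single y n =>
      obtain ⟨g, e | s⟩ := y
      · by_cases hΛ : (g, e) ∈ Λ.Λ₁ <;> simp [Φ, i₁, subY, hΛ]
      · simp [Φ, i₁, subY]
  have e4 : ∀ (L : G × F →₀ ℤ) u, (∀ τ, u ≠ .inr (.inr τ)) → Φ (i₂ L) (.inl u) = 0 := by
    intro L u hu
    induction L using Finsupp.induction_linear with
    | zero => simp
    | add a b ha hb => simp only [map_add, Finsupp.add_apply, ha, hb, add_zero]
    | single y n =>
      obtain ⟨g, τ⟩ := y
      by_cases hΛ : (g, τ) ∈ Λ.Λ₂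
      · simp [Φ, i₂, subY, hΛ, (hu _).symm]
      · simp [Φ, i₂, subY, hΛ]
  have e5 : ∀ (L : G × F →₀ ℤ), ∀ τ ∈ Λ.Λ₂, Φ (i₂ L) (.inl (.inr (.inr τ))) = L τ := by
    intro L τ hτ
    induction L using Finsupp.induction_linear with
    | zero => simp
    | add a b ha hb => simp only [map_add, Finsupp.add_apply, ha, hb]
    | single y n =>
      obtain ⟨g, τ'⟩ := y
      by_cases hΛ : (g, τ') ∈ Λ.Λ₂
      · simp [Φ, i₂, subY, hΛ, Finsupp.single_apply]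
      · have : (g, τ') ≠ τ := fun h' => hΛ (h' ▸ hτ)
        simp [Φ, i₂, subY, hΛ, this]
  have e6 : ∀ lam : G × E →₀ ℤ, g₁ (ι lam) = lam := by
    intro lam
    induction lam using Finsupp.induction_linear with
    | zero => simp
    | add a b ha hb => simp only [map_add, ha, hb]
    | single y n =>
      have : ι (Finsupp.single y n) = n • Finsupp.single (y.1, .inl y.2) 1 := by simp [ι]
      rw [this, map_smul, h3]
      simp
  have d1' : ∀ x, p ∣ (B - ι (lamF S Λ B)) x := fun x => by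
    have := hc' (.inl x)
    rwa [Finsupp.sub_apply, e4 _ _ (by simp), e1, sub_zero] at this
  have d2 : ∀ τ ∈ Λ.Λ₂, p ∣ L τ := fun τ hτ => by
    have := hc' (.inr (.inr τ))
    rwa [Finsupp.sub_apply, e3, e5 _ _ hτ, zero_sub, dvd_neg] at this
  obtain ⟨d, hd1, hd2⟩ := Λ.pure p (lamF S Λ B) (lamF_support S Λ B) fun v => by
    have := hc' (.inr (.inl v))
    rwa [Finsupp.sub_apply, e4 _ _ (by simp), e2, sub_zero, dvd_neg] at this
  have hL : bd γ w L = g₁ B := by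
    simp only [B, L, map_sum, map_smul, h4]
  have d3 : ∀ τ, p ∣ (L - d) τ := by
    refine h.pure p _ fun e => ?_
    have : bd γ w (L - d) = g₁ (B - ι (lamF S Λ B)) + (lamF S Λ B - bd γ w d) := by
      rw [map_sub, map_sub, e6, hL]
      abel
    rw [this, Finsupp.add_apply]
    exact (dvd_map p g₁ _ d1' e).add (hd2 e)
  have d4 : ∀ τ, p ∣ d τ := fun τ => by
    by_cases hτ : τ ∈ Λ.Λ₂
    · have := (d2 τ hτ).sub (d3 τ)
      simpa using this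
    · rw [Finsupp.notMem_support_iff.1 fun h' => hτ (hd1 h')]
      exact dvd_zero _
  have d5 : ∀ e, p ∣ lamF S Λ B e := fun e => by
    have := (hd2 e).add (dvd_map p (bd γ w) d d4 e)
    simpa using this
  have d6 : ∀ x, p ∣ B x := fun x => by
    have := (d1' x).add (dvd_map p ι _ d5 x)
    simpa using this
  obtain ⟨n, hn1, hn2⟩ := hP.dual j₀.1
  have d7 := dvd_map' p (Finsupp.linearCombination ℤ fun x : G × (E ⊕ S) => (n x.1 x.2).toAdd) B d6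
  have e7 : ∀ g u, Finsupp.linearCombination ℤ (fun x : G × (E ⊕ S) => (n x.1 x.2).toAdd)
      (chain π g u) = (hol π n g u).toAdd := fun g u =>
    (hol_eq_chain π (fun g x => (n g x).toAdd) g u).symm
  simp only [B, map_sum, map_smul, e7] at d7
  rw [Finset.sum_eq_single j₀ (fun j _ hj => by
    rw [hn2 j.1 fun h' => hj (Subtype.ext h')]; simp) (by simp), hn1] at d7
  simpa using d7

end

theorem not_hasClassifyingComplex_two {G E F : Type} [Group G] [Finite F] {γ : E → G}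
    {w : F → FreeGroup E} (h : Res γ w) (hs : ∀ ε : ℝ, 0 < ε → Nonempty (SmallFlat γ w ε)) :
    ¬ Crest.Topology.HasClassifyingComplex G 2 := by
  classical
  intro hcl
  obtain ⟨S, R, π', rel, hP⟩ := exists_presentation hcl γ
  set π : E ⊕ S → G := Sum.elim γ π' with hπ
  obtain ⟨ℓ, relP, g₁, h1, h2, h3, h4, h5, h6⟩ := exists_slack h π (fun _ => rfl) rel hP.ker_eq
  have hZ : ∀ z ∈ Set.range (Sum.inr : F → (E ⊕ S) ⊕ F), piP π z = 1 := by
    rintro _ ⟨τ, rfl⟩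
    rfl
  choose Cq Dq hCq hq using fun τ => exists_quad (piP π) relP h1 _ hZ _ (h5 τ)
  obtain ⟨C₀, hC₀⟩ := (Set.finite_range Cq).bddAbove
  let C := max C₀ 0
  have hC0 : 0 ≤ C := le_max_right _ _
  have hC : ∀ τ, Cq τ ≤ C := fun τ => (hC₀ ⟨τ, rfl⟩).trans (le_max_left _ _)
  let δ : ℝ := 1 / (2 * (C + 1))
  have hδ : 0 < δ := by positivity
  have hCδ : C * δ ≤ 1 / 2 := by
    rw [mul_one_div, div_le_div_iff₀ (by positivity) two_pos]
    linarith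
  obtain ⟨Λ⟩ := hs (δ / 4) (by positivity)
  obtain ⟨g₀, u₀, hu₀, hloop⟩ := Λ.loop
  obtain ⟨Cl, Dl, -, hl⟩ := exists_lin (piP π) relP h1 _ hZ _ (h6 u₀ hu₀)
  let D : Finset (G × R) := (Λ.Λ₂.biUnion fun τ => (Dq τ.2).image fun c => (τ.1 * c.1, c.2)) ∪
    Dl.image fun c => (g₀ * c.1, c.2)
  let W : D → FreeGroup (Unk S Λ ⊕ (G × E)) := fun j => hol (piP π) (subY S Λ) j.1.1 (relP j.1.2)
  let a : ℝ → G × E → S3 := fun s k => Λ.a s k.1 k.2
  let Z : Set (Unk S Λ) := {u | ∃ τ ∈ Λ.Λ₂, u = .inr (.inr τ)}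
  -- the connection defined by values of the unknowns
  let y : ℝ → (Unk S Λ → S3) → G → (E ⊕ S) ⊕ F → S3 := fun s x g b =>
    FreeGroup.lift (Sum.elim x (a s)) (subY S Λ g b)
  have hW : ∀ s x (j : D), FreeGroup.lift (Sum.elim x (a s)) (W j) =
      hol (piP π) (y s x) j.1.1 (relP j.1.2) := fun s x j => map_hol _ _ _ _ _
  have hcomp : ∀ s x, Compat Λ.o Λ.t Λ.Λ₁ (Λ.a s) (fun g e => y s x g (.inl (.inl e)))
      fun v => x (.inr (.inl v)) := by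
    rintro s x ⟨g, e⟩ he
    simp [y, subY, he, a]
  have hmap : ∀ s x g u, hol (piP π) (y s x) g (FreeGroup.map (Sum.inl ∘ Sum.inl) u) =
      hol γ (fun g e => y s x g (.inl (.inl e))) g u := fun s x g u => hol_map _ _ _ _ _
  have hlift : ∀ u, FreeGroup.lift (piP (F := F) π) (FreeGroup.map (Sum.inl ∘ Sum.inl) u) =
      FreeGroup.lift γ u := by
    intro u
    have : (FreeGroup.lift (piP (F := F) π)).comp (FreeGroup.map (Sum.inl ∘ Sum.inl)) =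
        FreeGroup.lift γ := by
      ext e
      simp [piP, hπ]
    exact DFunLike.congr_fun this u
  have hslack : ∀ s x (ζ : ℝ), 0 ≤ ζ → (∀ τ ∈ Λ.Λ₂, ‖(x (.inr (.inr τ)) : ℍ[ℝ]) - 1‖ ≤ ζ) →
      ∀ g, ∀ z ∈ Set.range (Sum.inr : F → (E ⊕ S) ⊕ F), ‖(y s x g z : ℍ[ℝ]) - 1‖ ≤ ζ := by
    rintro s x ζ hζ hx g _ ⟨τ, rfl⟩
    by_cases hτ : (g, τ) ∈ Λ.Λ₂
    · simpa [y, subY, hτ] using hx _ hτ
    · simpa [y, subY, hτ] using hζ
  have key : ∀ s x, (∀ j, FreeGroup.lift (Sum.elim x (a s)) (W j) = 1) → ∀ ζ : ℝ, 0 ≤ ζ →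
      (∀ τ ∈ Λ.Λ₂, ‖(x (.inr (.inr τ)) : ℍ[ℝ]) - 1‖ ≤ ζ) → ∀ τ ∈ Λ.Λ₂,
      ‖(x (.inr (.inr τ)) : ℍ[ℝ]) - 1‖ ≤
        ‖((hol γ (fun g e => y s x g (.inl (.inl e))) τ.1 (w τ.2) : S3) : ℍ[ℝ]) - 1‖ + C * ζ ^ 2 := by
    intro s x hx ζ hζ hz τ hτ
    have := hq τ.2 τ.1 (y s x) ζ hζ (fun c hc => by
      rw [← hx ⟨(τ.1 * c.1, c.2), Finset.mem_union_left _
        (Finset.mem_biUnion.2 ⟨τ, hτ, Finset.mem_image_of_mem _ hc⟩)⟩, hW]) (hslack s x ζ hζ hz)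
    rw [hol_mul, hol_inv, hmap, hlift, h.rel, hol_of, norm_mul_inv_sub_one] at this
    have e : y s x (τ.1 * 1 * (FreeGroup.lift (piP π) (FreeGroup.of (Sum.inr τ.2)))⁻¹) (.inr τ.2) =
        x (.inr (.inr τ)) := by
      simp [y, subY, piP, hτ]
    rw [e] at this
    have h7 : Cq τ.2 * ζ ^ 2 ≤ C * ζ ^ 2 := mul_le_mul_of_nonneg_right (hC _) (sq_nonneg _)
    have h8 := norm_sub_le_norm_sub_add_norm_sub (x (.inr (.inr τ)) : ℍ[ℝ])
      ((hol γ (fun g e => y s x g (.inl (.inl e))) τ.1 (w τ.2) : S3) : ℍ[ℝ]) 1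
    rw [norm_sub_rev] at this
    linarith
  obtain ⟨x, hx1, hx2⟩ := exists_solution_pure W
    (pure_system h Λ hP ℓ relP g₁ h2 h3 h4 D) a (fun k => Λ.cont k.1 k.2)
    (fun k => Λ.zero k.1 k.2) Z δ hδ (by
      rintro s hs x hx hz _ ⟨τ, hτ, rfl⟩
      have h7 := key s x hx δ hδ.le (fun τ hτ => hz _ ⟨τ, hτ, rfl⟩) τ hτ
      have h8 := Λ.face τ hτ s hs _ _ (hcomp s x)
      nlinarith)
  have hzero : ∀ τ ∈ Λ.Λ₂, ‖(x (.inr (.inr τ)) : ℍ[ℝ]) - 1‖ ≤ 0 := by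
    intro τ₁ hτ₁
    obtain ⟨τ, hτ, hmax⟩ := Λ.Λ₂.exists_max_image
      (fun τ => ‖(x (.inr (.inr τ)) : ℍ[ℝ]) - 1‖) ⟨τ₁, hτ₁⟩
    have h7 := key 1 x hx1 _ (norm_nonneg _) hmax τ hτ
    rw [Λ.flat τ hτ _ _ (hcomp 1 x)] at h7
    have h8 := hx2 _ ⟨τ, hτ, rfl⟩
    refine (hmax τ₁ hτ₁).trans ?_
    set ζ := ‖(x (.inr (.inr τ)) : ℍ[ℝ]) - 1‖
    have h9 : 0 ≤ ζ := norm_nonneg _
    have h10 : ζ ≤ C * ζ ^ 2 := by simpa using h7
    have h11 : C * ζ ≤ 1 / 2 := (mul_le_mul_of_nonneg_left h8.le hC0).trans hCδ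
    nlinarith
  have h9 := hl g₀ (y 1 x) 0 le_rfl (fun c hc => by
    rw [← hx1 ⟨(g₀ * c.1, c.2), Finset.mem_union_right _ (Finset.mem_image_of_mem _ hc)⟩, hW])
    (hslack 1 x 0 le_rfl hzero)
  rw [hmap, mul_zero, norm_le_zero_iff, sub_eq_zero] at h9
  exact hloop _ _ (hcomp 1 x) (Subtype.ext h9)

end Crest.Agent.R197
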