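import Crest.Agent.Lib.CWComb.Defs

/-!
# Row 197 (Eilenberg–Ganea counterexample): definitions

`G = BB Γ` is the Bestvina–Brady kernel of the right-angled Artin group of a graph `Γ` whose clique
complex is two-dimensional, acyclic and carries a non-trivial flat `SU(2)` connection.
-/

set_option autoImplicit false

open Quaternion

namespace Crest.Agent.R197

open Crest.Agent.Lib.CWComb

/-- the unit quaternions -/
abbrev S3 : Type := unitary ℍ[ℝ]

/-! ### Chains in Cayley complexes -/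

section Chains

variable {G E F : Type} [Group G]

/-- the 1-chain of the edge path that reads `u` from the vertex `g` -/
noncomputable def chain (γ : E → G) (g : G) (u : FreeGroup E) : G × E →₀ ℤ :=
  Multiplicative.toAdd
    (hol γ (fun h e => Multiplicative.ofAdd (Finsupp.single (h, e) (1 : ℤ))) g u)

/-- the boundary of 2-chains -/
noncomputable def bd (γ : E → G) (w : F → FreeGroup E) : (G × F →₀ ℤ) →ₗ[ℤ] (G × E →₀ ℤ) :=
  Finsupp.linearCombination ℤ fun c => chain γ c.1 (w c.2)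

/-- the boundary of 1-chains -/
noncomputable def d1 (γ : E → G) : (G × E →₀ ℤ) →ₗ[ℤ] (G →₀ ℤ) :=
  Finsupp.linearCombination ℤ fun e => Finsupp.single (e.1 * γ e.2) 1 - Finsupp.single e.1 1

/-- left translation of chains -/
noncomputable def tr {X : Type} (g : G) : (G × X →₀ ℤ) →ₗ[ℤ] (G × X →₀ ℤ) :=
  Finsupp.lmapDomain ℤ ℤ fun p => (g * p.1, p.2)

/-- the Cayley 2-complex with edges `E` and faces `F` is acyclic -/
structure Res (γ : E → G) (w : F → FreeGroup E) : Prop where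
  rel : ∀ τ, FreeGroup.lift γ (w τ) = 1
  surj : Function.Surjective (FreeGroup.lift γ)
  inj : Function.Injective (bd γ w)
  exact : ∀ z, d1 γ z = 0 → z ∈ LinearMap.range (bd γ w)

/-- `y` is the gauge transform by `k` of the connection `a` on the edges in `Λ₁` -/
def Compat {Vx : Type} (o t : G × E → Vx) (Λ₁ : Set (G × E)) (a y : G → E → S3) (k : Vx → S3) :
    Prop :=
  ∀ e ∈ Λ₁, y e.1 e.2 = k (o e) * a e.1 e.2 * (k (t e))⁻¹

/-- A finite acyclic complex `Λ` mapping to the Cayley complex, with a path of `ε`-flat connections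
from the trivial one to a flat one with non-trivial holonomy around a loop of the Cayley graph. -/
structure SmallFlat (γ : E → G) (w : F → FreeGroup E) (ε : ℝ) where
  Vx : Type
  o : G × E → Vx
  t : G × E → Vx
  Λ₁ : Set (G × E)
  Λ₂ : Finset (G × F)
  a : ℝ → G → E → S3
  cont : ∀ g e, Continuous fun s => a s g e
  zero : ∀ g e, a 0 g e = 1
  face : ∀ τ ∈ Λ₂, ∀ s ∈ Set.Icc (0 : ℝ) 1, ∀ y k, Compat o t Λ₁ (a s) y k →
    ‖((hol γ y τ.1 (w τ.2) : S3) : ℍ[ℝ]) - 1‖ ≤ ε
  flat : ∀ τ ∈ Λ₂, ∀ y k, Compat o t Λ₁ (a 1) y k → hol γ y τ.1 (w τ.2) = 1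
  loop : ∃ g u, FreeGroup.lift γ u = 1 ∧ ∀ y k, Compat o t Λ₁ (a 1) y k → hol γ y g u ≠ 1
  pure : ∀ (p : ℤ) (lam : G × E →₀ ℤ), (∀ e ∈ lam.support, e ∈ Λ₁) →
    (∀ v, p ∣ (Finsupp.mapDomain t lam - Finsupp.mapDomain o lam : Vx →₀ ℤ) v) →
    ∃ d : G × F →₀ ℤ, d.support ⊆ Λ₂ ∧ ∀ e, p ∣ (lam - bd γ w d) e

/-- exponent sum of the letter `x` -/
noncomputable def expo {X : Type} (u : FreeGroup X) : X →₀ ℤ :=
  Multiplicative.toAdd
    (FreeGroup.lift (fun x => Multiplicative.ofAdd (Finsupp.single x (1 : ℤ))) u)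

end Chains

/-! ### Right-angled Artin groups -/

section Raag

variable {V : Type} (Γ : SimpleGraph V)

/-- the commutation relators -/
def raagRels : Set (FreeGroup V) :=
  {r | ∃ a b, Γ.Adj a b ∧
    r = FreeGroup.of a * FreeGroup.of b * (FreeGroup.of a)⁻¹ * (FreeGroup.of b)⁻¹}

/-- the right-angled Artin group -/
abbrev Raag : Type := PresentedGroup (raagRels Γ)

/-- the generators -/
def gen (a : V) : Raag Γ := PresentedGroup.of a

theorem gen_comm {a b : V} (h : Γ.Adj a b) : Commute (gen Γ a) (gen Γ b) := by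
  have := PresentedGroup.one_of_mem (rels := raagRels Γ) ⟨a, b, h, rfl⟩
  simp only [map_mul, map_inv] at this
  change gen Γ a * gen Γ b * (gen Γ a)⁻¹ * (gen Γ b)⁻¹ = 1 at this
  rw [mul_inv_eq_one, mul_inv_eq_iff_eq_mul] at this
  exact this

/-- a homomorphism to a commutative group with prescribed values on the generators -/
def raagLift {H : Type} [CommGroup H] (f : V → H) : Raag Γ →* H :=
  PresentedGroup.toGroup (f := f) (by
    rintro _ ⟨a, b, -, rfl⟩
    simp)

@[simp] theorem raagLift_gen {H : Type} [CommGroup H] (f : V → H) (a : V) :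
    raagLift Γ f (gen Γ a) = f a := PresentedGroup.toGroup.of _

/-- the height homomorphism -/
def htHom : Raag Γ →* Multiplicative ℤ := raagLift Γ fun _ => Multiplicative.ofAdd 1

/-- the height -/
def ht (x : Raag Γ) : ℤ := Multiplicative.toAdd (htHom Γ x)

@[simp] theorem ht_one : ht Γ 1 = 0 := by simp [ht]
@[simp] theorem ht_mul (x y : Raag Γ) : ht Γ (x * y) = ht Γ x + ht Γ y := by simp [ht]
@[simp] theorem ht_inv (x : Raag Γ) : ht Γ x⁻¹ = -ht Γ x := by simp [ht]
@[simp] theorem ht_gen (a : V) : ht Γ (gen Γ a) = 1 := by simp [ht, htHom]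
@[simp] theorem ht_pow (x : Raag Γ) (n : ℕ) : ht Γ (x ^ n) = n * ht Γ x := by simp [ht]
@[simp] theorem ht_zpow (x : Raag Γ) (n : ℤ) : ht Γ (x ^ n) = n * ht Γ x := by simp [ht]

/-- the abelianisation: exponent sums -/
def ab [DecidableEq V] (x : Raag Γ) : V → ℤ :=
  Multiplicative.toAdd (raagLift Γ (fun a => Multiplicative.ofAdd (Pi.single a (1 : ℤ))) x)

@[simp] theorem ab_one [DecidableEq V] : ab Γ 1 = 0 := by simp [ab]
@[simp] theorem ab_mul [DecidableEq V] (x y : Raag Γ) : ab Γ (x * y) = ab Γ x + ab Γ y := by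
  simp [ab]
@[simp] theorem ab_inv [DecidableEq V] (x : Raag Γ) : ab Γ x⁻¹ = -ab Γ x := by simp [ab]
@[simp] theorem ab_gen [DecidableEq V] (a : V) : ab Γ (gen Γ a) = Pi.single a 1 := by simp [ab]

/-- the Bestvina–Brady group -/
abbrev BB : Type := (htHom Γ).ker

theorem mem_BB {x : Raag Γ} : x ∈ (htHom Γ).ker ↔ ht Γ x = 0 := by
  simp [ht, MonoidHom.mem_ker]

/-- a signed generator: `true` is `a`, `false` is `a⁻¹` -/
def sg (x : V × Bool) : Raag Γ := if x.2 then gen Γ x.1 else (gen Γ x.1)⁻¹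

/-- A length function on the right-angled Artin group together with its descent sets. -/
structure Len where
  len : Raag Γ → ℕ
  desc : Raag Γ → V × Bool → Prop
  len_one : len 1 = 0
  len_desc : ∀ g x, desc g x → len (g * sg Γ x) + 1 = len g
  len_asc : ∀ g x, ¬ desc g x → len (g * sg Γ x) = len g + 1
  exists_desc : ∀ g, g ≠ 1 → ∃ x, desc g x
  desc_adj : ∀ g x y, desc g x → desc g y → x ≠ y → Γ.Adj x.1 y.1
  desc_mul : ∀ g x y, Γ.Adj x.1 y.1 → (desc (g * sg Γ y) x ↔ desc g x)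

variable [Fintype V] [LinearOrder V]

/-- the product of the generators in `σ` (meaningful for cliques) -/
noncomputable def pw (σ : Finset V) : Raag Γ := ((σ.sort (· ≤ ·)).map (gen Γ)).prod

/-- the monomial with exponents `m` (meaningful when the support of `m` is a clique) -/
noncomputable def mono (m : V → ℕ) : Raag Γ :=
  (((Finset.univ : Finset V).sort (· ≤ ·)).map fun a => gen Γ a ^ m a).prod

end Raag

/-! ### Simplicial and cubical chains -/

section Cubes

variable {V : Type} [LinearOrder V]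

/-- the sign of the vertex `a` in the simplex `σ` -/
def sgn (a : V) (σ : Finset V) : ℤ := (-1) ^ (σ.filter (· < a)).card

/-- the augmented simplicial boundary -/
noncomputable def sbd : (Finset V →₀ ℤ) →ₗ[ℤ] (Finset V →₀ ℤ) :=
  Finsupp.linearCombination ℤ fun σ => ∑ a ∈ σ, sgn a σ • Finsupp.single (σ.erase a) (1 : ℤ)

/-- the augmented chain complex of the family `K` is exact -/
def Acyc (K : Set (Finset V)) : Prop :=
  ∀ z : Finset V →₀ ℤ, (∀ σ ∈ z.support, σ ∈ K) → sbd z = 0 →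
    ∃ u : Finset V →₀ ℤ, (∀ σ ∈ u.support, σ ∈ K) ∧ sbd u = z

variable (Γ : SimpleGraph V)

/-- the cubical boundary; the cube `(g, σ)` has lowest vertex `g` and directions `σ` -/
noncomputable def cbd : (Raag Γ × Finset V →₀ ℤ) →ₗ[ℤ] (Raag Γ × Finset V →₀ ℤ) :=
  Finsupp.linearCombination ℤ fun c => ∑ a ∈ c.2, sgn a c.2 •
    (Finsupp.single (c.1 * gen Γ a, c.2.erase a) (1 : ℤ) - Finsupp.single (c.1, c.2.erase a) 1)

/-- a family of cubes closed under faces -/
structure CubeSet (C : Set (Raag Γ × Finset V)) : Prop where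
  clique : ∀ c ∈ C, Γ.IsClique (c.2 : Set V)
  face₀ : ∀ c ∈ C, ∀ a ∈ c.2, (c.1, c.2.erase a) ∈ C
  face₁ : ∀ c ∈ C, ∀ a ∈ c.2, (c.1 * gen Γ a, c.2.erase a) ∈ C

/-- the augmentation: sum of the coefficients of the vertices -/
noncomputable def aug : (Raag Γ × Finset V →₀ ℤ) →ₗ[ℤ] ℤ :=
  Finsupp.linearCombination ℤ fun c => if c.2 = ∅ then 1 else 0

/-- the cubical chain complex of `C` is acyclic -/
def CAcyc (C : Set (Raag Γ × Finset V)) : Prop :=
  ∀ z : Raag Γ × Finset V →₀ ℤ, (∀ c ∈ z.support, c ∈ C) → cbd Γ z = 0 → aug Γ z = 0 →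
    ∃ u : Raag Γ × Finset V →₀ ℤ, (∀ c ∈ u.support, c ∈ C) ∧ cbd Γ u = z

/-- the cubes between heights `0` and `2` -/
def slab : Set (Raag Γ × Finset V) := {c | 0 ≤ ht Γ c.1 ∧ ht Γ c.1 + c.2.card ≤ 2}

/-- all cubes -/
def allCubes : Set (Raag Γ × Finset V) := {c | Γ.IsClique (c.2 : Set V)}

/-- the cubes of the positive cone with apex `v` -/
def coneCubes [Fintype V] (v : Raag Γ) : Set (Raag Γ × Finset V) :=
  {c | ∃ m : V → ℕ, Γ.IsClique ({a | m a ≠ 0} ∪ (c.2 : Set V)) ∧ c.1 = v * mono Γ m}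

/-- the hypotheses on the graph -/
structure Good : Prop where
  dim : ∀ σ : Finset V, Γ.IsClique (σ : Set V) → σ.card ≤ 3
  acyc : Acyc {σ : Finset V | Γ.IsClique (σ : Set V)}
  tri : ∃ a b c, Γ.Adj a b ∧ Γ.Adj a c ∧ Γ.Adj b c
  flat : ∃ ρ : V → V → S3, (∀ a, ρ a a = 1) ∧
    (∀ a b c, Γ.IsClique {a, b, c} → ρ a b * ρ b c = ρ a c) ∧
    ∃ (a : V) (p : Γ.Walk a a), (p.darts.map fun d => ρ d.fst d.snd).prod ≠ 1

/-! ### The one-vertex form of the slab -/

/-- edges of the slab modulo `BB Γ`: a level (`0` or `1`) and a direction -/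
abbrev Ed (V : Type) : Type := Fin 2 × V

/-- faces: the squares, and two monogons killing the edges in the direction `t` -/
abbrev Fc : Type := {p : V × V // p.1 < p.2 ∧ Γ.Adj p.1 p.2} ⊕ Fin 2

/-- the edge `(g, (i, a))` goes from `g t^i` to `g t^i a = (g * γ (i, a)) t^(i+1)` -/
def bbγ (t : V) (e : Ed V) : BB Γ :=
  ⟨gen Γ t ^ (e.1 : ℕ) * gen Γ e.2 * (gen Γ t ^ ((e.1 : ℕ) + 1))⁻¹, by
    rw [mem_BB]; simp⟩

/-- the boundary words -/
def bbw (t : V) : Fc Γ → FreeGroup (Ed V)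
  | .inl p => FreeGroup.of (0, p.1.1) * FreeGroup.of (1, p.1.2) * (FreeGroup.of (1, p.1.1))⁻¹ *
      (FreeGroup.of (0, p.1.2))⁻¹
  | .inr i => FreeGroup.of (i, t)

/-- the lower end of an edge -/
def bbo (t : V) (e : BB Γ × Ed V) : Raag Γ := e.1 * gen Γ t ^ (e.2.1 : ℕ)

/-- the upper end of an edge -/
def bbt (t : V) (e : BB Γ × Ed V) : Raag Γ := bbo Γ t e * gen Γ e.2.2

/-- the edges of the slab in the cone with apex `v` -/
def coneE [Fintype V] (t : V) (v : Raag Γ) : Set (BB Γ × Ed V) :=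
  {e | (bbo Γ t e, ({e.2.2} : Finset V)) ∈ coneCubes Γ v}

/-- the squares of the slab in the cone with apex `v` -/
def coneF [Fintype V] (v : Raag Γ) : Set (BB Γ × Fc Γ) :=
  {τ | ∃ p, τ.2 = .inl p ∧ ((τ.1 : Raag Γ), ({p.1.1, p.1.2} : Finset V)) ∈ coneCubes Γ v}

end Cubes

end Crest.Agent.R197
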