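import Crest.Agent.R197.Graph

/-! A non-trivial flat connection with values in the binary icosahedral group.

Recipe. On `K₅` put `r 0 i = 1` and (coordinates `(a + b √5) / 4` written `(a, b)`, order `1, i, j, k`)
`r 1 2 = ((1,-1),(1,1),(-2,0),(0,0))`, `r 2 3 = ((1,-1),(1,1),(2,0),(0,0))`, `r 3 4 = ((1,-1),(2,0),(0,0),(-1,-1))`,
`r 1 4 = ((1,-1),(0,0),(1,1),(2,0))`, `r 2 4 = ((1,-1),(0,0),(-1,-1),(2,0))`, `r 1 3 = ((1,-1),(-2,0),(0,0),(-1,-1))`,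
`r j i = (r i j)⁻¹`; the product around each of the six pentagons is `1`. Give every cell a base vertex (its least
vertex) and let `ρ c c'` be the transport between the base vertices inside the larger cell (along the pentagon);
`ρ = 1` on non-adjacent pairs. Tabulate `4 ρ` in `ℍ[ℤ√5]` (or 8-tuples of integers), check
`R a b * R b c = 4 * R a c`, `R * star R = 16` by `decide +kernel`, and map to `ℍ[ℝ]` by `Zsqrtd.toReal`.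
The walk `0, 5, 1, 9, 2, 6, 0` has holonomy `r 1 2 ≠ 1`. -/

set_option autoImplicit false

open Quaternion

namespace Crest.Agent.R197

open Crest.Agent.Lib.CWComb

/-- quaternions over `ℤ[√5]` with an explicit multiplication -/
structure GFQ where
  r : ℤ√5
  i : ℤ√5
  j : ℤ√5
  k : ℤ√5
  deriving DecidableEq

namespace GFQ

/-- the product -/
def mul (a b : GFQ) : GFQ :=
  ⟨a.r * b.r - a.i * b.i - a.j * b.j - a.k * b.k, a.r * b.i + a.i * b.r + a.j * b.k - a.k * b.j,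
    a.r * b.j - a.i * b.k + a.j * b.r + a.k * b.i, a.r * b.k + a.i * b.j - a.j * b.i + a.k * b.r⟩

/-- the conjugate -/
def conj (a : GFQ) : GFQ := ⟨a.r, -a.i, -a.j, -a.k⟩

/-- four times the unit -/
def four : GFQ := ⟨⟨4, 0⟩, ⟨0, 0⟩, ⟨0, 0⟩, ⟨0, 0⟩⟩

/-- the real embedding of `ℤ[√5]` -/
noncomputable def re5 : ℤ√5 →+* ℝ := Zsqrtd.toReal (by norm_num)

theorem re5_mk (a b : ℤ) : re5 ⟨a, b⟩ = a + b * √5 := by simp [re5]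

/-- the real quaternion `a / 4` -/
noncomputable def val (a : GFQ) : ℍ[ℝ] := ⟨re5 a.r / 4, re5 a.i / 4, re5 a.j / 4, re5 a.k / 4⟩

theorem val_four : val four = 1 := by
  ext <;> simp [val, four, re5_mk]

theorem val_conj (a : GFQ) : val (conj a) = star (val a) := by
  ext <;> simp [val, conj, neg_div]

theorem val_mul (a b : GFQ) : val (mul a b) = (4 : ℝ) • (val a * val b) := by
  ext <;> simp [val, mul] <;> ring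

theorem val_mul_eq {a b c : GFQ} (h : mul a b = mul four c) : val a * val b = val c := by
  have h1 := congrArg val h
  rw [val_mul, val_mul, val_four, one_mul] at h1
  exact smul_right_injective _ (by norm_num : (4 : ℝ) ≠ 0) h1

end GFQ

/-- the non-trivial values of four times the connection on increasing edges -/
def gfTab : List ((ℕ × ℕ) × GFQ) :=
  [((1, 18), ⟨⟨1, -1⟩, ⟨1, 1⟩, ⟨-2, 0⟩, ⟨0, 0⟩⟩),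
   ((1, 19), ⟨⟨1, -1⟩, ⟨0, 0⟩, ⟨1, 1⟩, ⟨2, 0⟩⟩),
   ((1, 20), ⟨⟨1, -1⟩, ⟨-2, 0⟩, ⟨0, 0⟩, ⟨-1, -1⟩⟩),
   ((2, 9), ⟨⟨1, -1⟩, ⟨-1, -1⟩, ⟨2, 0⟩, ⟨0, 0⟩⟩),
   ((2, 15), ⟨⟨1, -1⟩, ⟨-1, -1⟩, ⟨2, 0⟩, ⟨0, 0⟩⟩),
   ((2, 17), ⟨⟨1, -1⟩, ⟨1, 1⟩, ⟨2, 0⟩, ⟨0, 0⟩⟩),
   ((2, 20), ⟨⟨1, -1⟩, ⟨0, 0⟩, ⟨-1, -1⟩, ⟨2, 0⟩⟩),
   ((3, 10), ⟨⟨1, -1⟩, ⟨2, 0⟩, ⟨0, 0⟩, ⟨1, 1⟩⟩),
   ((3, 12), ⟨⟨1, -1⟩, ⟨-1, -1⟩, ⟨-2, 0⟩, ⟨0, 0⟩⟩),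
   ((3, 15), ⟨⟨1, -1⟩, ⟨2, 0⟩, ⟨0, 0⟩, ⟨-1, -1⟩⟩),
   ((3, 16), ⟨⟨1, -1⟩, ⟨2, 0⟩, ⟨0, 0⟩, ⟨1, 1⟩⟩),
   ((3, 19), ⟨⟨1, -1⟩, ⟨-1, -1⟩, ⟨-2, 0⟩, ⟨0, 0⟩⟩),
   ((4, 11), ⟨⟨1, -1⟩, ⟨0, 0⟩, ⟨-1, -1⟩, ⟨-2, 0⟩⟩),
   ((4, 13), ⟨⟨1, -1⟩, ⟨0, 0⟩, ⟨1, 1⟩, ⟨-2, 0⟩⟩),
   ((4, 14), ⟨⟨1, -1⟩, ⟨-2, 0⟩, ⟨0, 0⟩, ⟨1, 1⟩⟩),
   ((4, 16), ⟨⟨1, -1⟩, ⟨0, 0⟩, ⟨1, 1⟩, ⟨-2, 0⟩⟩),
   ((4, 17), ⟨⟨1, -1⟩, ⟨0, 0⟩, ⟨-1, -1⟩, ⟨-2, 0⟩⟩),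
   ((4, 18), ⟨⟨1, -1⟩, ⟨-2, 0⟩, ⟨0, 0⟩, ⟨1, 1⟩⟩),
   ((9, 18), ⟨⟨1, -1⟩, ⟨1, 1⟩, ⟨-2, 0⟩, ⟨0, 0⟩⟩),
   ((9, 20), ⟨⟨1, -1⟩, ⟨-2, 0⟩, ⟨0, 0⟩, ⟨-1, -1⟩⟩),
   ((10, 19), ⟨⟨1, -1⟩, ⟨0, 0⟩, ⟨1, 1⟩, ⟨2, 0⟩⟩),
   ((10, 20), ⟨⟨1, -1⟩, ⟨-2, 0⟩, ⟨0, 0⟩, ⟨-1, -1⟩⟩),
   ((11, 18), ⟨⟨1, -1⟩, ⟨1, 1⟩, ⟨-2, 0⟩, ⟨0, 0⟩⟩),
   ((11, 19), ⟨⟨1, -1⟩, ⟨0, 0⟩, ⟨1, 1⟩, ⟨2, 0⟩⟩),
   ((12, 15), ⟨⟨1, -1⟩, ⟨-1, -1⟩, ⟨2, 0⟩, ⟨0, 0⟩⟩),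
   ((12, 17), ⟨⟨1, -1⟩, ⟨1, 1⟩, ⟨2, 0⟩, ⟨0, 0⟩⟩),
   ((13, 17), ⟨⟨1, -1⟩, ⟨1, 1⟩, ⟨2, 0⟩, ⟨0, 0⟩⟩),
   ((13, 20), ⟨⟨1, -1⟩, ⟨0, 0⟩, ⟨-1, -1⟩, ⟨2, 0⟩⟩),
   ((14, 15), ⟨⟨1, -1⟩, ⟨2, 0⟩, ⟨0, 0⟩, ⟨-1, -1⟩⟩),
   ((14, 16), ⟨⟨1, -1⟩, ⟨2, 0⟩, ⟨0, 0⟩, ⟨1, 1⟩⟩)]

/-- four times the connection -/
def gfR (a b : Fin 21) : GFQ :=
  if a.1 ≤ b.1 then (gfTab.lookup (a.1, b.1)).getD GFQ.four
  else ((gfTab.lookup (b.1, a.1)).getD GFQ.four).conj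

theorem gfR_unit : ∀ a b : Fin 21, (gfR a b).mul (gfR a b).conj = GFQ.four.mul GFQ.four ∧
    (gfR a b).conj.mul (gfR a b) = GFQ.four.mul GFQ.four := by
  decide +kernel

theorem gfR_self : ∀ a : Fin 21, gfR a a = GFQ.four := by
  decide +kernel

theorem gfR_mul : ∀ a b : Fin 21, (a = b ∨ adj₀ a b = true) → ∀ c : Fin 21,
    (b = c ∨ adj₀ b c = true) → (a = c ∨ adj₀ a c = true) →
    (gfR a b).mul (gfR b c) = GFQ.four.mul (gfR a c) := by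
  decide +kernel

/-- the connection -/
noncomputable def gfρ (a b : Fin 21) : S3 :=
  ⟨(gfR a b).val, by
    rw [Unitary.mem_iff, ← GFQ.val_conj]
    exact ⟨(GFQ.val_mul_eq (gfR_unit a b).2).trans GFQ.val_four,
      (GFQ.val_mul_eq (gfR_unit a b).1).trans GFQ.val_four⟩⟩

theorem gfρ_eq_one {a b : Fin 21} (h : gfR a b = GFQ.four) : gfρ a b = 1 :=
  Subtype.ext (by change (gfR a b).val = 1; rw [h, GFQ.val_four])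

theorem flat₀ : ∃ ρ : Fin 21 → Fin 21 → S3, (∀ a, ρ a a = 1) ∧
    (∀ a b c, Γ₀.IsClique {a, b, c} → ρ a b * ρ b c = ρ a c) ∧
    ∃ (a : Fin 21) (p : Γ₀.Walk a a), (p.darts.map fun d => ρ d.fst d.snd).prod ≠ 1 := by
  refine ⟨gfρ, fun a => gfρ_eq_one (gfR_self a), fun a b c h => ?_, ?_⟩
  · have key : ∀ x ∈ ({a, b, c} : Set (Fin 21)), ∀ y ∈ ({a, b, c} : Set (Fin 21)),
        x = y ∨ adj₀ x y = true := fun x hx y hy =>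
      (eq_or_ne x y).imp_right fun hxy => h hx hy hxy
    exact Subtype.ext (GFQ.val_mul_eq (gfR_mul a b (key _ (by simp) _ (by simp)) c
      (key _ (by simp) _ (by simp)) (key _ (by simp) _ (by simp))))
  · refine ⟨0, .cons (v := 5) (by decide +kernel) (.cons (v := 1) (by decide +kernel)
      (.cons (v := 9) (by decide +kernel) (.cons (v := 2) (by decide +kernel)
      (.cons (v := 6) (by decide +kernel) (.cons (v := 0) (by decide +kernel) .nil))))), ?_⟩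
    have h1 : gfρ 0 5 = 1 := gfρ_eq_one (by decide +kernel)
    have h2 : gfρ 5 1 = 1 := gfρ_eq_one (by decide +kernel)
    have h3 : gfρ 1 9 = 1 := gfρ_eq_one (by decide +kernel)
    have h4 : gfρ 2 6 = 1 := gfρ_eq_one (by decide +kernel)
    have h5 : gfρ 6 0 = 1 := gfρ_eq_one (by decide +kernel)
    have h6 : gfR 9 2 = ⟨⟨1, -1⟩, ⟨1, 1⟩, ⟨-2, 0⟩, ⟨0, 0⟩⟩ := by decide +kernel
    simp only [SimpleGraph.Walk.darts_cons, SimpleGraph.Walk.darts_nil, List.map_cons, List.map_nil,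
      List.prod_cons, List.prod_nil, h1, h2, h3, h4, h5, one_mul, mul_one]
    intro h
    have h7 : (gfR 9 2).val = 1 := congrArg Subtype.val h
    have h8 := congrArg QuaternionAlgebra.imJ h7
    rw [h6] at h8
    simp [GFQ.val, GFQ.re5_mk] at h8

end Crest.Agent.R197
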