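import Crest.Agent.R197.Defs
import Crest.Agent.Lib.RAAG.Main

/-! The three-dimensional classifying complex and the length function, from `Lib/RAAG`. -/

set_option autoImplicit false

namespace Crest.Agent.R197

variable {V : Type} (Γ : SimpleGraph V)

theorem isRAAG_gen : Lib.RAAG.IsRAAG Γ (gen Γ) := Lib.RAAG.isRAAG_presented Γ

theorem htHom_surjective [Nonempty V] : Function.Surjective (htHom Γ) := fun n =>
  ⟨gen Γ (Classical.arbitrary V) ^ n.toAdd, by
    apply Multiplicative.toAdd.injective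
    change ht Γ _ = _
    simp⟩

theorem hasClassifyingComplex_bb [Finite V] [Nonempty V]
    (hdim : ∀ σ : Finset V, Γ.IsClique (σ : Set V) → σ.card ≤ 3) :
    Crest.Topology.HasClassifyingComplex (BB Γ) 3 :=
  (isRAAG_gen Γ).hasClassifyingComplex_ker hdim (htHom Γ) (htHom_surjective Γ)

theorem nonempty_len_of_finite [Finite V] : Nonempty (Len Γ) := by
  have := Fintype.ofFinite V
  obtain ⟨N⟩ := (isRAAG_gen Γ).nonempty_desc
  let e : V × Bool → ℤ := fun x => if x.2 then 1 else -1
  have he : ∀ x, e x = 1 ∨ e x = -1 := fun x => by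
    rcases x with ⟨a, _ | _⟩ <;> simp [e]
  have hs : ∀ x, sg Γ x = gen Γ x.1 ^ e x := fun x => by
    rcases x with ⟨a, _ | _⟩ <;> simp [e, sg]
  have hz : ∀ g u v, Γ.Adj u v → ∀ k : ℤ, N.d (g * gen Γ u ^ k) v = N.d g v :=
    fun g u v h k => Lib.RAAG.Desc.d_zpow (D := ⟨gen Γ, (isRAAG_gen Γ).comm⟩) N g h k
  refine ⟨⟨N.len, fun g x => N.d g x.1 = -e x, N.len_one, fun g x h => ?_, fun g x h => ?_,
    fun g hg => ?_, fun g x y hx hy hxy => ?_, fun g x y h => ?_⟩⟩
  · have := (N.down g x.1 (by have := he x; omega)).1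
    rwa [h, neg_neg, ← hs] at this
  · rw [hs]
    exact (N.up g x.1 _ (he x) h).2.1
  · obtain ⟨v, hv⟩ : ∃ v, N.d g v ≠ 0 := by
      by_contra h
      push Not at h
      exact hg (N.eq_one g h)
    rcases N.d_mem g v with h | h | h
    · exact ⟨(v, true), by simp [e, h]⟩
    · exact (hv h).elim
    · exact ⟨(v, false), by simp [e, h]⟩
  · refine N.clique g _ _ (by have := he x; omega) (by have := he y; omega) fun h => hxy ?_
    obtain ⟨a, b⟩ := x
    obtain ⟨a', b'⟩ := y
    obtain rfl : a = a' := h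
    have := hx.symm.trans hy
    cases b <;> cases b' <;> simp [e] at this ⊢
  · rw [hs, hz _ _ _ h.symm]

end Crest.Agent.R197
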