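import Crest.Agent.R197.Signs
import Crest.Agent.R197.Chains

/-! Translation of cubical acyclicity to the one-vertex complex.

Recipe. Let `eC e := (bbo e, {e.2.2})` and `fC (g, p) := (g, {p.1.1, p.1.2})`; these are injective with
images the 1-cubes and the 2-cubes of `allCubes ∩ slab` (a vertex `x` of height `i` is `g * t^i` with
`g ∈ BB`). `cbd [eC e] = [(bbt e, ∅)] - [(bbo e, ∅)]`,
`cbd [fC (g,p)] = mapDomain eC (chain g (bbw (inl p)))`, and `chain g (bbw (inr i)) = [(g, (i, t))]`.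
Exactness: if `d1 z = 0`, the fine boundary of `z` has zero sum over `{g, g t, g t²}` for each `g`;
subtract a combination of `t`-edges to get a cycle. Injectivity: the `t`-edges form a forest, and a
2-cycle of the slab is the boundary of a 3-chain of the slab, which is zero (`CAcyc.graded`).
Surjectivity: `[g] - [1]` bounds in the slab; the indicator of the subgroup generated by `bbγ`,
read through `x ↦ x * t^(-ht x)`, kills boundaries. `cone_pure`: if `p ≠ 0` the fine boundary of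
`lam` is `p • ν`, `ν` a 0-chain of the cone slab of augmentation zero; fill `ν`, subtract, fill again. -/

set_option autoImplicit false
set_option linter.unusedSectionVars false

open Quaternion

namespace Crest.Agent.R197

open Crest.Agent.Lib.CWComb

section Aux

open Finsupp

variable {V : Type} [LinearOrder V] (Γ : SimpleGraph V)

/-- the squares -/
abbrev OVSq : Type := {p : V × V // p.1 < p.2 ∧ Γ.Adj p.1 p.2}

/-- an edge as a cube -/
def ovE (t : V) (e : BB Γ × Ed V) : Raag Γ × Finset V := (bbo Γ t e, {e.2.2})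

/-- a square as a cube -/
def ovF (τ : BB Γ × OVSq Γ) : Raag Γ × Finset V := (τ.1, {τ.2.1.1, τ.2.1.2})

/-- a vertex as a cube -/
def ovV (x : Raag Γ) : Raag Γ × Finset V := (x, ∅)

/-- a square as a face -/
def ovS (τ : BB Γ × OVSq Γ) : BB Γ × Fc Γ := (τ.1, .inl τ.2)

/-- a monogon as a face -/
def ovM (c : BB Γ × Fin 2) : BB Γ × Fc Γ := (c.1, .inr c.2)

/-- the edges in the direction `t` -/
def ovT (t : V) (c : BB Γ × Fin 2) : BB Γ × Ed V := (c.1, (c.2, t))

/-- the projection to height zero -/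
def ovP (t : V) (x : Raag Γ) : BB Γ := ⟨x * (gen Γ t ^ ht Γ x)⁻¹, by rw [mem_BB]; simp⟩

/-- the fine boundary -/
noncomputable def ovB (t : V) : (BB Γ × Ed V →₀ ℤ) →ₗ[ℤ] (Raag Γ →₀ ℤ) :=
  lmapDomain ℤ ℤ (bbt Γ t) - lmapDomain ℤ ℤ (bbo Γ t)

omit [LinearOrder V] in
theorem ovB_apply (t : V) (z : BB Γ × Ed V →₀ ℤ) :
    ovB Γ t z = mapDomain (bbt Γ t) z - mapDomain (bbo Γ t) z := rfl

omit [LinearOrder V] in
theorem ovB_single (t : V) (e : BB Γ × Ed V) (n : ℤ) :
    ovB Γ t (single e n) = single (bbt Γ t e) n - single (bbo Γ t e) n := by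
  rw [ovB_apply, mapDomain_single, mapDomain_single]

omit [LinearOrder V] in
theorem ov_ht (g : BB Γ) : ht Γ g = 0 := (mem_BB Γ).1 g.2

omit [LinearOrder V] in
theorem ht_bbo (t : V) (e : BB Γ × Ed V) : ht Γ (bbo Γ t e) = (e.2.1 : ℕ) := by
  simp [bbo, ov_ht]

omit [LinearOrder V] in
theorem ht_bbt (t : V) (e : BB Γ × Ed V) : ht Γ (bbt Γ t e) = (e.2.1 : ℕ) + 1 := by
  simp [bbt, ht_bbo]

omit [LinearOrder V] in
theorem bbt_eq (t : V) (e : BB Γ × Ed V) :
    bbt Γ t e = (e.1 * bbγ Γ t e.2 : BB Γ) * gen Γ t ^ ((e.2.1 : ℕ) + 1) := by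
  simp [bbt, bbo, bbγ, mul_assoc]

omit [LinearOrder V] in
theorem ovP_mul (t : V) (g : BB Γ) (n : ℕ) : ovP Γ t (g * gen Γ t ^ n) = g := by
  apply Subtype.ext
  simp [ovP, ov_ht]

omit [LinearOrder V] in
theorem ov_bbo_inj (t : V) {e e' : BB Γ × Ed V} (h : bbo Γ t e = bbo Γ t e') :
    e.1 = e'.1 ∧ e.2.1 = e'.2.1 := by
  have h1 := congrArg (ht Γ) h
  rw [ht_bbo, ht_bbo] at h1
  have h2 := congrArg (ovP Γ t) h
  rw [bbo, bbo, ovP_mul, ovP_mul] at h2
  exact ⟨h2, Fin.ext (by exact_mod_cast h1)⟩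

omit [LinearOrder V] in
theorem ovE_injective (t : V) : Function.Injective (ovE Γ t) := fun e e' h => by
  obtain ⟨h1, h2⟩ := Prod.ext_iff.1 h
  obtain ⟨h3, h4⟩ := ov_bbo_inj Γ t h1
  exact Prod.ext h3 (Prod.ext h4 (Finset.singleton_injective h2))

theorem ovF_injective : Function.Injective (ovF Γ) := by
  rintro ⟨g, ⟨a, b⟩, hab, hadj⟩ ⟨g', ⟨a', b'⟩, hab', hadj'⟩ h
  obtain ⟨h1, h2⟩ := Prod.ext_iff.1 h
  have h3 : g = g' := Subtype.ext h1
  have h4 : ({a, b} : Set V) = {a', b'} := by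
    rw [← Finset.coe_pair, ← Finset.coe_pair]
    exact congrArg _ h2
  rcases Set.pair_eq_pair_iff.1 h4 with ⟨rfl, rfl⟩ | ⟨rfl, rfl⟩
  · rw [h3]
  · exact absurd hab' (not_lt.2 (le_of_lt hab))

omit [LinearOrder V] in
theorem ovV_injective : Function.Injective (ovV Γ) := fun _ _ h => congrArg Prod.fst h

theorem ov_cbd_single (c : Raag Γ × Finset V) (n : ℤ) :
    cbd Γ (single c n) = n • ∑ a ∈ c.2, sgn a c.2 •
      (single (c.1 * gen Γ a, c.2.erase a) (1 : ℤ) - single (c.1, c.2.erase a) 1) := by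
  simp only [cbd, linearCombination_single]

theorem cbd_ovV (ν : Raag Γ →₀ ℤ) : cbd Γ (mapDomain (ovV Γ) ν) = 0 := by
  induction ν using Finsupp.induction_linear with
  | zero => simp
  | add a b ha hb => rw [mapDomain_add, map_add, ha, hb, add_zero]
  | single x n => simp [mapDomain_single, ov_cbd_single, ovV]

theorem cbd_ovE (t : V) (z : BB Γ × Ed V →₀ ℤ) :
    cbd Γ (mapDomain (ovE Γ t) z) = mapDomain (ovV Γ) (ovB Γ t z) := by
  induction z using Finsupp.induction_linear with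
  | zero => simp
  | add a b ha hb => rw [mapDomain_add, map_add, map_add, mapDomain_add, ha, hb]
  | single e n =>
    rw [mapDomain_single, ov_cbd_single, ovB_single, ← lmapDomain_apply ℤ ℤ, map_sub,
      lmapDomain_apply, lmapDomain_apply, mapDomain_single, mapDomain_single]
    simp [ovE, ovV, sgn, bbt, smul_sub, Finset.filter_singleton]

theorem ov_square (t : V) (p : OVSq Γ) :
    bbγ Γ t (0, p.1.1) * bbγ Γ t (1, p.1.2) * (bbγ Γ t (1, p.1.1))⁻¹ = bbγ Γ t (0, p.1.2) := by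
  apply Subtype.ext
  have h := (gen_comm Γ p.2.2).eq
  simp only [bbγ, Subgroup.coe_mul, Subgroup.coe_inv, Fin.val_zero, Fin.val_one, pow_zero, one_mul,
    zero_add, pow_one, mul_inv_rev, inv_inv, mul_assoc, inv_mul_cancel_left]
  rw [← mul_assoc, h, mul_assoc, mul_inv_cancel_left]

theorem ov_rel (t : V) (τ : Fc Γ) : FreeGroup.lift (bbγ Γ t) (bbw Γ t τ) = 1 := by
  rcases τ with p | i
  · simp only [bbw, map_mul, map_inv, FreeGroup.lift_apply_of, ov_square, mul_inv_cancel]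
  · apply Subtype.ext
    simp [bbw, bbγ, pow_succ]

theorem ov_chain (t : V) (g : BB Γ) (p : OVSq Γ) :
    chain (bbγ Γ t) g (bbw Γ t (.inl p)) = single (g, (0, p.1.1)) 1 +
      single (g * bbγ Γ t (0, p.1.1), (1, p.1.2)) 1 -
      single (g * bbγ Γ t (0, p.1.2), (1, p.1.1)) 1 - single (g, (0, p.1.2)) 1 := by
  simp only [bbw, chain_mul, chain_inv, chain_of, map_mul, map_inv, FreeGroup.lift_apply_of,
    ov_square, mul_inv_cancel_right]
  rw [mul_assoc g, ov_square, sub_eq_add_neg, sub_eq_add_neg]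

theorem cbd_ovF (t : V) (d : BB Γ × OVSq Γ →₀ ℤ) :
    cbd Γ (mapDomain (ovF Γ) d) =
      mapDomain (ovE Γ t) (bd (bbγ Γ t) (bbw Γ t) (mapDomain (ovS Γ) d)) := by
  induction d using Finsupp.induction_linear with
  | zero => simp
  | add a b ha hb => simp only [mapDomain_add, map_add, ha, hb]
  | single τ n =>
    obtain ⟨g, ⟨a, b⟩, hab, hadj⟩ := τ
    have hab' : a < b := hab
    rw [mapDomain_single, mapDomain_single, ov_cbd_single, bd_single, mapDomain_smul]
    congr 1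
    have e1 : sgn a {a, b} = 1 := by
      simp [sgn, Finset.filter_insert, Finset.filter_singleton, hab'.not_gt]
    have e2 : sgn b {a, b} = -1 := by
      simp [sgn, Finset.filter_insert, Finset.filter_singleton, hab']
    have e3 : ({a, b} : Finset V).erase a = {b} := Finset.erase_insert (by simpa using hab'.ne)
    have e4 : ({a, b} : Finset V).erase b = {a} := by
      rw [Finset.pair_comm]
      exact Finset.erase_insert (by simpa using hab'.ne')
    simp only [ovF, ovS]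
    rw [Finset.sum_pair hab'.ne, e1, e2, e3, e4, ov_chain, ← lmapDomain_apply ℤ ℤ]
    simp only [map_sub, map_add, lmapDomain_apply, mapDomain_single]
    simp only [ovE, bbo, bbγ, Subgroup.coe_mul, Fin.val_zero, Fin.val_one, pow_zero, one_mul,
      mul_one, zero_add, pow_one, mul_assoc, inv_mul_cancel, one_smul, neg_smul]
    abel

theorem bd_ovM (t : V) (c : BB Γ × Fin 2 →₀ ℤ) :
    bd (bbγ Γ t) (bbw Γ t) (mapDomain (ovM Γ) c) = mapDomain (ovT Γ t) c := by
  induction c using Finsupp.induction_linear with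
  | zero => simp
  | add a b ha hb => simp only [mapDomain_add, map_add, ha, hb]
  | single c n => simp [mapDomain_single, ovM, ovT, bbw]

theorem d1_ovB (t : V) (z : BB Γ × Ed V →₀ ℤ) :
    d1 (bbγ Γ t) z = mapDomain (ovP Γ t) (ovB Γ t z) := by
  induction z using Finsupp.induction_linear with
  | zero => simp
  | add a b ha hb => simp only [mapDomain_add, map_add, ha, hb]
  | single e n =>
    rw [d1_single, ovB_single, ← lmapDomain_apply ℤ ℤ, map_sub, lmapDomain_apply,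
      lmapDomain_apply, mapDomain_single, mapDomain_single, bbt_eq, bbo, ovP_mul, ovP_mul]
    simp [smul_sub]

theorem aug_mapDomain {X : Type} (f : X → Raag Γ × Finset V) (hf : ∀ x, (f x).2 ≠ ∅)
    (z : X →₀ ℤ) : aug Γ (mapDomain f z) = 0 := by
  induction z using Finsupp.induction_linear with
  | zero => simp
  | add a b ha hb => rw [mapDomain_add, map_add, ha, hb, add_zero]
  | single x n => simp [mapDomain_single, aug, hf]

theorem ov_pull {X Y : Type} {f : X → Y} (hf : Function.Injective f) (u : Y →₀ ℤ)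
    (hu : ∀ y ∈ u.support, y ∈ Set.range f) :
    ∃ z : X →₀ ℤ, (∀ x ∈ z.support, f x ∈ u.support) ∧ mapDomain f z = u :=
  ⟨comapDomain f u hf.injOn, fun x hx => by simpa using hx, mapDomain_comapDomain f hf u hu⟩

theorem ov_supp {X Y : Type} (f : X → Y) (z : X →₀ ℤ) {y : Y} (hy : y ∈ (mapDomain f z).support) :
    ∃ x ∈ z.support, f x = y := by
  classical
  exact Finset.mem_image.1 (mapDomain_support hy)

omit [LinearOrder V] in
theorem ovE_slab (t : V) (e : BB Γ × Ed V) : ovE Γ t e ∈ slab Γ := by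
  have := e.2.1.2
  simp only [slab, ovE, Set.mem_ofPred_eq, ht_bbo, Finset.card_singleton]
  omega

theorem ovF_card (τ : BB Γ × OVSq Γ) : (ovF Γ τ).2.card = 2 := Finset.card_pair τ.2.2.1.ne

theorem ovF_slab (τ : BB Γ × OVSq Γ) : ovF Γ τ ∈ slab Γ := by
  refine ⟨(ov_ht Γ τ.1).ge, ?_⟩
  rw [ovF_card]
  exact (congrArg (· + 2) (ov_ht Γ τ.1)).le

theorem ovF_clique (τ : BB Γ × OVSq Γ) : Γ.IsClique ((ovF Γ τ).2 : Set V) := by
  simp only [ovF, Finset.coe_insert, Finset.coe_singleton]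
  exact SimpleGraph.isClique_pair.2 fun _ => τ.2.2.2

omit [LinearOrder V] in
theorem ovE_range (t : V) {c : Raag Γ × Finset V} (h : c ∈ slab Γ) (h1 : c.2.card = 1) :
    c ∈ Set.range (ovE Γ t) := by
  obtain ⟨x, σ⟩ := c
  obtain ⟨a, rfl⟩ := Finset.card_eq_one.1 h1
  obtain ⟨h2, h3⟩ : 0 ≤ ht Γ x ∧ ht Γ x + ({a} : Finset V).card ≤ 2 := h
  rw [Finset.card_singleton] at h3
  refine ⟨(ovP Γ t x, (⟨(ht Γ x).toNat, by omega⟩, a)), Prod.ext ?_ rfl⟩
  simp only [ovE, bbo, ovP]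
  rw [← zpow_natCast, Int.toNat_of_nonneg h2, inv_mul_cancel_right]

theorem ovF_range {c : Raag Γ × Finset V} (h : c ∈ slab Γ) (hc : Γ.IsClique (c.2 : Set V))
    (h1 : c.2.card = 2) : c ∈ Set.range (ovF Γ) := by
  obtain ⟨x, σ⟩ := c
  obtain ⟨h2, h3⟩ : 0 ≤ ht Γ x ∧ ht Γ x + σ.card ≤ 2 := h
  rw [show σ.card = 2 from h1] at h3
  have hx : x ∈ (htHom Γ).ker := (mem_BB Γ).2 (by omega)
  obtain ⟨a, b, hab, rfl⟩ := Finset.card_eq_two.1 h1
  have hadj : Γ.Adj a b := hc (by simp) (by simp) hab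
  rcases hab.lt_or_gt with h4 | h4
  · exact ⟨(⟨x, hx⟩, ⟨(a, b), h4, hadj⟩), rfl⟩
  · exact ⟨(⟨x, hx⟩, ⟨(b, a), h4, hadj.symm⟩), Prod.ext rfl (Finset.pair_comm b a)⟩

/-- filling 0-cycles -/
theorem ov_fill0 (t : V) {C : Set (Raag Γ × Finset V)} (h : CAcyc Γ (C ∩ slab Γ))
    (ν : Raag Γ →₀ ℤ) (hν : ∀ x ∈ ν.support, ovV Γ x ∈ C ∩ slab Γ)
    (ha : aug Γ (mapDomain (ovV Γ) ν) = 0) :
    ∃ w : BB Γ × Ed V →₀ ℤ, (∀ e ∈ w.support, ovE Γ t e ∈ C) ∧ ovB Γ t w = ν := by
  obtain ⟨u, hu, hu'⟩ := h.graded Γ 0 (mapDomain (ovV Γ) ν) (fun c hc => by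
    obtain ⟨x, hx, rfl⟩ := ov_supp _ _ hc
    exact ⟨hν x hx, rfl⟩) (cbd_ovV Γ ν) ha
  obtain ⟨w, hw, rfl⟩ := ov_pull (ovE_injective Γ t) u fun c hc =>
    ovE_range Γ t (hu c hc).1.2 (hu c hc).2
  rw [cbd_ovE] at hu'
  exact ⟨w, fun e he => (hu _ (hw e he)).1.1, mapDomain_injective (ovV_injective Γ) hu'⟩

/-- filling 1-cycles -/
theorem ov_fill1 (t : V) {C : Set (Raag Γ × Finset V)}
    (hC : ∀ c ∈ C, Γ.IsClique (c.2 : Set V)) (h : CAcyc Γ (C ∩ slab Γ))
    (z : BB Γ × Ed V →₀ ℤ) (hz : ∀ e ∈ z.support, ovE Γ t e ∈ C) (h0 : ovB Γ t z = 0) :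
    ∃ d : BB Γ × OVSq Γ →₀ ℤ, (∀ τ ∈ d.support, ovF Γ τ ∈ C) ∧
      bd (bbγ Γ t) (bbw Γ t) (mapDomain (ovS Γ) d) = z := by
  obtain ⟨u, hu, hu'⟩ := h.graded Γ 1 (mapDomain (ovE Γ t) z) (fun c hc => by
    obtain ⟨e, he, rfl⟩ := ov_supp _ _ hc
    exact ⟨⟨hz e he, ovE_slab Γ t e⟩, Finset.card_singleton _⟩)
    (by rw [cbd_ovE, h0, mapDomain_zero])
    (aug_mapDomain Γ _ (fun e => Finset.singleton_ne_empty _) z)
  obtain ⟨d, hd, rfl⟩ := ov_pull (ovF_injective Γ) u fun c hc =>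
    ovF_range Γ (hu c hc).1.2 (hC c (hu c hc).1.1) (hu c hc).2
  rw [cbd_ovF Γ t] at hu'
  exact ⟨d, fun τ hτ => (hu _ (hd τ hτ)).1.1, mapDomain_injective (ovE_injective Γ t) hu'⟩

/-- the `t`-edges form a forest -/
theorem ov_forest (t : V) (c : BB Γ × Fin 2 →₀ ℤ) (h : ovB Γ t (mapDomain (ovT Γ t) c) = 0) :
    c = 0 := by
  rw [ovB_apply, ← mapDomain_comp, ← mapDomain_comp, sub_eq_zero] at h
  have i1 : Function.Injective (bbo Γ t ∘ ovT Γ t) := fun x y e =>
    Prod.ext (ov_bbo_inj Γ t e).1 (ov_bbo_inj Γ t e).2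
  have i2 : Function.Injective (bbt Γ t ∘ ovT Γ t) := fun x y e => i1 (mul_right_cancel e)
  ext ⟨g, i⟩
  rw [Finsupp.zero_apply]
  fin_cases i
  · rw [← mapDomain_apply i1, ← h]
    refine mapDomain_of_notMem_range _ _ ?_
    rintro ⟨x, hx⟩
    have := congrArg (ht Γ) hx
    simp only [Function.comp_apply, ht_bbo, ht_bbt, ovT] at this
    omega
  · rw [← mapDomain_apply i2, h]
    refine mapDomain_of_notMem_range _ _ ?_
    rintro ⟨x, hx⟩
    have := congrArg (ht Γ) hx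
    have h2 := x.2.2
    simp only [Function.comp_apply, ht_bbo, ht_bbt, ovT] at this
    omega

theorem ov_split (d : BB Γ × Fc Γ →₀ ℤ) : ∃ (d₁ : BB Γ × OVSq Γ →₀ ℤ) (d₂ : BB Γ × Fin 2 →₀ ℤ),
    d = mapDomain (ovS Γ) d₁ + mapDomain (ovM Γ) d₂ := by
  induction d using Finsupp.induction_linear with
  | zero => exact ⟨0, 0, by simp⟩
  | add a b ha hb =>
    obtain ⟨a₁, a₂, rfl⟩ := ha
    obtain ⟨b₁, b₂, rfl⟩ := hb
    exact ⟨a₁ + b₁, a₂ + b₂, by rw [mapDomain_add, mapDomain_add, add_add_add_comm]⟩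
  | single τ n =>
    obtain ⟨g, p | i⟩ := τ
    · exact ⟨single (g, p) n, 0, by simp [mapDomain_single, ovS]⟩
    · exact ⟨0, single (g, i) n, by simp [mapDomain_single, ovM]⟩

theorem ov_coarse (t : V) (z : BB Γ × Ed V →₀ ℤ) : ∃ c : BB Γ × Fin 2 →₀ ℤ,
    ovB Γ t z = ovB Γ t (mapDomain (ovT Γ t) c) + mapDomain Subtype.val (d1 (bbγ Γ t) z) := by
  induction z using Finsupp.induction_linear with
  | zero => exact ⟨0, by simp⟩
  | add a b ha hb =>
    obtain ⟨a', ha⟩ := ha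
    obtain ⟨b', hb⟩ := hb
    refine ⟨a' + b', ?_⟩
    simp only [mapDomain_add, map_add]
    rw [ha, hb, add_add_add_comm]
  | single e n =>
    obtain ⟨g, i, a⟩ := e
    have e0 : mapDomain Subtype.val (d1 (bbγ Γ t) (single (g, i, a) n)) =
        single ((g * bbγ Γ t (i, a) : BB Γ) : Raag Γ) n - single (g : Raag Γ) n := by
      rw [d1_single, mapDomain_smul, ← lmapDomain_apply ℤ ℤ, map_sub, lmapDomain_apply,
        lmapDomain_apply, mapDomain_single, mapDomain_single]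
      simp [smul_sub]
    have e1 : ∀ (g : BB Γ) (j : Fin 2), ovB Γ t (mapDomain (ovT Γ t) (single (g, j) n)) =
        single ((g : Raag Γ) * gen Γ t ^ ((j : ℕ) + 1)) n -
          single ((g : Raag Γ) * gen Γ t ^ (j : ℕ)) n := fun g j => by
      rw [mapDomain_single, ovB_single, bbt, bbo, mul_assoc, pow_succ]
      rfl
    rw [e0, ovB_single, bbt_eq, bbo]
    fin_cases i
    · exact ⟨single (g * bbγ Γ t (0, a), 0) n, by rw [e1]; simp⟩
    · refine ⟨single (g * bbγ Γ t (1, a), 0) n + single (g * bbγ Γ t (1, a), 1) n -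
        single (g, 0) n, ?_⟩
      rw [← lmapDomain_apply ℤ ℤ]
      simp only [map_sub, map_add, lmapDomain_apply, e1]
      simp only [Fin.val_zero, Fin.val_one, zero_add, pow_zero, mul_one, Fin.mk_one]
      abel

end Aux

variable {V : Type} [Fintype V] [LinearOrder V] (Γ : SimpleGraph V)

theorem res_bb (t : V) (h : CAcyc Γ (allCubes Γ ∩ slab Γ)) : Res (bbγ Γ t) (bbw Γ t) := by
  classical
  refine ⟨ov_rel Γ t, fun g => ?_, (injective_iff_map_eq_zero _).2 fun d hd => ?_, fun z hz => ?_⟩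
  · have hv : ∀ g : BB Γ, ovV Γ g ∈ allCubes Γ ∩ slab Γ := fun g =>
      ⟨by simp [allCubes, ovV], by simp [slab, ovV, ov_ht]⟩
    obtain ⟨w, -, hw⟩ := ov_fill0 Γ t h
      (Finsupp.single (g : Raag Γ) 1 - Finsupp.single ((1 : BB Γ) : Raag Γ) 1) (fun x hx => by
        rcases Finset.mem_union.1 (Finsupp.support_sub hx) with h1 | h1 <;>
          rw [Finset.mem_singleton.1 (Finsupp.support_single_subset h1)] <;> exact hv _)
      (by
        rw [← Finsupp.lmapDomain_apply ℤ ℤ, map_sub, Finsupp.lmapDomain_apply,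
          Finsupp.lmapDomain_apply, Finsupp.mapDomain_single, Finsupp.mapDomain_single]
        simp [aug, ovV])
    have hP : ∀ g : BB Γ, ovP Γ t g = g := fun g => by simpa using ovP_mul Γ t g 0
    have h1 := d1_ovB Γ t w
    rw [hw, ← Finsupp.lmapDomain_apply ℤ ℤ, map_sub, Finsupp.lmapDomain_apply,
      Finsupp.lmapDomain_apply, Finsupp.mapDomain_single, Finsupp.mapDomain_single, hP, hP] at h1
    have h2 : ∀ w, Finsupp.linearCombination ℤ
        (fun x => if x ∈ (FreeGroup.lift (bbγ Γ t)).range then (1 : ℤ) else 0)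
          (d1 (bbγ Γ t) w) = 0 := fun w => by
      induction w using Finsupp.induction_linear with
      | zero => simp
      | add a b ha hb => rw [map_add, map_add, ha, hb, add_zero]
      | single e n =>
        have h3 : bbγ Γ t e.2 ∈ (FreeGroup.lift (bbγ Γ t)).range :=
          ⟨FreeGroup.of e.2, FreeGroup.lift_apply_of⟩
        rw [d1_single, map_smul, map_sub, Finsupp.linearCombination_single,
          Finsupp.linearCombination_single]
        simp only [Subgroup.mul_mem_cancel_right _ h3, sub_self, smul_zero]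
    have h4 := h2 w
    rw [h1, map_sub, Finsupp.linearCombination_single, Finsupp.linearCombination_single,
      if_pos (one_mem _)] at h4
    by_contra h5
    rw [if_neg (show g ∉ (FreeGroup.lift (bbγ Γ t)).range from h5)] at h4
    simp at h4
  · obtain ⟨d₁, d₂, rfl⟩ := ov_split Γ d
    rw [map_add, bd_ovM] at hd
    have h1 := congrArg (Finsupp.mapDomain (ovE Γ t)) hd
    rw [Finsupp.mapDomain_add, ← cbd_ovF, Finsupp.mapDomain_zero] at h1
    have hs : ∀ c ∈ (Finsupp.mapDomain (ovF Γ) d₁).support,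
        c ∈ allCubes Γ ∩ slab Γ ∧ c.2.card = 2 := fun c hc => by
      obtain ⟨τ, -, rfl⟩ := ov_supp _ _ hc
      exact ⟨⟨ovF_clique Γ τ, ovF_slab Γ τ⟩, ovF_card Γ τ⟩
    have h2 := congrArg (cbd Γ) h1
    rw [map_add, cbd_cbd Γ _ fun c hc => (hs c hc).1.1, zero_add, cbd_ovE, map_zero] at h2
    have h3 : d₂ = 0 := ov_forest Γ t d₂ (Finsupp.mapDomain_injective (ovV_injective Γ)
      (h2.trans Finsupp.mapDomain_zero.symm))
    subst h3
    simp only [Finsupp.mapDomain_zero, add_zero] at h1 ⊢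
    obtain ⟨u, hu, hu'⟩ := h.graded Γ 2 _ hs h1 (aug_mapDomain Γ _ (fun τ h0 => by
      have := ovF_card Γ τ
      rw [h0] at this
      simp at this) d₁)
    have h4 : u = 0 := Finsupp.support_eq_empty.1 (Finset.eq_empty_of_forall_notMem fun c hc => by
      obtain ⟨⟨-, h5, h6⟩, h7⟩ := hu c hc
      rw [h7] at h6
      omega)
    rw [h4, map_zero] at hu'
    rw [Finsupp.mapDomain_injective (ovF_injective Γ) (hu'.symm.trans Finsupp.mapDomain_zero.symm),
      Finsupp.mapDomain_zero]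
  · obtain ⟨c, hc⟩ := ov_coarse Γ t z
    rw [hz, Finsupp.mapDomain_zero, add_zero] at hc
    obtain ⟨d, -, hd⟩ := ov_fill1 Γ t (fun _ h => h) h (z - Finsupp.mapDomain (ovT Γ t) c)
        (fun e _ => by
        change Γ.IsClique (({e.2.2} : Finset V) : Set V)
        simp) (by rw [map_sub, hc, sub_self])
    exact ⟨Finsupp.mapDomain (ovS Γ) d + Finsupp.mapDomain (ovM Γ) c, by
      rw [map_add, hd, bd_ovM, sub_add_cancel]⟩

theorem finite_coneF (v : Raag Γ) : (coneF Γ v).Finite := by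
  have h1 : ((fun m => v * mono Γ m) '' Set.Iic fun _ : V => (-ht Γ v).toNat).Finite :=
    (Set.finite_Iic _).image _
  have h2 : Function.Injective fun τ : BB Γ × Fc Γ => ((τ.1 : Raag Γ), τ.2) := fun τ τ' h =>
    Prod.ext (Subtype.ext (Prod.ext_iff.1 h).1) (Prod.ext_iff.1 h).2
  refine ((h1.prod (Set.finite_univ (α := Fc Γ))).preimage h2.injOn).subset ?_
  rintro τ ⟨p, -, m, -, hm⟩
  refine ⟨⟨m, fun a => ?_, hm.symm⟩, Set.mem_univ _⟩
  have h3 := ov_ht Γ τ.1
  rw [show (τ.1 : Raag Γ) = v * mono Γ m from hm, ht_mul, ht_mono] at h3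
  have h4 : (m a : ℤ) ≤ ∑ a, (m a : ℤ) :=
    Finset.single_le_sum (f := fun a => (m a : ℤ)) (fun _ _ => by positivity) (Finset.mem_univ a)
  change m a ≤ (-ht Γ v).toNat
  omega

theorem cone_pure (t : V) (v : Raag Γ) (hC : CubeSet Γ (coneCubes Γ v))
    (h : CAcyc Γ (coneCubes Γ v ∩ slab Γ)) (p : ℤ)
    (lam : BB Γ × Ed V →₀ ℤ) (hl : ∀ e ∈ lam.support, e ∈ coneE Γ t v)
    (hp : ∀ x, p ∣ (Finsupp.mapDomain (bbt Γ t) lam - Finsupp.mapDomain (bbo Γ t) lam :
      Raag Γ →₀ ℤ) x) :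
    ∃ d : BB Γ × Fc Γ →₀ ℤ, (∀ τ ∈ d.support, τ ∈ coneF Γ v) ∧
      ∀ e, p ∣ (lam - bd (bbγ Γ t) (bbw Γ t) d) e := by
  classical
  have key : ∃ w : BB Γ × Ed V →₀ ℤ, (∀ e ∈ w.support, ovE Γ t e ∈ coneCubes Γ v) ∧
      p • ovB Γ t w = ovB Γ t lam := by
    rcases eq_or_ne p 0 with rfl | h0
    · refine ⟨0, by simp, Finsupp.ext fun x => ?_⟩
      rw [zero_smul]
      exact (zero_dvd_iff.1 (hp x)).symm
    let ν : Raag Γ →₀ ℤ := (ovB Γ t lam).mapRange (· / p) (by simp)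
    have hν : p • ν = ovB Γ t lam := Finsupp.ext fun x => Int.mul_ediv_cancel' (hp x)
    refine (ov_fill0 Γ t h ν (fun x hx => ?_) ?_).imp fun w hw => ⟨hw.1, by rw [hw.2, hν]⟩
    · rcases Finset.mem_union.1 (Finsupp.support_sub (Finsupp.support_mapRange hx)) with h1 | h1
      · obtain ⟨e, he, rfl⟩ := ov_supp _ _ h1
        have h2 := hC.face₁ _ (hl e he) e.2.2 (Finset.mem_singleton_self _)
        have h3 := e.2.1.2
        rw [Finset.erase_singleton] at h2
        refine ⟨h2, ?_⟩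
        simp only [slab, ovV, Set.mem_ofPred_eq, ht_bbt, Finset.card_empty]
        omega
      · obtain ⟨e, he, rfl⟩ := ov_supp _ _ h1
        have h2 := hC.face₀ _ (hl e he) e.2.2 (Finset.mem_singleton_self _)
        have h3 := e.2.1.2
        rw [Finset.erase_singleton] at h2
        refine ⟨h2, ?_⟩
        simp only [slab, ovV, Set.mem_ofPred_eq, ht_bbo, Finset.card_empty]
        omega
    · have h1 := aug_cbd Γ (Finsupp.mapDomain (ovE Γ t) lam)
      rw [cbd_ovE, ← hν, Finsupp.mapDomain_smul, map_smul] at h1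
      exact (smul_eq_zero.1 h1).resolve_left h0
  obtain ⟨w, hw, hw'⟩ := key
  obtain ⟨d, hd, hd'⟩ := ov_fill1 Γ t hC.clique h (lam - p • w) (fun e he => by
    rcases Finset.mem_union.1 (Finsupp.support_sub he) with h1 | h1
    · exact hl e h1
    · exact hw e (Finsupp.support_smul h1)) (by rw [map_sub, map_smul, hw', sub_self])
  refine ⟨Finsupp.mapDomain (ovS Γ) d, fun τ hτ => ?_, fun e => ?_⟩
  · obtain ⟨σ, hσ, rfl⟩ := ov_supp _ _ hτ
    exact ⟨σ.2, rfl, hd σ hσ⟩
  · rw [hd', sub_sub_cancel]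
    exact Dvd.intro _ rfl

end Crest.Agent.R197
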