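import Crest.Agent.R197.Pw

/-! Word length, descent sets and residual finiteness of right-angled Artin groups.

Recipe (numbers game). States are `s : V × Bool → ℤ`. The signed letter `x = (a, e)` acts by the
ℤ-linear map `mv x`: with `x' = (a, !e)`, `(mv x s) x' = - s x`, `(mv x s) x = 2 s x + s x'`,
`(mv x s) y = s y` if `Γ.Adj a y.1`, and `s y + 2 s x` otherwise. `mv x` and `mv x'` are inverse,
`mv x`, `mv y` commute if adjacent, so `g ↦ state g` (right action; use a hom to the opposite
of `(State ≃ₗ State)`, or `g ↦ g⁻¹`) is defined, `state 1 = fun _ => 1`, `state (g * sg x) = mv x (state g)`.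
A word is positive if each move `x` is applied to a state with `0 < s x`. Invariant along positive
words: all `s y ≠ 0` and `0 < s y + s z` for `y ≠ z` with `¬ Adj y.1 z.1`. Lemma: if `l` is positive
with final state `s`, `s x < 0`, then some positive word of length `l.length - 1` represents `[l] * sg x`
(induction on `l` from the right: last letter `y`; either `y = x'`, or `s y' < 0` forces adjacency).
Hence every element has a positive word, all positive words of `g` have the same length `len g`,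
`desc g x := state g x < 0`. `g ≠ 1` has a negative coordinate, so the linear action is faithful and
stays nontrivial modulo a suitable `n` (act on `V × Bool → ZMod n` by the same formulas, or use the
stabiliser of `state 1` mod `n`, a finite-index subgroup:
`Group.residuallyFinite_iff_exists_finiteIndex`). -/

set_option autoImplicit false

open Quaternion

namespace Crest.Agent.R197

open Crest.Agent.Lib.CWComb

variable {V : Type} (Γ : SimpleGraph V)

section Game

open Classical

variable {R : Type} [CommRing R]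

/-- the inverse letter -/
def rgInv (x : V × Bool) : V × Bool := (x.1, !x.2)

@[simp] theorem rgInv_fst (x : V × Bool) : (rgInv x).1 = x.1 := rfl

@[simp] theorem rgInv_rgInv (x : V × Bool) : rgInv (rgInv x) = x := by simp [rgInv]

theorem rgInv_ne (x : V × Bool) : rgInv x ≠ x := by
  rcases x with ⟨a, _ | _⟩ <;> simp [rgInv]

theorem rg_cases (x y : V × Bool) : y = rgInv x ∨ y = x ∨ y.1 ≠ x.1 := by
  rcases x with ⟨a, e⟩
  rcases y with ⟨b, f⟩
  by_cases h : b = a
  · subst h
    cases e <;> cases f <;> simp [rgInv]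
  · simp [h]

theorem sg_mul_sg_rgInv (x : V × Bool) : sg Γ x * sg Γ (rgInv x) = 1 := by
  rcases x with ⟨a, _ | _⟩ <;> simp [sg, rgInv]

theorem sg_comm {x y : V × Bool} (h : Γ.Adj x.1 y.1) : Commute (sg Γ x) (sg Γ y) := by
  have := gen_comm Γ h
  rcases x with ⟨a, _ | _⟩ <;> rcases y with ⟨b, _ | _⟩ <;> simpa [sg] using this

/-- a move of the numbers game -/
noncomputable def mv (x : V × Bool) (s : V × Bool → R) : V × Bool → R := fun y =>
  if y = rgInv x then - s x else if y = x then 2 * s x + s (rgInv x)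
  else if Γ.Adj x.1 y.1 then s y else s y + 2 * s x

theorem mv_inv (x : V × Bool) (s : V × Bool → R) : mv Γ x s (rgInv x) = - s x := by simp [mv]

theorem mv_self (x : V × Bool) (s : V × Bool → R) : mv Γ x s x = 2 * s x + s (rgInv x) := by
  simp [mv, (rgInv_ne x).symm]

theorem mv_adj {x y : V × Bool} (h : Γ.Adj x.1 y.1) (s : V × Bool → R) : mv Γ x s y = s y := by
  have h1 : y ≠ rgInv x := fun e => h.ne (by simp [e])
  have h2 : y ≠ x := fun e => h.ne (by simp [e])
  simp [mv, h1, h2, h]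

theorem mv_not_adj {x y : V × Bool} (h0 : y.1 ≠ x.1) (h : ¬ Γ.Adj x.1 y.1) (s : V × Bool → R) :
    mv Γ x s y = s y + 2 * s x := by
  have h1 : y ≠ rgInv x := fun e => h0 (by simp [e])
  have h2 : y ≠ x := fun e => h0 (by simp [e])
  simp [mv, h1, h2, h]

theorem mv_mv (x : V × Bool) (s : V × Bool → R) : mv Γ (rgInv x) (mv Γ x s) = s := by
  funext y
  rcases rg_cases x y with rfl | rfl | h
  · rw [mv_self, mv_inv, rgInv_rgInv, mv_self]; ring
  · have := mv_inv Γ (rgInv y) (mv Γ y s)
    rw [rgInv_rgInv, mv_inv] at this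
    rw [this]; ring
  · by_cases ha : Γ.Adj x.1 y.1
    · rw [mv_adj Γ (x := rgInv x) ha, mv_adj Γ ha]
    · rw [mv_not_adj Γ (x := rgInv x) h ha, mv_not_adj Γ h ha, mv_inv]; ring

theorem mv_comm_aux {x y z : V × Bool} (h : Γ.Adj x.1 y.1) (hz : z.1 = x.1) (s : V × Bool → R) :
    mv Γ x (mv Γ y s) z = mv Γ y (mv Γ x s) z := by
  rw [mv_adj Γ (x := y) (y := z) (hz ▸ h.symm)]
  rcases rg_cases x z with rfl | rfl | h'
  · rw [mv_inv, mv_inv, mv_adj Γ h.symm]
  · rw [mv_self, mv_self, mv_adj Γ h.symm, mv_adj Γ (y := rgInv z) h.symm]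
  · exact (h' hz).elim

theorem mv_comm {x y : V × Bool} (h : Γ.Adj x.1 y.1) (s : V × Bool → R) :
    mv Γ x (mv Γ y s) = mv Γ y (mv Γ x s) := by
  funext z
  by_cases hx : z.1 = x.1
  · exact mv_comm_aux Γ h hx s
  by_cases hy : z.1 = y.1
  · exact (mv_comm_aux Γ h.symm hy s).symm
  by_cases ha : Γ.Adj x.1 z.1 <;> by_cases hb : Γ.Adj y.1 z.1
  · rw [mv_adj Γ ha, mv_adj Γ hb, mv_adj Γ hb, mv_adj Γ ha]
  · rw [mv_adj Γ ha, mv_not_adj Γ hy hb, mv_not_adj Γ hy hb, mv_adj Γ ha, mv_adj Γ h]
  · rw [mv_adj Γ hb, mv_not_adj Γ hx ha, mv_not_adj Γ hx ha, mv_adj Γ hb, mv_adj Γ h.symm]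
  · rw [mv_not_adj Γ hx ha, mv_not_adj Γ hy hb, mv_not_adj Γ hy hb, mv_not_adj Γ hx ha,
      mv_adj Γ h, mv_adj Γ h.symm]
    ring

variable (R) in
/-- a move as a permutation of the states -/
noncomputable def mvE (x : V × Bool) : Equiv.Perm (V × Bool → R) where
  toFun := mv Γ x
  invFun := mv Γ (rgInv x)
  left_inv := mv_mv Γ x
  right_inv s := by simpa using mv_mv Γ (rgInv x) s

variable (R) in
/-- the action on the states -/
noncomputable def rgAct : Raag Γ →* Equiv.Perm (V × Bool → R) :=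
  PresentedGroup.toGroup (f := fun a => mvE Γ R (a, false)) (by
    rintro _ ⟨a, b, h, rfl⟩
    simp only [map_mul, map_inv, FreeGroup.lift_apply_of]
    rw [mul_inv_eq_one, mul_inv_eq_iff_eq_mul]
    ext1 s
    exact mv_comm Γ (x := (a, false)) (y := (b, false)) h s)

theorem rgAct_gen (a : V) : rgAct Γ R (gen Γ a) = mvE Γ R (a, false) :=
  PresentedGroup.toGroup.of _

variable (R) in
/-- the state reached by a group element -/
noncomputable def rgState (g : Raag Γ) : V × Bool → R := rgAct Γ R g⁻¹ fun _ => 1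

theorem rgState_one : rgState Γ R 1 = fun _ => 1 := by simp [rgState]

theorem rgState_mul (g : Raag Γ) (x : V × Bool) :
    rgState Γ R (g * sg Γ x) = mv Γ x (rgState Γ R g) := by
  unfold rgState
  rw [mul_inv_rev, map_mul, Equiv.Perm.mul_apply]
  rcases x with ⟨a, _ | _⟩
  · simp only [sg, Bool.false_eq_true, if_false, inv_inv, rgAct_gen]
    rfl
  · simp only [sg, if_true, map_inv, rgAct_gen]
    rfl

theorem raag_induction {P : Raag Γ → Prop} (h1 : P 1) (hs : ∀ g x, P g → P (g * sg Γ x))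
    (g : Raag Γ) : P g := by
  have hg : g ∈ Subgroup.closure (Set.range (PresentedGroup.of : V → Raag Γ)) := by
    rw [PresentedGroup.closure_range_of]; trivial
  induction hg using Subgroup.closure_induction_right with
  | one => exact h1
  | mul_right g _ y hy ih =>
    obtain ⟨a, rfl⟩ := hy
    exact hs g (a, true) ih
  | mul_inv_cancel g _ y hy ih =>
    obtain ⟨a, rfl⟩ := hy
    exact hs g (a, false) ih

theorem cast_rgState (g : Raag Γ) (y : V × Bool) :
    ((rgState Γ ℤ g y : ℤ) : R) = rgState Γ R g y := by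
  induction g using raag_induction Γ generalizing y with
  | h1 => simp [rgState_one]
  | hs g x ih =>
    rw [rgState_mul, rgState_mul]
    unfold mv
    split_ifs <;> simp [ih]

/-- the invariant of the positive game -/
def RgGood (s : V × Bool → ℤ) : Prop :=
  (∀ y, s y ≠ 0) ∧ ∀ y z, y ≠ z → ¬ Γ.Adj y.1 z.1 → 0 < s y + s z

theorem RgGood.pos_self {s : V × Bool → ℤ} (hs : RgGood Γ s) {x : V × Bool} (hx : 0 < s x) :
    0 < mv Γ x s x := by
  have := hs.2 x (rgInv x) (rgInv_ne x).symm (by simp)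
  rw [mv_self]; omega

theorem RgGood.pos_not_adj {s : V × Bool → ℤ} (hs : RgGood Γ s) {x y : V × Bool} (hx : 0 < s x)
    (h0 : y.1 ≠ x.1) (h : ¬ Γ.Adj x.1 y.1) : 0 < mv Γ x s y := by
  have := hs.2 x y (fun e => h0 (by rw [e])) h
  rw [mv_not_adj Γ h0 h]; omega

theorem RgGood.mv {s : V × Bool → ℤ} (hs : RgGood Γ s) {x : V × Bool} (hx : 0 < s x) :
    RgGood Γ (mv Γ x s) := by
  have hle : ∀ y : V × Bool, y.1 ≠ x.1 → s y ≤ R197.mv Γ x s y := by
    intro y hy
    by_cases ha : Γ.Adj x.1 y.1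
    · rw [mv_adj Γ ha]
    · rw [mv_not_adj Γ hy ha]; omega
  have key : ∀ y z : V × Bool, y.1 = x.1 → y ≠ z → ¬ Γ.Adj y.1 z.1 →
      0 < R197.mv Γ x s y + R197.mv Γ x s z := by
    intro y z hy hyz ha
    have h1 := hs.2 x (rgInv x) (rgInv_ne x).symm (by simp)
    rcases rg_cases x y with rfl | rfl | h
    · rcases rg_cases x z with rfl | rfl | h'
      · exact (hyz rfl).elim
      · rw [mv_inv, mv_self]; omega
      · have := hs.2 x z (fun e => h' (by rw [e])) ha
        rw [mv_inv, mv_not_adj Γ h' ha]; omega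
    · rcases rg_cases y z with rfl | rfl | h'
      · rw [mv_inv, mv_self]; omega
      · exact (hyz rfl).elim
      · exact add_pos (hs.pos_self Γ hx) (hs.pos_not_adj Γ hx h' ha)
    · exact (h hy).elim
  refine ⟨fun y => ?_, fun y z hyz ha => ?_⟩
  · rcases rg_cases x y with rfl | rfl | h
    · rw [mv_inv]; omega
    · exact (hs.pos_self Γ hx).ne'
    · by_cases ha : Γ.Adj x.1 y.1
      · rw [mv_adj Γ ha]; exact hs.1 y
      · exact (hs.pos_not_adj Γ hx h ha).ne'
  · by_cases hy : y.1 = x.1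
    · exact key y z hy hyz ha
    by_cases hz : z.1 = x.1
    · rw [add_comm]; exact key z y hz hyz.symm fun h => ha h.symm
    have := hs.2 y z hyz ha
    have := hle y hy
    have := hle z hz
    omega

/-- `g` is represented by a positive word of length `n` -/
inductive RgReach : ℕ → Raag Γ → Prop
  | one : RgReach 0 1
  | step {n : ℕ} {g : Raag Γ} (x : V × Bool) :
      RgReach n g → 0 < rgState Γ ℤ g x → RgReach (n + 1) (g * sg Γ x)

theorem RgReach.good {n : ℕ} {g : Raag Γ} (h : RgReach Γ n g) : RgGood Γ (rgState Γ ℤ g) := by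
  induction h with
  | one => rw [rgState_one]; exact ⟨fun _ => one_ne_zero, fun _ _ _ _ => by norm_num⟩
  | step x _ hx ih => rw [rgState_mul]; exact ih.mv Γ hx

theorem RgReach.down {n : ℕ} {g : Raag Γ} (h : RgReach Γ n g) {x : V × Bool}
    (hx : rgState Γ ℤ g x < 0) : ∃ m, n = m + 1 ∧ RgReach Γ m (g * sg Γ x) := by
  induction h with
  | one => rw [rgState_one] at hx; norm_num at hx
  | @step n g y h hy ih =>
    rw [rgState_mul] at hx
    refine ⟨n, rfl, ?_⟩
    rcases rg_cases y x with rfl | rfl | h0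
    · rwa [mul_assoc, sg_mul_sg_rgInv, mul_one]
    · exact absurd ((h.good Γ).pos_self Γ hy) hx.le.not_gt
    · by_cases ha : Γ.Adj y.1 x.1
      · rw [mv_adj Γ ha] at hx
        obtain ⟨m, rfl, hm⟩ := ih hx
        rw [mul_assoc, (sg_comm Γ ha).eq, ← mul_assoc]
        exact hm.step y (by rwa [rgState_mul, mv_adj Γ ha.symm])
      · exact absurd ((h.good Γ).pos_not_adj Γ hy h0 ha) hx.le.not_gt

theorem exists_rgReach (g : Raag Γ) : ∃ n, RgReach Γ n g := by
  induction g using raag_induction Γ with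
  | h1 => exact ⟨0, .one⟩
  | hs g x ih =>
    obtain ⟨n, hn⟩ := ih
    rcases lt_or_gt_of_ne ((hn.good Γ).1 x) with h | h
    · obtain ⟨m, -, hm⟩ := hn.down Γ h
      exact ⟨m, hm⟩
    · exact ⟨n + 1, hn.step x h⟩

theorem RgReach.cases {n : ℕ} {g : Raag Γ} (h : RgReach Γ n g) :
    (n = 0 ∧ g = 1) ∨ ∃ x, rgState Γ ℤ g x < 0 := by
  cases h with
  | one => exact Or.inl ⟨rfl, rfl⟩
  | step x _ hx => exact Or.inr ⟨rgInv x, by rw [rgState_mul, mv_inv]; omega⟩

theorem RgReach.unique {n m : ℕ} {g : Raag Γ} (h : RgReach Γ n g) (h' : RgReach Γ m g) :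
    n = m := by
  induction h generalizing m with
  | one =>
    rcases h'.cases Γ with h1 | ⟨x, hx⟩
    · exact h1.1.symm
    · rw [rgState_one] at hx; norm_num at hx
  | @step n g x _ hx ih =>
    obtain ⟨k, rfl, hk⟩ := h'.down Γ (x := rgInv x) (by rw [rgState_mul, mv_inv]; omega)
    rw [mul_assoc, sg_mul_sg_rgInv, mul_one] at hk
    rw [ih hk]

theorem exists_rgState_neg {g : Raag Γ} (hg : g ≠ 1) : ∃ x, rgState Γ ℤ g x < 0 := by
  obtain ⟨n, hn⟩ := exists_rgReach Γ g
  exact (hn.cases Γ).resolve_left fun h => hg h.2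

end Game

theorem nonempty_len : Nonempty (Len Γ) := by
  choose len hlen using exists_rgReach Γ
  refine ⟨⟨len, fun g x => rgState Γ ℤ g x < 0, (hlen 1).unique Γ .one, fun g x h => ?_,
    fun g x h => ?_, fun g hg => exists_rgState_neg Γ hg, fun g x y hx hy hxy => ?_,
    fun g x y h => ?_⟩⟩
  · obtain ⟨m, hm, hm'⟩ := (hlen g).down Γ h
    rw [hm, (hlen _).unique Γ hm']
  · exact (hlen _).unique Γ ((hlen g).step x
      (lt_of_le_of_ne (not_lt.1 h) (((hlen g).good Γ).1 x).symm))
  · by_contra ha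
    have := ((hlen g).good Γ).2 x y hxy ha
    omega
  · rw [rgState_mul, mv_adj Γ h.symm]

theorem residuallyFinite_raag [Finite V] : Group.ResiduallyFinite (Raag Γ) := by
  refine Group.residuallyFinite_of_forall_exists_finite_monoidHom.{0} fun g hg => ?_
  obtain ⟨x, hx⟩ := exists_rgState_neg Γ hg
  obtain ⟨n, hn⟩ : ∃ n : ℕ, (n : ℤ) + 1 = - rgState Γ ℤ g x := ⟨(- rgState Γ ℤ g x - 1).toNat, by omega⟩
  refine ⟨Equiv.Perm (V × Bool → ZMod (n + 3)), inferInstance, inferInstance,
    rgAct Γ (ZMod (n + 3)), fun h => ?_⟩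
  have h1 : rgState Γ (ZMod (n + 3)) g x = 1 := by
    unfold rgState
    rw [map_inv, h]; rfl
  rw [← cast_rgState] at h1
  have h2 : (((1 - rgState Γ ℤ g x : ℤ)) : ZMod (n + 3)) = 0 := by
    push_cast
    rw [h1, sub_self]
  rw [ZMod.intCast_zmod_eq_zero_iff_dvd] at h2
  have h3 := Int.le_of_dvd (by omega) h2
  push_cast at h3
  omega

end Crest.Agent.R197
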