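import Crest.Agent.R197.Morse
import Crest.Agent.R197.Raag

/-! Acyclicity of the slab and of the slab of a cone.

Recipe. `cacyc_all`: `morse` with `μ = len`, `up g a := ¬ desc g (a, true)`, `N = 0`; the descending link of
`x ≠ 1` is the set of subsets of the nonempty clique of descending directions (`acyc_of_cone`); what
remains is a multiple of `(1, ∅)`, zero by `aug_cbd`. `cacyc_cone`: `μ = ht`, `up = True`,
`N = ht v`; the link at `v * mono m` is the set of subsets of the support of `m` (`mono_injective`,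
`mono_add_single`), the link at a vertex outside the cone is empty. `cacyc_inter_slab`: fill in `C`, push
the filling up with `μ = -ht`, `up = False`, `N = 0`, then down inside `C ∩ {0 ≤ ht}` with `μ = ht`,
`up = True`, `N = 2` (cubes have dimension `≤ 3`, so the link is unchanged). -/

set_option autoImplicit false

open Quaternion

namespace Crest.Agent.R197

open Crest.Agent.Lib.CWComb

variable {V : Type} [Fintype V] [LinearOrder V] (Γ : SimpleGraph V)

omit [Fintype V] in
theorem cubeSet_all : CubeSet Γ (allCubes Γ) :=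
  ⟨fun _ h => h, fun _ h _ _ => SimpleGraph.IsClique.subset (by simp) h,
    fun _ h _ _ => SimpleGraph.IsClique.subset (by simp) h⟩

theorem cubeSet_cone (v : Raag Γ) : CubeSet Γ (coneCubes Γ v) := by
  refine ⟨?_, ?_, ?_⟩
  · rintro c ⟨m, h, -⟩
    exact h.subset Set.subset_union_right
  · rintro c ⟨m, h, e⟩ a _
    exact ⟨m, h.subset (Set.union_subset_union_right _ (by simp)), e⟩
  · rintro c ⟨m, h, e⟩ a ha
    refine ⟨m + Pi.single a 1, h.subset ?_, ?_⟩
    · rintro b (hb | hb)
      · by_cases hba : b = a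
        · exact Or.inr (hba ▸ ha)
        · left
          simpa [hba] using hb
      · exact Or.inr (Finset.mem_of_mem_erase hb)
    · rw [mono_add_single m a (h.subset (Set.union_subset_union_right _ (by simpa using ha))), e,
        mul_assoc]

omit [Fintype V] in
theorem Slab_eq_zero {w : Raag Γ × Finset V →₀ ℤ} {g : Raag Γ} (h : ∀ c ∈ w.support, c = (g, ∅))
    (ha : aug Γ w = 0) : w = 0 := by
  have h1 : w = Finsupp.single (g, ∅) (w (g, ∅)) :=
    Finsupp.support_subset_singleton.1 fun c hc => Finset.mem_singleton.2 (h c hc)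
  rw [h1, aug, Finsupp.linearCombination_single] at ha
  simp only [if_true, smul_eq_mul, mul_one] at ha
  rw [h1, ha, Finsupp.single_zero]

theorem Slab_mono_add (m : V → ℕ) (σ : Finset V) (h : Γ.IsClique ({a | m a ≠ 0} ∪ (σ : Set V))) :
    mono Γ (fun b => m b + if b ∈ σ then 1 else 0) = mono Γ m * pw Γ σ := by
  induction σ using Finset.induction_on with
  | empty => simp
  | insert a σ ha ih =>
    have e : (fun b => m b + if b ∈ insert a σ then 1 else 0) =
        (fun b => m b + if b ∈ σ then 1 else 0) + Pi.single a 1 := by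
      funext b
      by_cases hb : b = a
      · simp [hb, ha]
      · simp [hb]
    rw [e, mono_add_single, ih (h.subset (Set.union_subset_union_right _ (by simp))),
      pw_insert' ha (h.subset Set.subset_union_right), mul_assoc]
    refine h.subset ?_
    rintro b (hb | hb)
    · by_cases hbσ : b ∈ σ
      · exact Or.inr (by simp [hbσ])
      · left
        simpa [hbσ] using hb
    · exact Or.inr (by simp [show b = a from hb])

theorem Slab_link_cone (v x : Raag Γ) (hx : ht Γ v < ht Γ x) :
    Acyc {σ : Finset V | (x * (pw Γ σ)⁻¹, σ) ∈ coneCubes Γ v} := by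
  have key : ∀ σ : Finset V, (x * (pw Γ σ)⁻¹, σ) ∈ coneCubes Γ v →
      ∃ m : V → ℕ, Γ.IsClique {a | m a ≠ 0} ∧ x = v * mono Γ m ∧ ∀ a ∈ σ, m a ≠ 0 := by
    rintro σ ⟨m, h, e⟩
    refine ⟨fun b => m b + if b ∈ σ then 1 else 0, h.subset fun b hb => ?_, ?_, fun a ha => ?_⟩
    · by_cases hbσ : b ∈ σ
      · exact Or.inr hbσ
      · left
        simpa [hbσ] using hb
    · rw [Slab_mono_add Γ m σ h, ← mul_assoc, ← mul_inv_eq_iff_eq_mul]
      exact e
    · simp [ha]
  by_cases h : ∃ m : V → ℕ, Γ.IsClique {a | m a ≠ 0} ∧ x = v * mono Γ m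
  · obtain ⟨m, hm, e⟩ := h
    obtain ⟨a, ha⟩ : ∃ a, m a ≠ 0 := by
      by_contra hcon
      push Not at hcon
      rw [e, show m = 0 from funext hcon] at hx
      simp at hx
    refine acyc_of_cone a fun σ hσ => ?_
    obtain ⟨m', -, e', h'⟩ := key σ hσ
    obtain rfl : m = m' := mono_injective (mul_left_cancel (e.symm.trans e'))
    have h1 : ∀ b ∈ insert a σ, m b ≠ 0 := fun b hb => by
      rcases Finset.mem_insert.1 hb with rfl | hb
      · exact ha
      · exact h' b hb
    have h2 : Γ.IsClique ({b | (m b - if b ∈ insert a σ then 1 else 0) ≠ 0} ∪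
        ((insert a σ : Finset V) : Set V)) := hm.subset (by
      rintro b (hb | hb)
      · intro h0
        apply hb
        rw [h0, Nat.zero_sub]
      · exact h1 b hb)
    refine ⟨fun b => m b - if b ∈ insert a σ then 1 else 0, h2, ?_⟩
    rw [mul_inv_eq_iff_eq_mul, mul_assoc, ← Slab_mono_add Γ _ _ h2, e]
    congr 2
    funext b
    split_ifs with hb
    · have := h1 b hb
      omega
    · rfl
  · convert acyc_empty (V := V)
    refine Set.eq_empty_of_forall_notMem fun σ hσ => ?_
    obtain ⟨m, hm, e, -⟩ := key σ hσ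
    exact h ⟨m, hm, e⟩

theorem cacyc_all : CAcyc Γ (allCubes Γ) := by
  classical
  obtain ⟨L⟩ := nonempty_len Γ
  intro z hz h0 ha
  have hiff : ∀ x a, ¬ L.desc (x * (gen Γ a)⁻¹) (a, true) ↔ L.desc x (a, false) := fun x a => by
    constructor
    · intro h
      by_contra h'
      have h1 := L.len_asc _ _ h
      have h2 := L.len_asc _ _ h'
      simp only [sg, if_true, inv_mul_cancel_right, Bool.false_eq_true, if_false] at h1 h2
      omega
    · intro h h'
      have h1 := L.len_desc _ _ h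
      have h2 := L.len_desc _ _ h'
      simp only [sg, if_true, inv_mul_cancel_right, Bool.false_eq_true, if_false] at h1 h2
      omega
  obtain ⟨u, hu, hw⟩ := morse Γ (cubeSet_all Γ) (fun g => L.len g) (fun g a => ¬ L.desc g (a, true))
    (fun g a h => by exact_mod_cast L.len_asc g (a, true) h)
    (fun g a h => by
      have := L.len_desc g (a, true) (not_not.1 h)
      simp only [sg, if_true] at this
      omega)
    (fun g a b h => not_congr (L.desc_mul g (a, true) (b, true) h))
    (fun x a h h' => (L.desc_adj x _ _ h' ((hiff x a).1 h) (by simp)).ne rfl) 0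
    (fun x hx => by
      obtain ⟨⟨a, e⟩, hy⟩ := L.exists_desc x (by
        rintro rfl
        simp [L.len_one] at hx)
      refine acyc_of_cone a fun σ hσ => ?_
      have h1 : ∀ b ∈ insert a σ, ∃ e, L.desc x (b, e) := fun b hb => by
        rcases Finset.mem_insert.1 hb with rfl | hb
        · exact ⟨e, hy⟩
        · by_cases h : L.desc x (b, true)
          · exact ⟨true, h⟩
          · exact ⟨false, (hiff x b).1 (hσ.1 b hb h)⟩
      refine ⟨fun b hb h => ?_, fun b hb c hc hbc => ?_⟩
      · obtain ⟨e, he⟩ := h1 b hb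
        cases e
        · exact (hiff x b).2 he
        · exact absurd he h
      · obtain ⟨e₁, h₁⟩ := h1 b hb
        obtain ⟨e₂, h₂⟩ := h1 c hc
        exact L.desc_adj x _ _ h₁ h₂ fun h => hbc (congrArg Prod.fst h))
    z hz (by simp [h0])
  refine ⟨u, hu, (sub_eq_zero.1 (Slab_eq_zero Γ (g := 1) (fun c hc => ?_) ?_)).symm⟩
  · have h1 := (hw c hc).2
    have h2 : c.1 = 1 := by
      by_contra hne
      obtain ⟨y, hy⟩ := L.exists_desc _ hne
      have := L.len_desc _ _ hy
      omega
    have h3 : c.2.filter (fun a => ¬ L.desc c.1 (a, true)) = c.2 :=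
      Finset.filter_true_of_mem fun a _ h => by
        have := L.len_desc _ _ h
        omega
    rw [h3] at h1
    exact Prod.ext h2 (Finset.card_eq_zero.1 (by omega))
  · rw [map_sub, ha, aug_cbd, sub_zero]

theorem cacyc_cone (v : Raag Γ) : CAcyc Γ (coneCubes Γ v) := by
  intro z hz h0 ha
  obtain ⟨u, hu, hw⟩ := morse Γ (cubeSet_cone Γ v) (ht Γ) (fun _ _ => True)
    (fun g a _ => by simp) (fun g a h => absurd trivial h) (fun _ _ _ _ => Iff.rfl)
    (fun _ _ _ => trivial) (ht Γ v)
    (fun x hx => by simpa using Slab_link_cone Γ v x hx) z hz (by simp [h0])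
  refine ⟨u, hu, (sub_eq_zero.1 (Slab_eq_zero Γ (g := v) (fun c hc => ?_) ?_)).symm⟩
  · obtain ⟨⟨m, -, e⟩, h1⟩ := hw c hc
    rw [Finset.filter_true, e, ht_mul, ht_mono] at h1
    have h2 : 0 ≤ ∑ a, (m a : ℤ) := Finset.sum_nonneg fun a _ => Nat.cast_nonneg _
    have h3 : m = 0 := funext fun a => by
      have := Finset.single_le_sum (f := fun a => (m a : ℤ)) (fun a _ => Nat.cast_nonneg _)
        (Finset.mem_univ a)
      simp only [Pi.zero_apply] at this ⊢
      omega
    refine Prod.ext ?_ (Finset.card_eq_zero.1 (by omega))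
    rw [e, h3, mono_zero, mul_one]
  · rw [map_sub, ha, aug_cbd, sub_zero]

theorem cacyc_inter_slab {C : Set (Raag Γ × Finset V)} (hC : CubeSet Γ C) (h : CAcyc Γ C)
    (hdim : ∀ c ∈ C, c.2.card ≤ 3)
    (hup : ∀ x, ht Γ x < 0 → Acyc {σ : Finset V | (x, σ) ∈ C})
    (hdown : ∀ x, 2 < ht Γ x → Acyc {σ : Finset V | (x * (pw Γ σ)⁻¹, σ) ∈ C}) :
    CAcyc Γ (C ∩ slab Γ) := by
  intro z hz h0 ha
  obtain ⟨u₀, hu₀, rfl⟩ := h z (fun c hc => (hz c hc).1) h0 ha
  obtain ⟨u, hu, hw⟩ := morse Γ hC (fun g => -ht Γ g) (fun _ _ => False)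
    (fun g a h => h.elim) (fun g a _ => by simp; ring) (fun _ _ _ _ => Iff.rfl)
    (fun _ _ h => h) 0 (fun x hx => by simpa using hup x (by omega)) u₀ hu₀
    (fun c hc => by simpa using (hz c hc).2.1)
  have e1 : cbd Γ (u₀ - cbd Γ u) = cbd Γ u₀ := by
    rw [map_sub, cbd_cbd Γ u fun c hc => hC.clique c (hu c hc), sub_zero]
  have hC' : CubeSet Γ (C ∩ {c | 0 ≤ ht Γ c.1}) :=
    ⟨fun c hc => hC.clique c hc.1, fun c hc a ha => ⟨hC.face₀ c hc.1 a ha, hc.2⟩,
      fun c hc a ha => ⟨hC.face₁ c hc.1 a ha, by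
        have h1 : 0 ≤ ht Γ c.1 := hc.2
        simp only [Set.mem_ofPred_eq, ht_mul, ht_gen]
        omega⟩⟩
  obtain ⟨u', hu', hw'⟩ := morse Γ hC' (ht Γ) (fun _ _ => True)
    (fun g a _ => by simp) (fun g a h => absurd trivial h) (fun _ _ _ _ => Iff.rfl)
    (fun _ _ _ => trivial) 2
    (fun x hx => by
      convert hdown x hx using 1
      ext σ
      simp only [Finset.filter_true, implies_true, true_and, Set.mem_inter_iff, Set.mem_ofPred_eq,
        ht_mul, ht_inv, ht_pw, and_iff_left_iff_imp]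
      intro hσ
      have := hdim _ hσ
      simp only at this
      omega)
    (u₀ - cbd Γ u) (fun c hc => ⟨(hw c hc).1, by simpa using (hw c hc).2⟩)
    (fun c hc => by
      rw [e1] at hc
      simpa using (hz c hc).2.2)
  refine ⟨u₀ - cbd Γ u - cbd Γ u', fun c hc => ⟨(hw' c hc).1.1, (hw' c hc).1.2, ?_⟩, ?_⟩
  · simpa using (hw' c hc).2
  · rw [map_sub, e1, cbd_cbd Γ u' fun c hc => hC.clique c (hu' c hc).1, sub_zero]

theorem cacyc_all_slab (hΓ : Good Γ) : CAcyc Γ (allCubes Γ ∩ slab Γ) :=
  cacyc_inter_slab Γ (cubeSet_all Γ) (cacyc_all Γ) (fun c hc => hΓ.dim c.2 hc)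
    (fun _ _ => hΓ.acyc) (fun _ _ => hΓ.acyc)

theorem cacyc_cone_slab (hΓ : Good Γ) (v : Raag Γ) (hv : ht Γ v ≤ 0) :
    CAcyc Γ (coneCubes Γ v ∩ slab Γ) := by
  refine cacyc_inter_slab Γ (cubeSet_cone Γ v) (cacyc_cone Γ v)
    (fun c hc => hΓ.dim c.2 ((cubeSet_cone Γ v).clique c hc)) (fun x _ => ?_)
    (fun x hx => Slab_link_cone Γ v x (by omega))
  by_cases h : ∃ m : V → ℕ, x = v * mono Γ m
  · obtain ⟨m, e⟩ := h
    have key : ∀ σ : Finset V, (x, σ) ∈ coneCubes Γ v ↔
        Γ.IsClique ({a | m a ≠ 0} ∪ (σ : Set V)) := fun σ => by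
      constructor
      · rintro ⟨m', h', e'⟩
        obtain rfl : m = m' := mono_injective (mul_left_cancel (e.symm.trans e'))
        exact h'
      · exact fun h' => ⟨m, h', e⟩
    simp only [key]
    by_cases hm : ∃ a, m a ≠ 0
    · obtain ⟨a, ha⟩ := hm
      refine acyc_of_cone a fun σ hσ => SimpleGraph.IsClique.subset ?_ hσ
      rintro b (hb | hb)
      · exact Or.inl hb
      · rcases Finset.mem_insert.1 hb with rfl | hb
        · exact Or.inl ha
        · exact Or.inr hb
    · push Not at hm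
      simpa [hm] using hΓ.acyc
  · convert acyc_empty (V := V)
    refine Set.eq_empty_of_forall_notMem ?_
    rintro σ ⟨m, -, e⟩
    exact h ⟨m, e⟩

end Crest.Agent.R197
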