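import Crest.Agent.R197.Quat
import Crest.Agent.R197.Slab
import Crest.Agent.R197.OneVertex

/-! Almost trivial flat connections on large scaled copies of the flag complex.

Recipe. Take `ρ` from `Good.flat`, `q, κ` from `exists_weights`, `n ≥ 1` large, `v = (gen t ^ n)⁻¹`,
`Vx = Raag Γ`, `o = bbo`, `t = bbt`, `Λ₁ = coneE Γ t v`, `Λ₂ = (finite_coneF v).toFinset`. For a vertex `x` and a
frame `c` put `S c x = ∑ b, (ab (v⁻¹ * x) b : ℝ) • (ρ c b * q b)`; for `e ∈ Λ₁` with direction `c` and lower end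
`x` put `a s e = (nrm (S c x))⁻¹ * nrm (S c x + |s| • q c)` and `a s e = 1` off `Λ₁`. On the cone
`‖S c x‖ ≥ κ n`, so `‖a s e - 1‖ ≤ 2 ‖q c‖ / (κ n)` for `s ∈ [0,1]`; `S c (x * gen c) = S c x + q c`; and
`S c' x = ρ c' c * S c x` when the support of `x` together with `c, c'` is a clique, so
`a 1 e = (nrm (S c' (o e)))⁻¹ * nrm (S c' (t e))` in every admissible frame: flat on squares. The four edges
of a face in `coneF` lie in `coneE` (`cubeSet_cone`). The loop: for adjacent `a, b` the word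
`(of (1, b) * (of (1, a))⁻¹) ^ (n + 1)` read from `g_a = v * gen a ^ (n+1) * (gen t)⁻¹ ∈ BB` ends at `g_b`,
and for compatible `y, k` its holonomy is
`k (v * a^(n+1)) * ((nrm (q a))⁻¹ * ρ a b * nrm (q b)) * (k (v * b^(n+1)))⁻¹`; concatenate along the walk. -/

set_option autoImplicit false

open Quaternion

namespace Crest.Agent.R197

open Crest.Agent.Lib.CWComb

variable {V : Type} [Fintype V] [LinearOrder V] (Γ : SimpleGraph V)

namespace Small

variable {Γ} (ρ : V → V → S3) (q : V → ℍ[ℝ])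

/-- the section in the frame `c` at the point with coordinates `m` -/
noncomputable def T (c : V) (m : V → ℝ) : ℍ[ℝ] := ∑ b, m b • ((ρ c b : ℍ[ℝ]) * q b)

variable {ρ q}

theorem T_add_single (c c' : V) (m : V → ℝ) (r : ℝ) :
    T ρ q c (m + Pi.single c' r) = T ρ q c m + r • ((ρ c c' : ℍ[ℝ]) * q c') := by
  simp [T, add_smul, Finset.sum_add_distrib, Pi.single_apply, ite_smul]

omit [LinearOrder V] in
theorem T_frame (h2 : ∀ a b c, Γ.IsClique {a, b, c} → ρ a b * ρ b c = ρ a c) {c c' : V}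
    {m : V → ℝ} (h : Γ.IsClique ({b | m b ≠ 0} ∪ {c, c'})) :
    T ρ q c' m = (ρ c' c : ℍ[ℝ]) * T ρ q c m := by
  rw [T, T, Finset.mul_sum]
  refine Finset.sum_congr rfl fun b _ => ?_
  by_cases hb : m b = 0
  · simp [hb]
  · rw [mul_smul_comm, ← mul_assoc, ← Submonoid.coe_mul, h2 c' c b (h.subset ?_)]
    rintro x (rfl | rfl | rfl) <;> simp [hb]

/-- the coordinates of a vertex with respect to the apex `v` -/
noncomputable def crd (v x : Raag Γ) : V → ℝ := fun b => (ab Γ (v⁻¹ * x) b : ℝ)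

theorem crd_mono (v : Raag Γ) (m : V → ℕ) : crd v (v * mono Γ m) = fun b => (m b : ℝ) := by
  funext b
  simp only [crd, inv_mul_cancel_left, ab_mono, Int.cast_natCast]

omit [Fintype V] in
theorem crd_mul_gen (v x : Raag Γ) (c : V) : crd v (x * gen Γ c) = crd v x + Pi.single c 1 := by
  funext b
  simp only [crd, ← mul_assoc, ab_mul Γ _ (gen Γ c), ab_gen, Pi.add_apply, Pi.single_apply]
  split_ifs <;> simp

open Classical in
variable (ρ q) in
/-- the path of connections -/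
noncomputable def con (t : V) (v : Raag Γ) (s : ℝ) (g : BB Γ) (e : Ed V) : S3 :=
  if (g, e) ∈ coneE Γ t v then (nrm (T ρ q e.2 (crd v (bbo Γ t (g, e)))))⁻¹ *
    nrm (T ρ q e.2 (crd v (bbo Γ t (g, e))) + |s| • q e.2) else 1

omit [Fintype V] [LinearOrder V] in
theorem ht_bbo (t : V) (e : BB Γ × Ed V) : 0 ≤ ht Γ (bbo Γ t e) := by
  have := (mem_BB Γ).1 e.1.2
  simp [bbo, this]

section est

variable {κ : ℝ} (hκ : 0 < κ) (h1 : ∀ a, ρ a a = 1)
  (h2 : ∀ a b c, Γ.IsClique {a, b, c} → ρ a b * ρ b c = ρ a c)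
  (hq : ∀ (c : V) (m : V → ℝ), (∀ b, 0 ≤ m b) →
      Γ.IsClique ({b | m b ≠ 0} ∪ {c}) → κ * ∑ b, m b ≤ ‖T ρ q c m‖)
  {n : ℕ} (hn : 0 < n) {t : V} {v : Raag Γ} (hv : ht Γ v = -n)

include hκ h1 hq hv in
theorem lower {e : BB Γ × Ed V} (he : e ∈ coneE Γ t v) {r : ℝ} (hr : 0 ≤ r) :
    κ * n ≤ ‖T ρ q e.2.2 (crd v (bbo Γ t e)) + r • q e.2.2‖ := by
  obtain ⟨m, hm, hx⟩ := he
  have hx' : bbo Γ t e = v * mono Γ m := hx
  have h3 := ht_bbo (Γ := Γ) t e
  rw [hx', ht_mul, hv, ht_mono] at h3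
  have h4 : (n : ℝ) ≤ ∑ b, (m b : ℝ) := by exact_mod_cast (by linarith : (n : ℤ) ≤ ∑ b, (m b : ℤ))
  have h5 := hq e.2.2 ((fun b => (m b : ℝ)) + Pi.single e.2.2 r) (fun b => by
    simp only [Pi.add_apply, Pi.single_apply]; split_ifs <;> positivity) (hm.subset (by
      rintro b (hb | hb)
      · by_cases h : b = e.2.2
        · right; simp [h]
        · left; simpa [h] using hb
      · right; simpa using hb))
  rw [T_add_single, h1] at h5
  simp only [Pi.add_apply, Finset.sum_add_distrib, Finset.sum_pi_single', Finset.mem_univ,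
    if_true, OneMemClass.coe_one, one_mul] at h5
  rw [hx', crd_mono]
  refine le_trans (mul_le_mul_of_nonneg_left (by linarith) hκ.le) h5

include hκ h1 hq hn hv in
theorem ne_zero {e : BB Γ × Ed V} (he : e ∈ coneE Γ t v) {r : ℝ} (hr : 0 ≤ r) :
    T ρ q e.2.2 (crd v (bbo Γ t e)) + r • q e.2.2 ≠ 0 :=
  norm_pos_iff.1 (lt_of_lt_of_le (by positivity) (lower hκ h1 hq hv he hr))

include hκ h1 hq hn hv in
theorem con_small (g : BB Γ) (e : Ed V) {s : ℝ} (hs : s ∈ Set.Icc (0 : ℝ) 1) :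
    ‖(con ρ q t v s g e : ℍ[ℝ]) - 1‖ ≤ 2 * (∑ b, ‖q b‖) / (κ * n) := by
  unfold con
  split_ifs with he
  · have h3 := lower hκ h1 hq hv he le_rfl
    have h4 := ne_zero hκ h1 hq hn hv he le_rfl
    rw [zero_smul, add_zero] at h3 h4
    refine (norm_nrm_inv_mul_sub_one h4 (ne_zero hκ h1 hq hn hv he (abs_nonneg s))).trans ?_
    rw [add_sub_cancel_left, norm_smul, Real.norm_eq_abs, abs_abs, abs_of_nonneg hs.1]
    have h5 : ‖q e.2‖ ≤ ∑ b, ‖q b‖ :=
      Finset.single_le_sum (f := fun b => ‖q b‖) (fun _ _ => norm_nonneg _) (Finset.mem_univ _)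
    have h6 : s * ‖q e.2‖ ≤ ‖q e.2‖ := mul_le_of_le_one_left (norm_nonneg _) hs.2
    gcongr
    exact h6.trans h5
  · simp only [OneMemClass.coe_one, sub_self, norm_zero]
    positivity

include hκ h1 h2 hq hn hv in
theorem con_one {e : BB Γ × Ed V} {m : V → ℕ} {c : V} (hx : bbo Γ t e = v * mono Γ m)
    (hm : Γ.IsClique ({b | m b ≠ 0} ∪ {e.2.2, c})) :
    e ∈ coneE Γ t v ∧ con ρ q t v 1 e.1 e.2 = (nrm (T ρ q c (crd v (bbo Γ t e))))⁻¹ *
      nrm (T ρ q c (crd v (bbt Γ t e))) := by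
  have he : e ∈ coneE Γ t v := ⟨m, hm.subset (by
    rintro b (hb | hb)
    · exact .inl hb
    · right; left; simpa using hb), hx⟩
  refine ⟨he, ?_⟩
  have h3 := ne_zero hκ h1 hq hn hv he le_rfl
  have h4 := ne_zero hκ h1 hq hn hv he zero_le_one
  rw [zero_smul, add_zero] at h3
  have h5 : T ρ q e.2.2 (crd v (bbt Γ t e)) = T ρ q e.2.2 (crd v (bbo Γ t e)) + (1 : ℝ) • q e.2.2 := by
    rw [bbt, crd_mul_gen, T_add_single, h1, OneMemClass.coe_one, one_mul]
  rw [con, if_pos he, abs_one, T_frame h2 (c := e.2.2) (c' := c) (m := crd v (bbo Γ t e)),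
    T_frame h2 (c := e.2.2) (c' := c) (m := crd v (bbt Γ t e)), nrm_mul_left _ h3,
    nrm_mul_left _ (h5 ▸ h4), h5, mul_inv_rev, mul_assoc, inv_mul_cancel_left]
  · rw [bbt, crd_mul_gen, hx, crd_mono]
    refine hm.subset ?_
    rintro b (hb | hb)
    · by_cases h : b = e.2.2
      · right; simp [h]
      · left; simpa [h] using hb
    · exact .inr hb
  · rw [hx, crd_mono]
    simpa using hm

end est

omit [Fintype V] in
theorem hol_face (t : V) (y : BB Γ → Ed V → S3) (g : BB Γ)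
    (p : {p : V × V // p.1 < p.2 ∧ Γ.Adj p.1 p.2}) :
    hol (bbγ Γ t) y g (bbw Γ t (.inl p)) = y g (0, p.1.1) * y (g * bbγ Γ t (0, p.1.1)) (1, p.1.2) *
      (y (g * bbγ Γ t (0, p.1.2)) (1, p.1.1))⁻¹ * (y g (0, p.1.2))⁻¹ := by
  have h : bbγ Γ t (0, p.1.1) * bbγ Γ t (1, p.1.2) = bbγ Γ t (0, p.1.2) * bbγ Γ t (1, p.1.1) := by
    refine Subtype.ext ?_
    simp only [bbγ, Subgroup.coe_mul, Fin.val_zero, Fin.val_one, pow_zero, zero_add, pow_one,
      one_mul, mul_assoc, inv_mul_cancel_left]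
    rw [← mul_assoc, (gen_comm Γ p.2.2).eq, mul_assoc]
  simp only [bbw, hol_mul, hol_inv, hol_of, map_inv, FreeGroup.lift_apply_of, h,
    mul_assoc, mul_inv_cancel, mul_one]

theorem face_edges (t : V) {v : Raag Γ} {g : BB Γ} {a b : V} {m : V → ℕ}
    (hm : Γ.IsClique ({c | m c ≠ 0} ∪ {a, b})) (hg : (g : Raag Γ) = v * mono Γ m) :
    bbo Γ t (g, (0, a)) = v * mono Γ m ∧
      bbo Γ t (g * bbγ Γ t (0, a), (1, b)) = v * mono Γ (m + Pi.single a 1) ∧
      bbo Γ t (g * bbγ Γ t (0, a), (1, b)) = bbt Γ t (g, (0, a)) ∧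
      Γ.IsClique ({c | (m + Pi.single a 1 : V → ℕ) c ≠ 0} ∪ {a, b}) := by
  have h1 : bbo Γ t (g, (0, a)) = v * mono Γ m := by simp [bbo, hg]
  have h2 : bbo Γ t (g * bbγ Γ t (0, a), (1, b)) = bbt Γ t (g, (0, a)) := by
    simp [bbo, bbt, bbγ, mul_assoc]
  refine ⟨h1, ?_, h2, hm.subset ?_⟩
  · rw [h2, bbt, h1, mono_add_single m a (hm.subset (Set.union_subset_union_right _ (by simp))),
      mul_assoc]
  · rintro c (hc | hc)
    · by_cases h : c = a
      · right; simp [h]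
      · left; simpa [h] using hc
    · exact .inr hc

/-- the element of the group below a vertex of height one -/
def low (t : V) (x : Raag Γ) (h : ht Γ x = 1) : BB Γ :=
  ⟨x * (gen Γ t)⁻¹, by rw [mem_BB]; simp [h]⟩

omit [Fintype V] [LinearOrder V] in
theorem bbo_low (t : V) (x : Raag Γ) (h : ht Γ x = 1) (c : V) :
    bbo Γ t (low t x h, (1, c)) = x := by
  simp [bbo, low]

end Small

open _root_.Crest.Agent.R197.Small in
theorem nonempty_smallFlat (hΓ : Good Γ) (t : V) {ε : ℝ} (hε : 0 < ε) :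
    Nonempty (SmallFlat (bbγ Γ t) (bbw Γ t) ε) := by
  obtain ⟨ρ, h1, h2, a₀, p₀, hp₀⟩ := hΓ.flat
  obtain ⟨q, κ, hκ, hq⟩ := exists_weights Γ hΓ.dim ρ h1 h2
  obtain ⟨n, hn, hnε⟩ : ∃ n : ℕ, 0 < n ∧ 4 * (2 * (∑ b, ‖q b‖) / (κ * n)) ≤ ε := by
    obtain ⟨n, hn⟩ := exists_nat_gt (8 * (∑ b, ‖q b‖) / (κ * ε))
    have h0 : (0 : ℝ) < n := lt_of_le_of_lt (by positivity) hn
    refine ⟨n, by exact_mod_cast h0, ?_⟩
    rw [div_lt_iff₀ (by positivity)] at hn
    rw [← mul_div_assoc, div_le_iff₀ (by positivity)]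
    nlinarith
  let v : Raag Γ := (gen Γ t ^ n)⁻¹
  have hv : ht Γ v = -n := by simp [v]
  have hone := fun e m c => con_one (Γ := Γ) (t := t) (e := e) (m := m) (c := c) hκ h1 h2 hq hn hv
  let N : V → Raag Γ → S3 := fun c x => nrm (T ρ q c (crd v x))
  -- the four edges of a face
  have hface : ∀ τ ∈ coneF Γ v, ∃ e₁ e₂ e₃ e₄ : BB Γ × Ed V,
      (∀ s y k, Compat (bbo Γ t) (bbt Γ t) (coneE Γ t v) (con ρ q t v s) y k →
        hol (bbγ Γ t) y τ.1 (bbw Γ t τ.2) = k τ.1 * (con ρ q t v s e₁.1 e₁.2 *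
          con ρ q t v s e₂.1 e₂.2 * (con ρ q t v s e₃.1 e₃.2)⁻¹ * (con ρ q t v s e₄.1 e₄.2)⁻¹) *
          (k τ.1)⁻¹) ∧
      con ρ q t v 1 e₁.1 e₁.2 * con ρ q t v 1 e₂.1 e₂.2 * (con ρ q t v 1 e₃.1 e₃.2)⁻¹ *
        (con ρ q t v 1 e₄.1 e₄.2)⁻¹ = 1 := by
    rintro ⟨g, τ⟩ ⟨p, rfl, m, hm, hg⟩
    have hm1 : Γ.IsClique ({c | m c ≠ 0} ∪ {p.1.1, p.1.2}) := by simpa using hm
    have hm2 : Γ.IsClique ({c | m c ≠ 0} ∪ {p.1.2, p.1.1}) := by rwa [Set.pair_comm]
    obtain ⟨a1, a2, a3, a4⟩ := face_edges t hm1 hg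
    obtain ⟨b1, b2, b3, b4⟩ := face_edges t hm2 hg
    obtain ⟨c1, d1⟩ := hone _ _ p.1.1 a1
      (hm1.subset (Set.union_subset_union_right _ (by simp)))
    obtain ⟨c2, d2⟩ := hone _ _ p.1.1 a2 (by rwa [Set.pair_comm])
    obtain ⟨c3, d3⟩ := hone _ _ p.1.1 b2
      (b4.subset (Set.union_subset_union_right _ (by simp)))
    obtain ⟨c4, d4⟩ := hone _ _ p.1.1 b1 hm2
    have e1 : bbt Γ t (g * bbγ Γ t (0, p.1.1), (1, p.1.2)) =
        bbt Γ t (g * bbγ Γ t (0, p.1.2), (1, p.1.1)) := by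
      rw [bbt, bbt, a3, b3, bbt, bbt, a1, b1, mul_assoc, mul_assoc _ (gen Γ _),
        (gen_comm Γ p.2.2).eq]
    have e2 : bbo Γ t (g, (0, p.1.1)) = g := a1.trans hg.symm
    have e3 : bbo Γ t (g, (0, p.1.2)) = g := b1.trans hg.symm
    refine ⟨(g, (0, p.1.1)), (g * bbγ Γ t (0, p.1.1), (1, p.1.2)),
      (g * bbγ Γ t (0, p.1.2), (1, p.1.1)), (g, (0, p.1.2)), fun s y k h => ?_, ?_⟩
    · rw [hol_face, h _ c1, h _ c2, h _ c3, h _ c4, a3, b3, e1, e2, e3]
      group
    · rw [d1, d2, d3, d4, a3, b3, e1, e2, e3]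
      group
  -- one step along a scaled edge
  have hstep : ∀ (a b : V) (m : V → ℕ), Γ.IsClique ({c | m c ≠ 0} ∪ {a, b}) →
      ∀ h0 h0', low t (v * mono Γ (m + Pi.single a 1)) h0 *
          FreeGroup.lift (bbγ Γ t) (FreeGroup.of (1, b) * (FreeGroup.of (1, a))⁻¹) =
          low t (v * mono Γ (m + Pi.single b 1)) h0' ∧
        ∀ y k, Compat (bbo Γ t) (bbt Γ t) (coneE Γ t v) (con ρ q t v 1) y k →
          hol (bbγ Γ t) y (low t (v * mono Γ (m + Pi.single a 1)) h0)
            (FreeGroup.of (1, b) * (FreeGroup.of (1, a))⁻¹) =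
          k (v * mono Γ (m + Pi.single a 1)) * (N a (v * mono Γ (m + Pi.single a 1)))⁻¹ *
            (k (v * mono Γ (m + Pi.single b 1)) * (N a (v * mono Γ (m + Pi.single b 1)))⁻¹)⁻¹ := by
    intro a b m hm h0 h0'
    have hc : Commute (gen Γ a) (gen Γ b) := gen_comm_of_clique hm (by simp) (by simp)
    have ha := mono_add_single m a (hm.subset (Set.union_subset_union_right _ (by simp)))
    have hb := mono_add_single m b (hm.subset (Set.union_subset_union_right _ (by simp)))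
    have hsub : ∀ c ∈ ({a, b} : Set V), Γ.IsClique
        ({x | (m + Pi.single c 1 : V → ℕ) x ≠ 0} ∪ {a, b}) := fun c hc => hm.subset (by
      rintro x (hx | hx)
      · by_cases h : x = c
        · exact .inr (h ▸ hc)
        · left; simpa [h] using hx
      · exact .inr hx)
    have e0 : low t (v * mono Γ (m + Pi.single a 1)) h0 * bbγ Γ t (1, b) * (bbγ Γ t (1, a))⁻¹ =
        low t (v * mono Γ (m + Pi.single b 1)) h0' := by
      rw [mul_inv_eq_iff_eq_mul]
      refine Subtype.ext ?_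
      simp only [low, bbγ, Subgroup.coe_mul, ha, hb, Fin.val_one, pow_one, mul_assoc,
        inv_mul_cancel_left]
      rw [← mul_assoc (gen Γ a), hc.eq, mul_assoc]
    refine ⟨by simpa [mul_assoc] using e0, fun y k h => ?_⟩
    obtain ⟨c1, d1⟩ := hone (low t _ h0, (1, b)) _ a (bbo_low t _ h0 b)
      (by rw [Set.pair_comm]; exact hsub a (by simp))
    obtain ⟨c2, d2⟩ := hone (low t _ h0', (1, a)) _ a (bbo_low t _ h0' a)
      ((hsub b (by simp)).subset (Set.union_subset_union_right _ (by simp)))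
    have e1 : bbt Γ t (low t _ h0, (1, b)) = bbt Γ t (low t _ h0', (1, a)) := by
      rw [bbt, bbt, bbo_low, bbo_low]
      simp only [ha, hb, mul_assoc]
      rw [hc.eq]
    rw [hol_mul, hol_inv, hol_of, hol_of, FreeGroup.lift_apply_of, FreeGroup.lift_apply_of, e0,
      h _ c1, h _ c2, d1, d2, e1, bbo_low, bbo_low]
    simp only [N]
    group
  have hht : ∀ m : V → ℕ, ∑ c, m c = n + 1 → ht Γ (v * mono Γ m) = 1 := by
    intro m hm
    rw [ht_mul, hv, ht_mono, ← Nat.cast_sum, hm]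
    simp
  have hq0 : ∀ a, q a ≠ 0 := by
    intro a h
    have := hq a (Pi.single a 1) (fun b => by rw [Pi.single_apply]; split_ifs <;> norm_num)
      ((SimpleGraph.isClique_singleton (G := Γ) a).subset (by
        rintro b (hb | hb)
        · by_contra h'
          exact hb (Pi.single_eq_of_ne h' _)
        · exact hb))
    simp [Pi.single_apply, ite_smul, h] at this
    linarith
  let G : V → BB Γ := fun a => low t (v * mono Γ (Pi.single a (n + 1))) (hht _ (by simp))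
  let K : (Raag Γ → S3) → V → S3 := fun k a =>
    k (v * mono Γ (Pi.single a (n + 1))) * (nrm (q a))⁻¹
  have hedge : ∀ a b, Γ.Adj a b → ∃ u, G a * FreeGroup.lift (bbγ Γ t) u = G b ∧
      ∀ y k, Compat (bbo Γ t) (bbt Γ t) (coneE Γ t v) (con ρ q t v 1) y k →
        hol (bbγ Γ t) y (G a) u = K k a * ρ a b * (K k b)⁻¹ := by
    intro a b hab
    have key : ∀ j i : ℕ, ∀ h : i + j = n + 1, ∃ u, G a * FreeGroup.lift (bbγ Γ t) u =
        low t (v * mono Γ (Pi.single a i + Pi.single b j))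
          (hht _ (by simp [Finset.sum_add_distrib, h])) ∧
        ∀ y k, Compat (bbo Γ t) (bbt Γ t) (coneE Γ t v) (con ρ q t v 1) y k →
          hol (bbγ Γ t) y (G a) u = k (v * mono Γ (Pi.single a (n + 1))) *
            (N a (v * mono Γ (Pi.single a (n + 1))))⁻¹ *
            (k (v * mono Γ (Pi.single a i + Pi.single b j)) *
              (N a (v * mono Γ (Pi.single a i + Pi.single b j)))⁻¹)⁻¹ := by
      intro j
      induction j with
      | zero =>
        rintro i (rfl : i = n + 1)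
        exact ⟨1, by simp [G], fun y k _ => by simp⟩
      | succ j ih =>
        intro i h
        obtain ⟨u, hu1, hu2⟩ := ih (i + 1) (by omega)
        have e1 : (Pi.single a (i + 1) + Pi.single b j : V → ℕ) =
            Pi.single a i + Pi.single b j + Pi.single a 1 := by
          rw [Pi.single_add]; abel
        have e2 : (Pi.single a i + Pi.single b (j + 1) : V → ℕ) =
            Pi.single a i + Pi.single b j + Pi.single b 1 := by
          rw [Pi.single_add]; abel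
        simp only [e1] at hu1 hu2
        simp only [e2]
        obtain ⟨h3, h4⟩ := hstep a b (Pi.single a i + Pi.single b j)
          ((SimpleGraph.isClique_pair.2 fun _ => hab).subset (by
            rintro x (hx | hx)
            · by_contra h'
              simp only [Set.mem_insert_iff, Set.mem_singleton_iff, not_or] at h'
              simp [h'.1, h'.2] at hx
            · exact hx)) (hht _ (by simp [Finset.sum_add_distrib]; omega))
          (hht _ (by simp [Finset.sum_add_distrib]; omega))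
        refine ⟨u * _, by rw [map_mul, ← mul_assoc, hu1, h3], fun y k hk => ?_⟩
        rw [hol_mul, hu1, hu2 y k hk, h4 y k hk]
        group
    obtain ⟨u, hu1, hu2⟩ := key (n + 1) 0 (by simp)
    have hN : ∀ c, N a (v * mono Γ (Pi.single c (n + 1))) = ρ a c * nrm (q c) := by
      intro c
      have : (fun b => ((Pi.single c (n + 1) : V → ℕ) b : ℝ)) = 0 + Pi.single c (n + 1 : ℝ) := by
        funext b
        simp only [Pi.single_apply, zero_add]
        split_ifs <;> simp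
      simp only [N, crd_mono, this, T_add_single]
      rw [show T ρ q a 0 = 0 by simp [T], zero_add, nrm_smul (by positivity),
        nrm_mul_left _ (hq0 c)]
    refine ⟨u, by simpa using hu1, fun y k hk => ?_⟩
    rw [hu2 y k hk]
    simp only [Pi.single_zero, zero_add, hN, h1, K]
    group
  have hwalk : ∀ a b (p : Γ.Walk a b), ∃ u, G a * FreeGroup.lift (bbγ Γ t) u = G b ∧
      ∀ y k, Compat (bbo Γ t) (bbt Γ t) (coneE Γ t v) (con ρ q t v 1) y k →
        hol (bbγ Γ t) y (G a) u =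
          K k a * (p.darts.map fun d => ρ d.fst d.snd).prod * (K k b)⁻¹ := by
    intro a b p
    induction p with
    | nil => exact ⟨1, by simp, fun y k _ => by simp⟩
    | cons h p ih =>
      obtain ⟨u, hu1, hu2⟩ := hedge _ _ h
      obtain ⟨u', hu1', hu2'⟩ := ih
      refine ⟨u * u', by rw [map_mul, ← mul_assoc, hu1, hu1'], fun y k hk => ?_⟩
      rw [hol_mul, hu1, hu2 y k hk, hu2' y k hk]
      simp [mul_assoc]
  refine ⟨
    { Vx := Raag Γ
      o := bbo Γ t
      t := bbt Γ t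
      Λ₁ := coneE Γ t v
      Λ₂ := (finite_coneF Γ v).toFinset
      a := con ρ q t v
      cont := fun g e => ?_
      zero := fun g e => ?_
      face := fun τ hτ s hs y k h => ?_
      flat := fun τ hτ y k h => ?_
      loop := ?_
      pure := fun p lam hl hp => ?_ }⟩
  · unfold con
    split_ifs with he
    · exact continuous_const.mul (continuous_nrm (by fun_prop)
        fun s => Small.ne_zero hκ h1 hq hn hv he (abs_nonneg s))
    · exact continuous_const
  · simp [con]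
  · obtain ⟨e₁, e₂, e₃, e₄, h3, -⟩ := hface τ ((Set.Finite.mem_toFinset _).1 hτ)
    have h4 := fun e : BB Γ × Ed V => con_small (t := t) hκ h1 hq hn hv e.1 e.2 hs
    rw [h3 s y k h, norm_conj_sub_one]
    refine (norm_mul_sub_one_le _ _).trans ?_
    refine (add_le_add_left (norm_mul_sub_one_le _ _) _).trans ?_
    refine (add_le_add_left (add_le_add_left (norm_mul_sub_one_le _ _) _) _).trans ?_
    rw [norm_inv_sub_one, norm_inv_sub_one]
    linarith [h4 e₁, h4 e₂, h4 e₃, h4 e₄]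
  · obtain ⟨e₁, e₂, e₃, e₄, h3, h4⟩ := hface τ ((Set.Finite.mem_toFinset _).1 hτ)
    rw [h3 1 y k h, h4, mul_one, mul_inv_cancel]
  · obtain ⟨u, hu1, hu2⟩ := hwalk a₀ a₀ p₀
    refine ⟨G a₀, u, mul_eq_left.1 hu1, fun y k h e => hp₀ ?_⟩
    rwa [hu2 y k h, mul_inv_eq_one, mul_eq_left] at e
  · obtain ⟨d, hd1, hd2⟩ := cone_pure Γ t v (cubeSet_cone Γ v)
      (cacyc_cone_slab Γ hΓ v (by rw [hv]; omega)) p lam hl hp
    exact ⟨d, fun τ hτ => (Set.Finite.mem_toFinset _).2 (hd1 τ hτ), hd2⟩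

end Crest.Agent.R197
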