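import Crest.Agent.R197.Core
import Crest.Agent.R197.Cohom
import Crest.Agent.R197.Small
import Crest.Agent.R197.GraphAcyc
import Crest.Agent.R197.GraphFlat
import Crest.Agent.R197.K3

/-! Assembly. -/

set_option autoImplicit false

open Quaternion

namespace Crest.Agent.R197

open Crest.Agent.Lib.CWComb

section

variable {V : Type} [Fintype V] [LinearOrder V] (Γ : SimpleGraph V)

/-- an exponent sum on the Bestvina–Brady group -/
def abHom (b : V) : BB Γ →* Multiplicative ℤ where
  toFun g := Multiplicative.ofAdd (ab Γ g b)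
  map_one' := by simp
  map_mul' g h := by simp [ofAdd_add]

theorem main_of_good (hΓ : Good Γ) :
    Group.FG (BB Γ) ∧ Group.ResiduallyFinite (BB Γ) ∧
      (∀ (A : Rep ℤ (BB Γ)) (n : ℕ), 3 ≤ n → CategoryTheory.Limits.IsZero (groupCohomology A n)) ∧
      (∃ A : Rep ℤ (BB Γ), ¬ CategoryTheory.Limits.IsZero (groupCohomology A 2)) ∧
      Crest.Topology.HasClassifyingComplex (BB Γ) 3 ∧
      ¬ Crest.Topology.HasClassifyingComplex (BB Γ) 2 := by
  obtain ⟨a, b, c, hab, hac, hbc⟩ := hΓ.tri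
  have : Nonempty V := ⟨a⟩
  have hres := res_bb Γ a (cacyc_all_slab Γ hΓ)
  have := residuallyFinite_raag Γ
  refine ⟨Group.fg_of_surjective hres.surj, inferInstance, isZero_of_res hres, ?_,
    hasClassifyingComplex_bb Γ hΓ.dim,
    not_hasClassifyingComplex_two hres fun ε hε => nonempty_smallFlat Γ hΓ a hε⟩
  refine exists_not_isZero_two (abHom Γ b) (abHom Γ c)
    ⟨gen Γ a * (gen Γ b)⁻¹, by rw [mem_BB]; simp⟩ ⟨gen Γ a * (gen Γ c)⁻¹, by rw [mem_BB]; simp⟩
    (Subtype.ext ?_) ?_
  · have h1 := gen_comm Γ hab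
    have h2 := gen_comm Γ hac
    have h3 := gen_comm Γ hbc
    exact (((Commute.refl _).mul_right h2.inv_right).mul_left
      (h1.symm.mul_right h3.inv_right).inv_left).eq
  · simp [abHom, hab.ne', hac.ne', hbc.ne, hbc.ne']

end

theorem good₀ : Good Γ₀ := ⟨dim₀, acyc₀, tri₀, flat₀⟩

end Crest.Agent.R197
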