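import Crest.Agent.R197.Chains
import Crest.Agent.Lib.GR.Main

/-! The localized Gerstenhaber–Rothaus theorem for arbitrarily many unknowns and a pure exponent matrix.

Recipe. Let `U₀` be a finite set of unknowns containing all letters of the words `W j` (rewrite `W j` over
`U₀ ⊕ K` by sending the other unknowns to `1`). The map `M : (J → ℤ) → (U₀ → ℤ)` is injective (`p = 0`) with
torsion-free, hence free, hence projective cokernel, so it has a left inverse (e.g. the range has a complement;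
`LinearMap.exists_leftInverse`-type splitting lemmas, `Function.Exact.splitSurjectiveEquiv`). Apply
`Lib.GR.exists_solution` and extend solutions by `1`. -/

set_option autoImplicit false

open Quaternion

namespace Crest.Agent.R197

open Crest.Agent.Lib.CWComb

/-- a pure integer matrix has a left inverse -/
theorem grPure_left_inverse {J U : Type} [Fintype J] [Fintype U] [DecidableEq J] (e : J → U → ℤ)
    (hpure : ∀ (p : ℤ) (c : J → ℤ), (∀ u, p ∣ ∑ j, c j * e j u) → ∀ j, p ∣ c j) :
    ∃ lam : U → J → ℤ, ∀ j j', ∑ u, e j u * lam u j' = if j = j' then 1 else 0 := by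
  classical
  let M : (J → ℤ) →ₗ[ℤ] (U → ℤ) := Matrix.vecMulLinear (Matrix.of e)
  have hM : ∀ c u, M c u = ∑ j, c j * e j u := fun c u => rfl
  have hinj : Function.Injective M := by
    rw [injective_iff_map_eq_zero]
    intro c hc
    funext j
    exact zero_dvd_iff.1 (hpure 0 c (fun u => by rw [← hM, hc]; simp) j)
  have : Module.IsTorsionFree ℤ ((U → ℤ) ⧸ LinearMap.range M) := by
    refine Module.IsTorsionFree.of_smul_eq_zero fun p x hx => ?_
    obtain ⟨x, rfl⟩ := Submodule.Quotient.mk_surjective _ x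
    rw [← Submodule.Quotient.mk_smul, Submodule.Quotient.mk_eq_zero] at hx
    obtain ⟨c, hc⟩ := hx
    choose c' hc' using hpure p c fun u => by rw [← hM, hc]; exact dvd_mul_right _ _
    refine or_iff_not_imp_left.2 fun hp => (Submodule.Quotient.mk_eq_zero _).2 ⟨c', ?_⟩
    have h1 : c = p • c' := funext hc'
    rw [h1, map_smul] at hc
    exact smul_right_injective _ hp hc
  obtain ⟨s, hs⟩ := Module.projective_lifting_property (LinearMap.range M).mkQ LinearMap.id
    (Submodule.mkQ_surjective _)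
  have hs' : ∃ l, (LinearMap.range M).mkQ ∘ₗ l = LinearMap.id := ⟨s, hs⟩
  obtain ⟨L, hL⟩ : ∃ l, l ∘ₗ M = LinearMap.id := (((LinearMap.exact_map_mkQ_range M).split_tfae hinj
    (Submodule.mkQ_surjective _)).out 0 1).1 hs'
  refine ⟨fun u => L (Pi.single u 1), fun j j' => ?_⟩
  have h1 : M (Pi.single j 1) = ∑ u, e j u • (Pi.single u 1 : U → ℤ) := by
    funext u
    simp [hM, Pi.single_apply]
  have h2 := congrFun (LinearMap.congr_fun hL (Pi.single j 1)) j'
  simp only [LinearMap.comp_apply, h1, map_sum, map_smul, Finset.sum_apply, Pi.smul_apply,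
    smul_eq_mul, LinearMap.id_apply] at h2
  rw [h2, Pi.single_apply]
  exact if_congr eq_comm rfl rfl

theorem grPure_supp {U K : Type} (w : FreeGroup (U ⊕ K)) : ∃ s : Finset U, ∀ s' : Finset U, s ⊆ s' →
    w ∈ (FreeGroup.map (Sum.map (Subtype.val : s' → U) (id : K → K))).range := by
  classical
  induction w using FreeGroup.induction_on with
  | C1 => exact ⟨∅, fun _ _ => one_mem _⟩
  | of x =>
    rcases x with u | k
    · exact ⟨{u}, fun s' h => ⟨FreeGroup.of (.inl ⟨u, h (Finset.mem_singleton_self u)⟩), by simp⟩⟩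
    · exact ⟨∅, fun s' _ => ⟨FreeGroup.of (.inr k), by simp⟩⟩
  | inv_of x ih => exact ih.imp fun s h s' hs => inv_mem (h s' hs)
  | mul u v ihu ihv =>
    obtain ⟨s, hs⟩ := ihu
    obtain ⟨t, ht⟩ := ihv
    exact ⟨s ∪ t, fun s' h => mul_mem (hs s' (Finset.subset_union_left.trans h))
      (ht s' (Finset.subset_union_right.trans h))⟩

theorem grPure_expo {U K : Type} (s : Finset U) (w : FreeGroup (s ⊕ K)) :
    (∀ u : s, expo (FreeGroup.map (Sum.map (Subtype.val : s → U) (id : K → K)) w) (.inl u) =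
      Lib.GR.expo w (.inl u)) ∧
    ∀ u ∉ s, expo (FreeGroup.map (Sum.map (Subtype.val : s → U) (id : K → K)) w) (.inl u) = 0 := by
  classical
  induction w using FreeGroup.induction_on with
  | C1 => simp [Lib.GR.expo_one]
  | of x =>
    refine ⟨fun u => ?_, fun u hu => ?_⟩
    · rcases x with v | k
      · rw [FreeGroup.map.of, expo_of, Lib.GR.expo_of, Finsupp.single_apply]
        exact if_congr (by simp) rfl rfl
      · simp [Lib.GR.expo_of]
    · rcases x with v | k
      · have : (v : U) ≠ u := fun h => hu (h ▸ v.2)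
        simp [this]
      · simp
  | inv_of x ih =>
    exact ⟨fun u => by rw [map_inv, expo_inv, Lib.GR.expo_inv, Finsupp.neg_apply, ih.1],
      fun u hu => by rw [map_inv, expo_inv, Finsupp.neg_apply, ih.2 u hu, neg_zero]⟩
  | mul u v ihu ihv =>
    exact ⟨fun x => by rw [map_mul, expo_mul, Lib.GR.expo_mul, Finsupp.add_apply, ihu.1, ihv.1],
      fun x hx => by rw [map_mul, expo_mul, Finsupp.add_apply, ihu.2 x hx, ihv.2 x hx, add_zero]⟩

theorem grPure_lift {U K M : Type} [Group M] (s : Finset U) (y : U → M) (a : K → M)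
    (w : FreeGroup (s ⊕ K)) :
    FreeGroup.lift (Sum.elim y a) (FreeGroup.map (Sum.map (Subtype.val : s → U) (id : K → K)) w) =
      FreeGroup.lift (Sum.elim (fun u : s => y u) a) w := by
  have : (FreeGroup.lift (Sum.elim y a)).comp
      (FreeGroup.map (Sum.map (Subtype.val : s → U) (id : K → K))) =
      FreeGroup.lift (Sum.elim (fun u : s => y u) a) := by
    ext1 x
    rcases x with u | k <;> simp
  exact DFunLike.congr_fun this w

theorem exists_solution_pure {J U K : Type} [Fintype J] (W : J → FreeGroup (U ⊕ K))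
    (hpure : ∀ (p : ℤ) (c : J → ℤ), (∀ u, p ∣ ∑ j, c j * expo (W j) (.inl u)) → ∀ j, p ∣ c j)
    (a : ℝ → K → S3) (ha : ∀ k, Continuous fun t => a t k) (ha0 : ∀ k, a 0 k = 1)
    (Z : Set U) (δ : ℝ) (hδ : 0 < δ)
    (hband : ∀ t ∈ Set.Icc (0 : ℝ) 1, ∀ y : U → S3,
      (∀ j, FreeGroup.lift (Sum.elim y (a t)) (W j) = 1) →
      (∀ z ∈ Z, ‖(y z : ℍ[ℝ]) - 1‖ ≤ δ) → ∀ z ∈ Z, ‖(y z : ℍ[ℝ]) - 1‖ < δ) :
    ∃ y : U → S3, (∀ j, FreeGroup.lift (Sum.elim y (a 1)) (W j) = 1) ∧
      ∀ z ∈ Z, ‖(y z : ℍ[ℝ]) - 1‖ < δ := by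
  classical
  choose s hs using fun j => grPure_supp (W j)
  let U₀ : Finset U := Finset.univ.biUnion s
  choose W' hW' using fun j => hs j U₀ (Finset.subset_biUnion_of_mem s (Finset.mem_univ j))
  obtain ⟨lam, hlam⟩ := grPure_left_inverse (fun j (u : U₀) => Lib.GR.expo (W' j) (.inl u))
    fun p c hc => hpure p c fun u => by
      by_cases hu : u ∈ U₀
      · simpa only [← hW', (grPure_expo U₀ _).1 ⟨u, hu⟩] using hc ⟨u, hu⟩
      · simp only [← hW', (grPure_expo U₀ _).2 u hu, mul_zero, Finset.sum_const_zero, dvd_zero]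
  let ext : (U₀ → S3) → U → S3 := fun y u => if h : u ∈ U₀ then y ⟨u, h⟩ else 1
  have hext : ∀ y, (fun u : U₀ => ext y u) = y := fun y => funext fun u => dif_pos u.2
  have hW : ∀ y (b : K → S3) j, FreeGroup.lift (Sum.elim (ext y) b) (W j) =
      FreeGroup.lift (Sum.elim y b) (W' j) := fun y b j => by rw [← hW', grPure_lift, hext]
  have hout : ∀ y u, u ∉ U₀ → ‖(ext y u : ℍ[ℝ]) - 1‖ < δ := fun y u hu => by
    simpa [ext, hu] using hδ
  have hin : ∀ y (u : U₀), ext y u = y u := fun y u => dif_pos u.2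
  obtain ⟨y, hy, hyZ⟩ := Lib.GR.exists_solution W' lam hlam a ha (funext ha0)
    {u : U₀ | (u : U) ∈ Z} δ hδ fun t ht y hy hyZ z hz => by
      rw [← hin y z]
      refine hband t ht (ext y) (fun j => by rw [hW, hy]) (fun u hu => ?_) z hz
      by_cases h : u ∈ U₀
      · rw [hin y ⟨u, h⟩]
        exact hyZ ⟨u, h⟩ hu
      · exact (hout y u h).le
  refine ⟨ext y, fun j => by rw [hW, hy], fun u hu => ?_⟩
  by_cases h : u ∈ U₀
  · rw [hin y ⟨u, h⟩]
    exact hyZ ⟨u, h⟩ hu
  · exact hout y u h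

end Crest.Agent.R197
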