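import Crest.Agent.R197.Defs

/-! The graph: comparability graph of the face poset of the spine of the Poincaré sphere
(vertices `0-4`: vertices of `K₅`; `5-14`: its edges `01 02 03 04 12 13 14 23 24 34`; `15-20`: the pentagons
`01234, 01342, 01423, 02143, 02314, 03124`). -/

set_option autoImplicit false

open Quaternion

namespace Crest.Agent.R197

open Crest.Agent.Lib.CWComb

/-- the edges of the graph -/
def edges₀ : List (ℕ × ℕ) :=
  [(0, 5), (0, 6), (0, 7), (0, 8), (0, 15), (0, 16), (0, 17), (0, 18), (0, 19), (0, 20), (1, 5),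
   (1, 9), (1, 10), (1, 11), (1, 15), (1, 16), (1, 17), (1, 18), (1, 19), (1, 20), (2, 6), (2, 9),
   (2, 12), (2, 13), (2, 15), (2, 16), (2, 17), (2, 18), (2, 19), (2, 20), (3, 7), (3, 10), (3, 12),
   (3, 14), (3, 15), (3, 16), (3, 17), (3, 18), (3, 19), (3, 20), (4, 8), (4, 11), (4, 13), (4, 14),
   (4, 15), (4, 16), (4, 17), (4, 18), (4, 19), (4, 20), (5, 15), (5, 16), (5, 17), (6, 16), (6, 18),
   (6, 19), (7, 17), (7, 18), (7, 20), (8, 15), (8, 19), (8, 20), (9, 15), (9, 18), (9, 20),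
   (10, 16), (10, 19), (10, 20), (11, 17), (11, 18), (11, 19), (12, 15), (12, 17), (12, 19),
   (13, 16), (13, 17), (13, 20), (14, 15), (14, 16), (14, 18)]

/-- adjacency as a Boolean function -/
def adj₀ (a b : Fin 21) : Bool := edges₀.contains (a.1, b.1) || edges₀.contains (b.1, a.1)

/-- the graph -/
def Γ₀ : SimpleGraph (Fin 21) where
  Adj a b := adj₀ a b = true
  symm := ⟨fun a b h => by simpa [adj₀, or_comm] using h⟩
  loopless := ⟨by decide +kernel⟩

instance : DecidableRel Γ₀.Adj := fun a b => inferInstanceAs (Decidable (adj₀ a b = true))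

theorem tri₀ : ∃ a b c, Γ₀.Adj a b ∧ Γ₀.Adj a c ∧ Γ₀.Adj b c := ⟨0, 5, 15, by decide +kernel⟩

end Crest.Agent.R197
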