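import Crest.Agent.R197.Signs

/-! The chain-level Morse lemma.

Recipe. The cube `c = (g, σ)` has the top corner `g * pw (σ.filter (up g))`, of level
`μ g + #(σ.filter (up g))`. For a vertex `x` let `ι x : (Finset V →₀ ℤ) →ₗ chains` send `σ` to
`(∏ a ∈ σ, if up x a then 1 else -1) • [(x * (pw (σ.filter (up x)))⁻¹, σ)]`. For `σ` in the descending
link of `x` this cube has top corner `x`, every cube of `C` arises this way from its top corner
(by `h3`, `h4`: `σ.filter (up x) = σ.filter (up g)`), and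
`cbd (ι x σ) = ι x (sbd σ) + (cubes of level μ x - 1)`. Induct on the maximal level `M > N` in the
support of `z`: write the level-`M` part as `∑ x, ι x (z_x)`; the level-`M` part of `cbd z` vanishes,
so `sbd z_x = 0`, `z_x = sbd u_x`, and `z - cbd (∑ x, ι x u_x)` has level `< M` and the same boundary
(`cbd_cbd`). -/

set_option autoImplicit false

open Quaternion

namespace Crest.Agent.R197

open Crest.Agent.Lib.CWComb

variable {V : Type} [Fintype V] [LinearOrder V] (Γ : SimpleGraph V)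

section aux

omit [Fintype V] [LinearOrder V] in
theorem morse_ext {α M : Type} [AddCommGroup M] (f g : (α →₀ ℤ) →ₗ[ℤ] M) (z : α →₀ ℤ)
    (h : ∀ c ∈ z.support, f (Finsupp.single c 1) = g (Finsupp.single c 1)) : f z = g z := by
  rw [← Finsupp.sum_single z, Finsupp.sum, map_sum, map_sum]
  refine Finset.sum_congr rfl fun c hc => ?_
  rw [← mul_one (z c), ← smul_eq_mul, ← Finsupp.smul_single, map_smul, map_smul, h c hc]

omit [Fintype V] [LinearOrder V] in
theorem morse_apply {α β : Type} (f : (α →₀ ℤ) →ₗ[ℤ] (β →₀ ℤ)) (z : α →₀ ℤ) (b : β) :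
    f z b = ∑ c ∈ z.support, z c * f (Finsupp.single c 1) b := by
  conv_lhs => rw [← Finsupp.sum_single z, Finsupp.sum, map_sum, Finsupp.finsetSum_apply]
  refine Finset.sum_congr rfl fun c _ => ?_
  rw [← mul_one (z c), ← smul_eq_mul, ← Finsupp.smul_single, map_smul]
  simp

omit [Fintype V] [LinearOrder V] in
theorem morse_supp {α β : Type} (f : (α →₀ ℤ) →ₗ[ℤ] (β →₀ ℤ)) (z : α →₀ ℤ) {b : β}
    (hb : b ∈ (f z).support) : ∃ c ∈ z.support, b ∈ (f (Finsupp.single c 1)).support := by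
  by_contra h
  push Not at h
  rw [Finsupp.mem_support_iff, morse_apply] at hb
  refine hb (Finset.sum_eq_zero fun c hc => ?_)
  rw [Finsupp.notMem_support_iff.1 (h c hc), mul_zero]

variable {Γ} (μ : Raag Γ → ℤ) (up : Raag Γ → V → Prop) [∀ g, DecidablePred (up g)]

/-- top corner -/
noncomputable def mTop (c : Raag Γ × Finset V) : Raag Γ := c.1 * pw Γ (c.2.filter (up c.1))
/-- level -/
def mLev (c : Raag Γ × Finset V) : ℤ := μ c.1 + (c.2.filter (up c.1)).card
/-- orientation sign -/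
def mEps (x : Raag Γ) (σ : Finset V) : ℤ := ∏ a ∈ σ, if up x a then 1 else -1

open Classical in
/-- the part of a chain with top corner `x` -/
noncomputable def mPr (x : Raag Γ) : (Raag Γ × Finset V →₀ ℤ) →ₗ[ℤ] (Finset V →₀ ℤ) :=
  Finsupp.linearCombination ℤ fun c =>
    if mTop up c = x then mEps up x c.2 • Finsupp.single c.2 (1 : ℤ) else 0

noncomputable def mInc (x : Raag Γ) : (Finset V →₀ ℤ) →ₗ[ℤ] (Raag Γ × Finset V →₀ ℤ) :=
  Finsupp.linearCombination ℤ fun σ =>
    mEps up x σ • Finsupp.single (x * (pw Γ (σ.filter (up x)))⁻¹, σ) (1 : ℤ)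

omit [Fintype V] [LinearOrder V] in
theorem mEps_mul_self (x : Raag Γ) (σ : Finset V) : mEps up x σ * mEps up x σ = 1 := by
  unfold mEps
  rw [← Finset.prod_mul_distrib]
  exact Finset.prod_eq_one fun a _ => by split_ifs <;> norm_num

omit [Fintype V] in
theorem mEps_erase (x : Raag Γ) {σ : Finset V} {a : V} (ha : a ∈ σ) :
    mEps up x σ = mEps up x (σ.erase a) * if up x a then 1 else -1 :=
  (Finset.prod_erase_mul _ _ ha).symm

variable {μ up}

omit [Fintype V] [∀ g, DecidablePred (up g)] in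
theorem up_mul_pw (h3 : ∀ g a b, Γ.Adj a b → (up (g * gen Γ b) a ↔ up g a)) (g : Raag Γ) (a : V)
    (τ : Finset V) (hτ : Γ.IsClique (τ : Set V)) (ha : ∀ b ∈ τ, Γ.Adj a b) :
    up (g * pw Γ τ) a ↔ up g a := by
  induction τ using Finset.induction_on with
  | empty => simp
  | insert b τ hb ih =>
    rw [pw_insert' hb hτ, ← mul_assoc, h3 _ _ _ (ha b (by simp)),
      ih (hτ.subset (by simp)) fun c hc => ha c (by simp [hc])]

omit [Fintype V] [∀ g, DecidablePred (up g)] in
theorem mu_mul_pw (h1 : ∀ g a, up g a → μ (g * gen Γ a) = μ g + 1)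
    (h3 : ∀ g a b, Γ.Adj a b → (up (g * gen Γ b) a ↔ up g a)) (g : Raag Γ)
    (τ : Finset V) (hτ : Γ.IsClique (τ : Set V)) (ha : ∀ b ∈ τ, up g b) :
    μ (g * pw Γ τ) = μ g + τ.card := by
  induction τ using Finset.induction_on with
  | empty => simp
  | insert b τ hb ih =>
    have hτ' : Γ.IsClique (τ : Set V) := hτ.subset (by simp)
    rw [pw_insert' hb hτ, ← mul_assoc, h1, ih hτ' fun c hc => ha c (by simp [hc]),
      Finset.card_insert_of_notMem hb]
    · push_cast; ring
    · rw [up_mul_pw h3 g b τ hτ' fun c hc => hτ (by simp) (by simp [hc]) (by rintro rfl; exact hb hc)]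
      exact ha b (by simp)

omit [Fintype V] [∀ g, DecidablePred (up g)] in
/-- moving along a sub-face `τ ⊆ σ` not containing `a ∈ σ` -/
theorem up_sub (h3 : ∀ g a b, Γ.Adj a b → (up (g * gen Γ b) a ↔ up g a)) (g : Raag Γ)
    {σ τ : Finset V} (hσ : Γ.IsClique (σ : Set V)) (hτ : τ ⊆ σ) {a : V} (ha : a ∈ σ) (ha' : a ∉ τ) :
    up (g * pw Γ τ) a ↔ up g a :=
  up_mul_pw h3 g a τ (hσ.subset (by exact_mod_cast hτ)) fun b hb =>
    hσ (by simpa using ha) (by simpa using hτ hb) (by rintro rfl; exact ha' hb)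

omit [Fintype V] in
theorem mu_mTop (h1 : ∀ g a, up g a → μ (g * gen Γ a) = μ g + 1)
    (h3 : ∀ g a b, Γ.Adj a b → (up (g * gen Γ b) a ↔ up g a)) {c : Raag Γ × Finset V}
    (hc : Γ.IsClique (c.2 : Set V)) : μ (mTop up c) = mLev μ up c :=
  mu_mul_pw h1 h3 _ _ (hc.subset (Finset.coe_subset.2 (Finset.filter_subset _ _))) fun _ hb => (Finset.mem_filter.1 hb).2

omit [Fintype V] [∀ g, DecidablePred (up g)] in
theorem mul_pw_erase (g : Raag Γ) {σ τ : Finset V} (hσ : Γ.IsClique (σ : Set V)) (hτ : τ ⊆ σ)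
    {a : V} (ha : a ∈ τ) : g * pw Γ τ * (gen Γ a)⁻¹ = g * pw Γ (τ.erase a) := by
  rw [pw_erase ha (hσ.subset (by exact_mod_cast hτ))]
  group

omit [Fintype V] in
theorem up_mTop (h3 : ∀ g a b, Γ.Adj a b → (up (g * gen Γ b) a ↔ up g a))
    (h4 : ∀ x a, up (x * (gen Γ a)⁻¹) a → up x a) {c : Raag Γ × Finset V}
    (hc : Γ.IsClique (c.2 : Set V)) {a : V} (ha : a ∈ c.2) :
    (up (mTop up c) a ↔ up c.1 a) ∧ (up c.1 a → up (mTop up c * (gen Γ a)⁻¹) a) := by
  have key : up c.1 a → up (mTop up c * (gen Γ a)⁻¹) a := fun h => by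
    unfold mTop
    rw [mul_pw_erase _ hc (Finset.filter_subset _ _) (Finset.mem_filter.2 ⟨ha, h⟩),
      up_sub h3 _ hc ((Finset.erase_subset _ _).trans (Finset.filter_subset _ _)) ha (by simp)]
    exact h
  refine ⟨?_, key⟩
  by_cases h : up c.1 a
  · exact iff_of_true (h4 _ _ (key h)) h
  · exact up_sub h3 _ hc (Finset.filter_subset _ _) ha (by simp [h])

omit [Fintype V] in
theorem base_mTop (h3 : ∀ g a b, Γ.Adj a b → (up (g * gen Γ b) a ↔ up g a))
    (h4 : ∀ x a, up (x * (gen Γ a)⁻¹) a → up x a) {c : Raag Γ × Finset V}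
    (hc : Γ.IsClique (c.2 : Set V)) :
    mTop up c * (pw Γ (c.2.filter (up (mTop up c))))⁻¹ = c.1 := by
  rw [Finset.filter_congr fun a ha => (up_mTop h3 h4 hc ha).1]
  simp [mTop]

omit [Fintype V] in
theorem mTop_base (h3 : ∀ g a b, Γ.Adj a b → (up (g * gen Γ b) a ↔ up g a)) {x : Raag Γ}
    {σ : Finset V} (hσ : Γ.IsClique (σ : Set V))
    (h : ∀ a ∈ σ, up x a → up (x * (gen Γ a)⁻¹) a) :
    mTop up (x * (pw Γ (σ.filter (up x)))⁻¹, σ) = x := by
  set g := x * (pw Γ (σ.filter (up x)))⁻¹ with hg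
  have hx : x = g * pw Γ (σ.filter (up x)) := by simp [hg]
  have : σ.filter (up g) = σ.filter (up x) := Finset.filter_congr fun a ha => by
    by_cases hu : up x a
    · have := h a ha hu
      rw [hx, mul_pw_erase _ hσ (Finset.filter_subset _ _) (Finset.mem_filter.2 ⟨ha, hu⟩),
        up_sub h3 _ hσ ((Finset.erase_subset _ _).trans (Finset.filter_subset _ _)) ha
          (by simp)] at this
      exact iff_of_true this hu
    · rw [← up_sub h3 g hσ (Finset.filter_subset (up x) σ) ha (by simp [hu]), ← hx]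
  unfold mTop
  rw [this, ← hx]

omit [Fintype V] in
/-- the two faces in direction `a`: one keeps the top corner, the other drops one level -/
theorem faces (h1 : ∀ g a, up g a → μ (g * gen Γ a) = μ g + 1)
    (h2 : ∀ g a, ¬ up g a → μ (g * gen Γ a) = μ g - 1)
    (h3 : ∀ g a b, Γ.Adj a b → (up (g * gen Γ b) a ↔ up g a)) {c : Raag Γ × Finset V}
    (hc : Γ.IsClique (c.2 : Set V)) {a : V} (ha : a ∈ c.2) :
    (up c.1 a → mTop up (c.1 * gen Γ a, c.2.erase a) = mTop up c ∧
      mLev μ up (c.1, c.2.erase a) = mLev μ up c - 1) ∧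
    (¬ up c.1 a → mTop up (c.1, c.2.erase a) = mTop up c ∧
      mLev μ up (c.1 * gen Γ a, c.2.erase a) = mLev μ up c - 1) := by
  have e1 : (c.2.erase a).filter (up (c.1 * gen Γ a)) = (c.2.filter (up c.1)).erase a := by
    rw [← Finset.filter_erase]
    refine Finset.filter_congr fun b hb => h3 _ _ _ ?_
    exact hc (by simpa using Finset.mem_of_mem_erase hb) (by simpa using ha)
      (Finset.ne_of_mem_erase hb)
  have e2 : (c.2.erase a).filter (up c.1) = (c.2.filter (up c.1)).erase a := Finset.filter_erase _ _ _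
  refine ⟨fun h => ⟨?_, ?_⟩, fun h => ⟨?_, ?_⟩⟩
  · have hm : a ∈ c.2.filter (up c.1) := Finset.mem_filter.2 ⟨ha, h⟩
    have hcl : Γ.IsClique ((c.2.filter (up c.1) : Finset V) : Set V) :=
      hc.subset (Finset.coe_subset.2 (Finset.filter_subset _ _))
    simp only [mTop, e1]
    conv_rhs => rw [← Finset.insert_erase hm,
      pw_insert (Finset.notMem_erase _ _) (by rwa [Finset.insert_erase hm])]
    rw [mul_assoc]
  · have hm : a ∈ c.2.filter (up c.1) := Finset.mem_filter.2 ⟨ha, h⟩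
    simp only [mLev, e2]
    rw [← Finset.card_erase_add_one hm]
    push_cast; ring
  · simp only [mTop, e2]
    rw [Finset.erase_eq_of_notMem (by simp [h])]
  · simp only [mLev, e1]
    rw [Finset.erase_eq_of_notMem (by simp [h]), h2 _ _ h]
    ring

omit [Fintype V] in
theorem cbd_single (c : Raag Γ × Finset V) : cbd Γ (Finsupp.single c 1) = ∑ a ∈ c.2, sgn a c.2 •
    (Finsupp.single (c.1 * gen Γ a, c.2.erase a) (1 : ℤ) - Finsupp.single (c.1, c.2.erase a) 1) := by
  simp [cbd]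

open Classical in
omit [Fintype V] in
theorem mPr_single (x : Raag Γ) (c : Raag Γ × Finset V) : mPr up x (Finsupp.single c 1) =
    if mTop up c = x then mEps up x c.2 • Finsupp.single c.2 (1 : ℤ) else 0 := by
  simp only [mPr, Finsupp.linearCombination_single, one_smul]

omit [Fintype V] in
theorem mPr_cbd_single (h1 : ∀ g a, up g a → μ (g * gen Γ a) = μ g + 1)
    (h2 : ∀ g a, ¬ up g a → μ (g * gen Γ a) = μ g - 1)
    (h3 : ∀ g a b, Γ.Adj a b → (up (g * gen Γ b) a ↔ up g a))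
    (h4 : ∀ x a, up (x * (gen Γ a)⁻¹) a → up x a) {c : Raag Γ × Finset V}
    (hc : Γ.IsClique (c.2 : Set V)) {x : Raag Γ} (hx : mLev μ up c ≤ μ x) :
    mPr up x (cbd Γ (Finsupp.single c 1)) = sbd (mPr up x (Finsupp.single c 1)) := by
  have hcl : ∀ (a : V) (g : Raag Γ), Γ.IsClique (((g, c.2.erase a).2 : Finset V) : Set V) :=
    fun a g => hc.subset (by simp)
  have low : ∀ (a : V) (g : Raag Γ), mLev μ up (g, c.2.erase a) = mLev μ up c - 1 →
      mTop up (g, c.2.erase a) ≠ x := fun a g h e => by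
    have := mu_mTop h1 h3 (hcl a g)
    rw [e, h] at this
    omega
  rw [cbd_single, map_sum, mPr_single]
  by_cases ht : mTop up c = x
  · rw [if_pos ht, map_smul, sbd, Finsupp.linearCombination_single, one_smul, Finset.smul_sum]
    refine Finset.sum_congr rfl fun a ha => ?_
    obtain ⟨f1, f2⟩ := faces h1 h2 h3 hc ha
    have hu := (up_mTop h3 h4 hc ha).1
    rw [ht] at hu f1 f2
    rw [map_smul, map_sub, mPr_single, mPr_single, mEps_erase up x ha]
    by_cases h : up c.1 a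
    · rw [if_pos (f1 h).1, if_neg (low _ _ (f1 h).2), if_pos (hu.2 h), mul_one, sub_zero, smul_comm]
    · rw [if_neg (low _ _ (f2 h).2), if_pos (f2 h).1, if_neg (mt hu.1 h), zero_sub, smul_comm,
        mul_neg_one, neg_smul, smul_neg, smul_comm]
  · rw [if_neg ht, map_zero]
    refine Finset.sum_eq_zero fun a ha => ?_
    obtain ⟨f1, f2⟩ := faces h1 h2 h3 hc ha
    rw [map_smul, map_sub, mPr_single, mPr_single]
    by_cases h : up c.1 a
    · rw [if_neg (by rwa [(f1 h).1]), if_neg (low _ _ (f1 h).2), sub_zero, smul_zero]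
    · rw [if_neg (low _ _ (f2 h).2), if_neg (by rwa [(f2 h).1]), sub_zero, smul_zero]

omit [Fintype V] in
theorem supp_cbd_single (h1 : ∀ g a, up g a → μ (g * gen Γ a) = μ g + 1)
    (h2 : ∀ g a, ¬ up g a → μ (g * gen Γ a) = μ g - 1)
    (h3 : ∀ g a b, Γ.Adj a b → (up (g * gen Γ b) a ↔ up g a)) {c d : Raag Γ × Finset V}
    (hc : Γ.IsClique (c.2 : Set V)) (hd : d ∈ (cbd Γ (Finsupp.single c 1)).support) :
    mTop up d = mTop up c ∨ mLev μ up d = mLev μ up c - 1 := by
  classical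
  rw [cbd_single] at hd
  obtain ⟨a, ha, hd⟩ := Finset.mem_biUnion.1 (Finsupp.support_finsetSum hd)
  obtain ⟨f1, f2⟩ := faces h1 h2 h3 hc ha
  rcases Finset.mem_union.1 (Finsupp.support_sub (Finsupp.support_smul hd)) with hd | hd
  · rw [Finset.mem_singleton.1 (Finsupp.support_single_subset hd)]
    by_cases h : up c.1 a
    · exact Or.inl (f1 h).1
    · exact Or.inr (f2 h).2
  · rw [Finset.mem_singleton.1 (Finsupp.support_single_subset hd)]
    by_cases h : up c.1 a
    · exact Or.inr (f1 h).2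
    · exact Or.inl (f2 h).1

omit [Fintype V] in
theorem morse_step {C : Set (Raag Γ × Finset V)} (hC : CubeSet Γ C)
    (h1 : ∀ g a, up g a → μ (g * gen Γ a) = μ g + 1)
    (h2 : ∀ g a, ¬ up g a → μ (g * gen Γ a) = μ g - 1)
    (h3 : ∀ g a b, Γ.Adj a b → (up (g * gen Γ b) a ↔ up g a))
    (h4 : ∀ x a, up (x * (gen Γ a)⁻¹) a → up x a) {x : Raag Γ}
    (hlink : Acyc {σ : Finset V | (∀ a ∈ σ, up x a → up (x * (gen Γ a)⁻¹) a) ∧
      (x * (pw Γ (σ.filter (up x)))⁻¹, σ) ∈ C})
    (z : Raag Γ × Finset V →₀ ℤ) (hz : ∀ c ∈ z.support, c ∈ C ∧ mLev μ up c ≤ μ x)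
    (hdz : ∀ c ∈ (cbd Γ z).support, mLev μ up c < μ x) :
    ∃ u : Raag Γ × Finset V →₀ ℤ, (∀ c ∈ u.support, c ∈ C) ∧
      ∀ c ∈ (z - cbd Γ u).support, mTop up c ≠ x ∧ (c ∈ z.support ∨ mLev μ up c < μ x) := by
  classical
  have comm : ∀ w : Raag Γ × Finset V →₀ ℤ, (∀ c ∈ w.support, c ∈ C ∧ mLev μ up c ≤ μ x) →
      mPr up x (cbd Γ w) = sbd (mPr up x w) := fun w hw =>
    morse_ext ((mPr up x).comp (cbd Γ)) (sbd.comp (mPr up x)) w fun c hc =>
      mPr_cbd_single h1 h2 h3 h4 (hC.clique c (hw c hc).1) (hw c hc).2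
  have h0 : sbd (mPr up x z) = 0 := by
    rw [← comm z hz]
    refine morse_ext (mPr up x) 0 _ fun c hc => ?_
    rw [mPr_single, if_neg, LinearMap.zero_apply]
    intro e
    have := mu_mTop h1 h3 (hC.clique c (hC.cbd_support Γ z (fun c hc => (hz c hc).1) c hc))
    have := hdz c hc
    rw [e] at *
    omega
  obtain ⟨v, hv, hv'⟩ := hlink (mPr up x z) (fun σ hσ => by
    obtain ⟨c, hc, hσ⟩ := morse_supp _ _ hσ
    rw [mPr_single] at hσ
    split_ifs at hσ with ht
    · rw [Finset.mem_singleton.1 (Finsupp.support_single_subset (Finsupp.support_smul hσ)), ← ht]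
      have hcl := hC.clique c (hz c hc).1
      refine ⟨fun a ha hu => (up_mTop h3 h4 hcl ha).2 ((up_mTop h3 h4 hcl ha).1.1 hu), ?_⟩
      rw [base_mTop h3 h4 hcl]
      exact (hz c hc).1
    · simp at hσ) h0
  have htop : ∀ σ ∈ v.support, mTop up (x * (pw Γ (σ.filter (up x)))⁻¹, σ) = x := fun σ hσ =>
    mTop_base h3 (hC.clique _ (hv σ hσ).2) (hv σ hσ).1
  have hu : ∀ c ∈ (mInc up x v).support, c ∈ C ∧ mTop up c = x := fun c hc => by
    obtain ⟨σ, hσ, hc⟩ := morse_supp _ _ hc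
    simp only [mInc, Finsupp.linearCombination_single, one_smul] at hc
    rw [Finset.mem_singleton.1 (Finsupp.support_single_subset (Finsupp.support_smul hc))]
    exact ⟨(hv σ hσ).2, htop σ hσ⟩
  have hlev : ∀ c ∈ (mInc up x v).support, mLev μ up c = μ x := fun c hc => by
    rw [← mu_mTop h1 h3 (hC.clique c (hu c hc).1), (hu c hc).2]
  have hpi : mPr up x (mInc up x v) = v :=
    morse_ext ((mPr up x).comp (mInc up x)) LinearMap.id v fun σ hσ => by
      simp only [mInc, LinearMap.comp_apply, Finsupp.linearCombination_single, map_smul,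
        mPr_single, if_pos (htop σ hσ), smul_smul, LinearMap.id_apply]
      rw [one_mul, mEps_mul_self, one_smul]
  have hzero : mPr up x (z - cbd Γ (mInc up x v)) = 0 := by
    rw [map_sub, comm _ fun c hc => ⟨(hu c hc).1, (hlev c hc).le⟩, hpi, hv', sub_self]
  have hsC : ∀ c ∈ (z - cbd Γ (mInc up x v)).support, c ∈ C := fun c hc => by
    rcases Finset.mem_union.1 (Finsupp.support_sub hc) with hc | hc
    · exact (hz c hc).1
    · exact hC.cbd_support Γ _ (fun c hc => (hu c hc).1) c hc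
  refine ⟨mInc up x v, fun c hc => (hu c hc).1, fun c hc => ?_⟩
  have hne : mTop up c ≠ x := fun e => by
    have := morse_apply (mPr up x) (z - cbd Γ (mInc up x v)) c.2
    rw [hzero, Finset.sum_eq_single c, mPr_single, if_pos e] at this
    · simp only [Finsupp.coe_zero, Pi.zero_apply, Finsupp.smul_single, smul_eq_mul, mul_one,
        Finsupp.single_eq_same] at this
      have h5 := mEps_mul_self up x c.2
      rcases mul_eq_zero.1 this.symm with h6 | h6
      · exact Finsupp.mem_support_iff.1 hc h6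
      · rw [h6] at h5; simp at h5
    · intro d hd hdc
      rw [mPr_single]
      split_ifs with ht
      · rw [Finsupp.smul_apply, Finsupp.single_eq_of_ne, smul_zero, mul_zero]
        intro e2
        refine hdc (Prod.ext ?_ e2.symm)
        rw [← base_mTop h3 h4 (hC.clique d (hsC d hd)), ← base_mTop h3 h4 (hC.clique c (hsC c hc)),
          ht, e, e2]
      · simp
    · exact fun h => absurd hc h
  refine ⟨hne, ?_⟩
  rcases Finset.mem_union.1 (Finsupp.support_sub hc) with hc | hc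
  · exact Or.inl hc
  · obtain ⟨d, hd, hc⟩ := morse_supp _ _ hc
    rcases supp_cbd_single h1 h2 h3 (hC.clique d (hu d hd).1) hc with h5 | h5
    · exact absurd (h5.trans (hu d hd).2) hne
    · right; rw [h5, hlev d hd]; omega

omit [Fintype V] in
theorem morse_level {C : Set (Raag Γ × Finset V)} (hC : CubeSet Γ C)
    (h1 : ∀ g a, up g a → μ (g * gen Γ a) = μ g + 1)
    (h2 : ∀ g a, ¬ up g a → μ (g * gen Γ a) = μ g - 1)
    (h3 : ∀ g a b, Γ.Adj a b → (up (g * gen Γ b) a ↔ up g a))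
    (h4 : ∀ x a, up (x * (gen Γ a)⁻¹) a → up x a) {M : ℤ}
    (hlink : ∀ x, μ x = M → Acyc {σ : Finset V | (∀ a ∈ σ, up x a → up (x * (gen Γ a)⁻¹) a) ∧
      (x * (pw Γ (σ.filter (up x)))⁻¹, σ) ∈ C}) (T : Finset (Raag Γ)) :
    ∀ z : Raag Γ × Finset V →₀ ℤ,
      (∀ c ∈ z.support, c ∈ C ∧ (mLev μ up c < M ∨ (mLev μ up c = M ∧ mTop up c ∈ T))) →
      (∀ c ∈ (cbd Γ z).support, mLev μ up c < M) →
      ∃ u : Raag Γ × Finset V →₀ ℤ, (∀ c ∈ u.support, c ∈ C) ∧
        ∀ c ∈ (z - cbd Γ u).support, mLev μ up c < M := by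
  classical
  induction T using Finset.induction_on with
  | empty =>
    exact fun z hz _ => ⟨0, by simp, fun c hc => by
      simpa using (hz c (by simpa using hc)).2⟩
  | insert x T _ ih =>
    intro z hz hdz
    by_cases hx : μ x = M
    · obtain ⟨u, hu, hu'⟩ := morse_step hC h1 h2 h3 h4 (hlink x hx) z
        (fun c hc => ⟨(hz c hc).1, by have := (hz c hc).2; omega⟩) (hx ▸ hdz)
      obtain ⟨u', hv, hv'⟩ := ih (z - cbd Γ u) (fun c hc => by
        refine ⟨?_, ?_⟩
        · rcases Finset.mem_union.1 (Finsupp.support_sub hc) with hc | hc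
          · exact (hz c hc).1
          · exact hC.cbd_support Γ _ hu c hc
        · obtain ⟨h5, h6 | h6⟩ := hu' c hc
          · refine (hz c h6).2.imp id fun h7 => ⟨h7.1, ?_⟩
            exact (Finset.mem_insert.1 h7.2).resolve_left h5
          · exact Or.inl (hx ▸ h6))
        (by rwa [map_sub, cbd_cbd Γ u fun c hc => hC.clique c (hu c hc), sub_zero])
      refine ⟨u + u', fun c hc => ?_, by rwa [map_add, ← sub_sub]⟩
      rcases Finset.mem_union.1 (Finsupp.support_add hc) with hc | hc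
      · exact hu c hc
      · exact hv c hc
    · refine ih z (fun c hc => ⟨(hz c hc).1, (hz c hc).2.imp id fun h7 => ⟨h7.1, ?_⟩⟩) hdz
      refine (Finset.mem_insert.1 h7.2).resolve_left fun e => hx ?_
      rw [← e, mu_mTop h1 h3 (hC.clique c (hz c hc).1), h7.1]

end aux

theorem morse {C : Set (Raag Γ × Finset V)} (hC : CubeSet Γ C) (μ : Raag Γ → ℤ)
    (up : Raag Γ → V → Prop) [∀ g, DecidablePred (up g)]
    (h1 : ∀ g a, up g a → μ (g * gen Γ a) = μ g + 1)
    (h2 : ∀ g a, ¬ up g a → μ (g * gen Γ a) = μ g - 1)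
    (h3 : ∀ g a b, Γ.Adj a b → (up (g * gen Γ b) a ↔ up g a))
    (h4 : ∀ x a, up (x * (gen Γ a)⁻¹) a → up x a) (N : ℤ)
    (hlink : ∀ x, N < μ x → Acyc {σ : Finset V | (∀ a ∈ σ, up x a → up (x * (gen Γ a)⁻¹) a) ∧
      (x * (pw Γ (σ.filter (up x)))⁻¹, σ) ∈ C})
    (z : Raag Γ × Finset V →₀ ℤ) (hz : ∀ c ∈ z.support, c ∈ C)
    (hdz : ∀ c ∈ (cbd Γ z).support, μ c.1 + (c.2.filter (up c.1)).card ≤ N) :
    ∃ u : Raag Γ × Finset V →₀ ℤ, (∀ c ∈ u.support, c ∈ C) ∧
      ∀ c ∈ (z - cbd Γ u).support, c ∈ C ∧ μ c.1 + (c.2.filter (up c.1)).card ≤ N := by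
  classical
  have key : ∀ k : ℕ, ∀ z : Raag Γ × Finset V →₀ ℤ,
      (∀ c ∈ z.support, c ∈ C ∧ mLev μ up c ≤ N + k) →
      (∀ c ∈ (cbd Γ z).support, mLev μ up c ≤ N) →
      ∃ u : Raag Γ × Finset V →₀ ℤ, (∀ c ∈ u.support, c ∈ C) ∧
        ∀ c ∈ (z - cbd Γ u).support, c ∈ C ∧ mLev μ up c ≤ N := by
    intro k
    induction k with
    | zero => exact fun z hz _ => ⟨0, by simp, fun c hc => by simpa using hz c (by simpa using hc)⟩
    | succ k ih =>
      intro z hz hdz
      obtain ⟨u, hu, hu'⟩ := morse_level hC h1 h2 h3 h4 (M := N + (k + 1 : ℕ))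
        (fun x hx => hlink x (by omega)) (z.support.image (mTop up)) z
        (fun c hc => ⟨(hz c hc).1, (hz c hc).2.lt_or_eq.imp id
          fun h => ⟨h, Finset.mem_image_of_mem _ hc⟩⟩)
        (fun c hc => by have := hdz c hc; omega)
      obtain ⟨u', hv, hv'⟩ := ih (z - cbd Γ u) (fun c hc => by
        refine ⟨?_, by have := hu' c hc; push_cast at this; omega⟩
        rcases Finset.mem_union.1 (Finsupp.support_sub hc) with hc | hc
        · exact (hz c hc).1
        · exact hC.cbd_support Γ _ hu c hc)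
        (by rwa [map_sub, cbd_cbd Γ u fun c hc => hC.clique c (hu c hc), sub_zero])
      refine ⟨u + u', fun c hc => ?_, by rwa [map_add, ← sub_sub]⟩
      rcases Finset.mem_union.1 (Finsupp.support_add hc) with hc | hc
      · exact hu c hc
      · exact hv c hc
  obtain ⟨k, hk⟩ : ∃ k : ℕ, ∀ c ∈ z.support, mLev μ up c ≤ N + k := by
    refine ⟨z.support.sup fun c => (mLev μ up c - N).toNat, fun c hc => ?_⟩
    have := Finset.le_sup (f := fun c => (mLev μ up c - N).toNat) hc
    omega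
  exact key k z (fun c hc => ⟨hz c hc, hk c hc⟩) hdz

end Crest.Agent.R197
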