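import Crest.Agent.R197.Defs

/-! Products of commuting generators. -/

set_option autoImplicit false

namespace Crest.Agent.R197

variable {V : Type} [LinearOrder V] {Γ : SimpleGraph V}

theorem gen_comm_of_clique {s : Set V} (hs : Γ.IsClique s) {a b : V} (ha : a ∈ s) (hb : b ∈ s) :
    Commute (gen Γ a) (gen Γ b) := by
  by_cases h : a = b
  · rw [h]
  · exact gen_comm Γ (hs ha hb h)

@[simp] theorem pw_empty : pw Γ (∅ : Finset V) = 1 := by simp [pw]

@[simp] theorem pw_singleton (a : V) : pw Γ {a} = gen Γ a := by simp [pw]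

theorem pw_eq_noncommProd (σ : Finset V) (h : Γ.IsClique (σ : Set V)) :
    pw Γ σ = σ.noncommProd (gen Γ) fun _ ha _ hb _ => gen_comm_of_clique h ha hb := by
  have e : ((σ.sort (· ≤ ·) : List V) : Multiset V) = σ.1 := Finset.sort_eq _ _
  unfold pw Finset.noncommProd
  rw [← Multiset.noncommProd_coe _ (by
    intro x hx y hy _
    simp only [Multiset.mem_coe, List.mem_map, Finset.mem_sort, Set.mem_ofPred_eq] at hx hy
    obtain ⟨a, ha, rfl⟩ := hx
    obtain ⟨b, hb, rfl⟩ := hy
    exact gen_comm_of_clique h ha hb)]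
  congr 1
  rw [← e]
  rfl

theorem commute_gen_pw {s : Set V} (hs : Γ.IsClique s) {a : V} (ha : a ∈ s) {σ : Finset V}
    (hσ : (σ : Set V) ⊆ s) : Commute (gen Γ a) (pw Γ σ) := by
  rw [pw_eq_noncommProd σ (hs.subset hσ)]
  exact Finset.noncommProd_commute _ _ _ _ fun b hb => gen_comm_of_clique hs ha (hσ hb)

theorem pw_insert {σ : Finset V} {a : V} (ha : a ∉ σ)
    (h : Γ.IsClique ((insert a σ : Finset V) : Set V)) : pw Γ (insert a σ) = gen Γ a * pw Γ σ := by
  have h' : Γ.IsClique (σ : Set V) := h.subset (by simp)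
  rw [pw_eq_noncommProd _ h, pw_eq_noncommProd _ h', Finset.noncommProd_insert_of_notMem _ _ _ _ ha]

theorem pw_insert' {σ : Finset V} {a : V} (ha : a ∉ σ)
    (h : Γ.IsClique ((insert a σ : Finset V) : Set V)) : pw Γ (insert a σ) = pw Γ σ * gen Γ a := by
  rw [pw_insert ha h]
  exact (commute_gen_pw h (by simp) (by simp)).eq

theorem pw_erase {σ : Finset V} {a : V} (ha : a ∈ σ) (h : Γ.IsClique (σ : Set V)) :
    pw Γ σ = pw Γ (σ.erase a) * gen Γ a := by
  have := pw_insert' (Γ := Γ) (Finset.notMem_erase a σ) (by rwa [Finset.insert_erase ha])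
  rwa [Finset.insert_erase ha] at this

theorem pw_union {σ τ : Finset V} (hd : Disjoint σ τ)
    (h : Γ.IsClique ((σ ∪ τ : Finset V) : Set V)) : pw Γ (σ ∪ τ) = pw Γ σ * pw Γ τ := by
  induction σ using Finset.induction_on with
  | empty => simp
  | insert a σ ha ih =>
    have hd' : Disjoint σ τ := hd.mono_left (Finset.subset_insert _ _)
    have haτ : a ∉ τ := Finset.disjoint_left.1 hd (Finset.mem_insert_self _ _)
    rw [Finset.insert_union] at h ⊢
    rw [pw_insert (by simp [ha, haτ]) h, ih hd' (h.subset (by simp)),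
      pw_insert ha (h.subset (by intro x; simp; tauto)), mul_assoc]

@[simp] theorem ht_pw (σ : Finset V) : ht Γ (pw Γ σ) = σ.card := by
  have : ∀ l : List V, ht Γ (l.map (gen Γ)).prod = l.length := by
    intro l
    induction l with
    | nil => simp
    | cons a l ih => simp [ih, add_comm]
  rw [pw, this, Finset.length_sort]

theorem ab_pw (σ : Finset V) (b : V) : ab Γ (pw Γ σ) b = if b ∈ σ then 1 else 0 := by
  have : ∀ l : List V, ab Γ (l.map (gen Γ)).prod b = l.count b := by
    intro l
    induction l with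
    | nil => simp
    | cons a l ih =>
      by_cases h : a = b
      · subst h; simp [ih, add_comm]
      · simp [ih, h, Ne.symm h]
  rw [pw, this]
  split_ifs with h
  · rw [List.count_eq_one_of_mem (Finset.sort_nodup _ _) (by simpa using h)]; rfl
  · rw [List.count_eq_zero_of_not_mem (by simpa using h)]; rfl

variable [Fintype V]

theorem mono_eq_noncommProd (m : V → ℕ) (h : Γ.IsClique {a | m a ≠ 0}) :
    ∃ hc, mono Γ m = (Finset.univ : Finset V).noncommProd (fun a => gen Γ a ^ m a) hc := by
  have hc : ∀ a b : V, Commute (gen Γ a ^ m a) (gen Γ b ^ m b) := by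
    intro a b
    by_cases ha : m a = 0
    · simp [ha]
    by_cases hb : m b = 0
    · simp [hb]
    exact (gen_comm_of_clique h ha hb).pow_pow _ _
  refine ⟨fun a _ b _ _ => hc a b, ?_⟩
  have e : (((Finset.univ : Finset V).sort (· ≤ ·) : List V) : Multiset V) = Finset.univ.1 :=
    Finset.sort_eq _ _
  unfold mono Finset.noncommProd
  rw [← Multiset.noncommProd_coe _ (by
    intro x hx y hy _
    simp only [Multiset.mem_coe, List.mem_map, Set.mem_ofPred_eq] at hx hy
    obtain ⟨a, -, rfl⟩ := hx
    obtain ⟨b, -, rfl⟩ := hy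
    exact hc a b)]
  congr 1
  rw [← e]
  rfl

@[simp] theorem mono_zero : mono Γ (0 : V → ℕ) = 1 := by simp [mono]

theorem ab_mono (m : V → ℕ) (b : V) : ab Γ (mono Γ m) b = m b := by
  have hp : ∀ (a : V) (n : ℕ), ab Γ (gen Γ a ^ n) b = if a = b then (n : ℤ) else 0 := by
    intro a n
    induction n with
    | zero => simp
    | succ n ih =>
      rw [pow_succ, ab_mul, Pi.add_apply, ih, ab_gen, Pi.single_apply]
      by_cases h : a = b
      · simp [h]
      · simp [h, Ne.symm h]
  have : ∀ l : List V, ab Γ (l.map fun a => gen Γ a ^ m a).prod b = l.count b * m b := by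
    intro l
    induction l with
    | nil => simp
    | cons a l ih =>
      by_cases h : a = b
      · subst h; simp [ih, hp]; ring
      · simp [ih, h, hp]
  rw [mono, this, List.count_eq_one_of_mem (Finset.sort_nodup _ _) (by simp)]
  simp

theorem mono_injective : Function.Injective (mono Γ : (V → ℕ) → Raag Γ) := by
  intro m m' h
  funext b
  have := ab_mono (Γ := Γ) m b
  rw [h, ab_mono] at this
  exact_mod_cast this.symm

theorem ht_mono (m : V → ℕ) : ht Γ (mono Γ m) = ∑ a, (m a : ℤ) := by
  have : ∀ l : List V, ht Γ (l.map fun a => gen Γ a ^ m a).prod = (l.map fun a => (m a : ℤ)).sum := by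
    intro l
    induction l with
    | nil => simp
    | cons a l ih => simp [ih]
  rw [mono, this, ← Multiset.sum_coe, ← Multiset.map_coe, Finset.sort_eq]
  rfl

theorem mono_add_single (m : V → ℕ) (a : V) (h : Γ.IsClique ({b | m b ≠ 0} ∪ {a})) :
    mono Γ (m + Pi.single a 1) = mono Γ m * gen Γ a := by
  have h1 : Γ.IsClique {b | m b ≠ 0} := h.subset Set.subset_union_left
  have h2 : Γ.IsClique {b | (m + Pi.single a 1 : V → ℕ) b ≠ 0} := h.subset (by
    intro b hb
    by_cases hba : b = a
    · exact Or.inr hba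
    · left; simpa [hba] using hb)
  obtain ⟨c1, e1⟩ := mono_eq_noncommProd m h1
  obtain ⟨c2, e2⟩ := mono_eq_noncommProd _ h2
  rw [e1, e2, ← Finset.noncommProd_erase_mul _ (Finset.mem_univ a),
    ← Finset.noncommProd_erase_mul _ (Finset.mem_univ a), mul_assoc, ← pow_succ]
  congr 1
  · exact Finset.noncommProd_congr rfl (fun b hb => by
      simp [Finset.ne_of_mem_erase hb]) _
  · simp

theorem mono_single (a : V) (n : ℕ) : mono Γ (Pi.single a n) = gen Γ a ^ n := by
  induction n with
  | zero => simp
  | succ n ih =>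
    rw [Pi.single_add, mono_add_single, ih, pow_succ]
    refine (SimpleGraph.isClique_singleton (G := Γ) a).subset ?_
    rintro b (hb | hb)
    · by_contra hba
      exact hb (Pi.single_eq_of_ne hba _)
    · exact hb

end Crest.Agent.R197
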