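import Crest.Agent.R197.Pw

/-! Normalised quaternions and generic weights.

Recipe for `exists_weights`: construct `q` on larger and larger finite sets `s` of vertices (independence
required for cliques inside `s`). For a new vertex `c` choose `q c` outside the finitely many proper
subspaces `span {ρ c b * q b | b ∈ σ}` (`σ ⊆ s`, `insert c σ` a clique, so `σ.card ≤ 2 < 4`), e.g. by
`Subspace.biUnion_ne_univ_of_top_notMem` / `Submodule.iUnion_ssubset_of_forall_ne_top_of_card_lt`. Changing the frame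
from `c` to `c'` multiplies all vectors on the left by the unit `ρ c' c`. `exists_lower`: a finite family of
injective linear maps is bounded below (`LinearMap.exists_antilipschitzWith`). -/

set_option autoImplicit false

open Quaternion

namespace Crest.Agent.R197

open Crest.Agent.Lib.CWComb

open Classical in
/-- normalisation of a quaternion (`1` at zero) -/
noncomputable def nrm (q : ℍ[ℝ]) : S3 :=
  if h : q = 0 then 1 else ⟨‖q‖⁻¹ • q, by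
    have hn : ‖q‖ ≠ 0 := norm_ne_zero_iff.2 h
    have h1 : star q * q = ((‖q‖ * ‖q‖ : ℝ) : ℍ[ℝ]) := by
      rw [Quaternion.star_mul_self, Quaternion.normSq_eq_norm_mul_self]
    have h2 : q * star q = ((‖q‖ * ‖q‖ : ℝ) : ℍ[ℝ]) := by
      rw [Quaternion.self_mul_star, Quaternion.normSq_eq_norm_mul_self]
    constructor
    · rw [Quaternion.star_smul, smul_mul_smul_comm, h1, ← Quaternion.coe_smul, smul_eq_mul]
      rw [show ‖q‖⁻¹ * ‖q‖⁻¹ * (‖q‖ * ‖q‖) = 1 by field_simp]; rfl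
    · rw [Quaternion.star_smul, smul_mul_smul_comm, h2, ← Quaternion.coe_smul, smul_eq_mul]
      rw [show ‖q‖⁻¹ * ‖q‖⁻¹ * (‖q‖ * ‖q‖) = 1 by field_simp]; rfl⟩

theorem Quat_coe_nrm {q : ℍ[ℝ]} (hq : q ≠ 0) : (nrm q : ℍ[ℝ]) = ‖q‖⁻¹ • q := by
  rw [nrm, dif_neg hq]

theorem norm_S3 (u : S3) : ‖(u : ℍ[ℝ])‖ = 1 := by
  have h : ‖star (u : ℍ[ℝ]) * u‖ = 1 := by rw [u.2.1, norm_one]
  rw [norm_mul, norm_star] at h
  have := norm_nonneg (u : ℍ[ℝ])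
  nlinarith

theorem norm_mul_sub_one_le (u v : S3) :
    ‖((u * v : S3) : ℍ[ℝ]) - 1‖ ≤ ‖(u : ℍ[ℝ]) - 1‖ + ‖(v : ℍ[ℝ]) - 1‖ := by
  have e : ((u * v : S3) : ℍ[ℝ]) - 1 = ((u : ℍ[ℝ]) - 1) * v + ((v : ℍ[ℝ]) - 1) := by
    rw [Submonoid.coe_mul]; noncomm_ring
  rw [e]
  refine (norm_add_le _ _).trans (le_of_eq ?_)
  rw [norm_mul, norm_S3, mul_one]

theorem norm_inv_sub_one (u : S3) : ‖((u⁻¹ : S3) : ℍ[ℝ]) - 1‖ = ‖(u : ℍ[ℝ]) - 1‖ := by
  have e : ((u⁻¹ : S3) : ℍ[ℝ]) - 1 = star ((u : ℍ[ℝ]) - 1) := by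
    rw [star_sub, star_one]; rfl
  rw [e, norm_star]

theorem norm_conj_sub_one (k u : S3) : ‖((k * u * k⁻¹ : S3) : ℍ[ℝ]) - 1‖ = ‖(u : ℍ[ℝ]) - 1‖ := by
  have h : (k : ℍ[ℝ]) * (k⁻¹ : S3) = 1 := by rw [← Submonoid.coe_mul, mul_inv_cancel]; rfl
  have e : ((k * u * k⁻¹ : S3) : ℍ[ℝ]) - 1 = k * ((u : ℍ[ℝ]) - 1) * (k⁻¹ : S3) := by
    rw [Submonoid.coe_mul, Submonoid.coe_mul, mul_sub, sub_mul, mul_one, h]
  rw [e, norm_mul, norm_mul, norm_S3, norm_S3, one_mul, mul_one]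

theorem norm_commutator_sub_one_le (u v : S3) :
    ‖((u * v * u⁻¹ * v⁻¹ : S3) : ℍ[ℝ]) - 1‖ ≤ 2 * ‖(u : ℍ[ℝ]) - 1‖ * ‖(v : ℍ[ℝ]) - 1‖ := by
  have h : (v : ℍ[ℝ]) * u * (u⁻¹ : S3) * (v⁻¹ : S3) = 1 := by
    rw [← Submonoid.coe_mul, ← Submonoid.coe_mul, ← Submonoid.coe_mul, mul_inv_cancel_right,
      mul_inv_cancel]; rfl
  have e : ((u * v * u⁻¹ * v⁻¹ : S3) : ℍ[ℝ]) - 1 =
      (((u : ℍ[ℝ]) - 1) * ((v : ℍ[ℝ]) - 1) - ((v : ℍ[ℝ]) - 1) * ((u : ℍ[ℝ]) - 1)) *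
        (u⁻¹ : S3) * (v⁻¹ : S3) := by
    rw [Submonoid.coe_mul, Submonoid.coe_mul, Submonoid.coe_mul]
    conv_lhs => rw [← h]
    noncomm_ring
  rw [e, norm_mul, norm_mul, norm_S3, norm_S3, mul_one, mul_one]
  refine (norm_sub_le _ _).trans (le_of_eq ?_)
  rw [norm_mul, norm_mul]; ring

theorem norm_mul_inv_sub_one (u v : S3) :
    ‖((u * v⁻¹ : S3) : ℍ[ℝ]) - 1‖ = ‖(u : ℍ[ℝ]) - v‖ := by
  have h : (v : ℍ[ℝ]) * (v⁻¹ : S3) = 1 := by rw [← Submonoid.coe_mul, mul_inv_cancel]; rfl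
  have e : ((u * v⁻¹ : S3) : ℍ[ℝ]) - 1 = ((u : ℍ[ℝ]) - v) * (v⁻¹ : S3) := by
    rw [Submonoid.coe_mul, sub_mul, h]
  rw [e, norm_mul, norm_S3, mul_one]

theorem nrm_mul_left (u : S3) {q : ℍ[ℝ]} (hq : q ≠ 0) : nrm ((u : ℍ[ℝ]) * q) = u * nrm q := by
  have hu : (u : ℍ[ℝ]) ≠ 0 := by
    rw [← norm_ne_zero_iff, norm_S3]; exact one_ne_zero
  refine Subtype.ext ?_
  rw [Submonoid.coe_mul, Quat_coe_nrm hq, Quat_coe_nrm (mul_ne_zero hu hq), norm_mul, norm_S3,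
    one_mul, mul_smul_comm]

theorem nrm_smul {r : ℝ} (hr : 0 < r) (q : ℍ[ℝ]) : nrm (r • q) = nrm q := by
  rcases eq_or_ne q 0 with rfl | hq
  · rw [smul_zero]
  · refine Subtype.ext ?_
    rw [Quat_coe_nrm hq, Quat_coe_nrm (smul_ne_zero hr.ne' hq), norm_smul, smul_smul,
      Real.norm_of_nonneg hr.le]
    congr 1
    have := norm_ne_zero_iff.2 hq
    field_simp

theorem continuous_nrm {X : Type*} [TopologicalSpace X] {f : X → ℍ[ℝ]} (hf : Continuous f)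
    (h0 : ∀ x, f x ≠ 0) : Continuous fun x => nrm (f x) := by
  refine continuous_induced_rng.2 ?_
  have e : (Subtype.val ∘ fun x => nrm (f x)) = fun x => ‖f x‖⁻¹ • f x :=
    funext fun x => Quat_coe_nrm (h0 x)
  rw [e]
  exact (hf.norm.inv₀ fun x => norm_ne_zero_iff.2 (h0 x)).smul hf

theorem norm_nrm_inv_mul_sub_one {p q : ℍ[ℝ]} (hp : p ≠ 0) (hq : q ≠ 0) :
    ‖(((nrm p)⁻¹ * nrm q : S3) : ℍ[ℝ]) - 1‖ ≤ 2 * ‖q - p‖ / ‖p‖ := by
  have h : ((nrm p)⁻¹ : S3) * (nrm p : ℍ[ℝ]) = 1 := by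
    rw [← Submonoid.coe_mul, inv_mul_cancel]; rfl
  have e : (((nrm p)⁻¹ * nrm q : S3) : ℍ[ℝ]) - 1 =
      ((nrm p)⁻¹ : S3) * ((nrm q : ℍ[ℝ]) - nrm p) := by
    rw [Submonoid.coe_mul, mul_sub, h]
  rw [e, norm_mul, norm_S3, one_mul, Quat_coe_nrm hp, Quat_coe_nrm hq]
  have hp0 : 0 < ‖p‖ := norm_pos_iff.2 hp
  have hq0 : 0 < ‖q‖ := norm_pos_iff.2 hq
  have e2 : ‖q‖⁻¹ • q - ‖p‖⁻¹ • p = (‖q‖⁻¹ - ‖p‖⁻¹) • q + ‖p‖⁻¹ • (q - p) := by
    rw [sub_smul, smul_sub]; abel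
  rw [e2]
  refine (norm_add_le _ _).trans ?_
  rw [norm_smul, norm_smul, norm_inv, norm_norm, Real.norm_eq_abs]
  have e3 : |‖q‖⁻¹ - ‖p‖⁻¹| * ‖q‖ = |‖p‖ - ‖q‖| / ‖p‖ := by
    have : ‖q‖⁻¹ - ‖p‖⁻¹ = (‖p‖ - ‖q‖) / (‖p‖ * ‖q‖) := by field_simp
    rw [this, abs_div, abs_of_pos (mul_pos hp0 hq0)]
    field_simp
  have e4 : |‖p‖ - ‖q‖| ≤ ‖q - p‖ := by
    rw [norm_sub_rev]; exact abs_norm_sub_norm_le p q
  rw [e3]
  have e5 : |‖p‖ - ‖q‖| / ‖p‖ ≤ ‖q - p‖ / ‖p‖ := div_le_div_of_nonneg_right e4 hp0.le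
  have e6 : 2 * ‖q - p‖ / ‖p‖ = ‖q - p‖ / ‖p‖ + ‖p‖⁻¹ * ‖q - p‖ := by field_simp; ring
  linarith

variable {V : Type} [Fintype V] [LinearOrder V] (Γ : SimpleGraph V)

omit [Fintype V] in
theorem Quat_exists_indep [Finite V] (ρ : V → V → S3) (s : Finset V) :
    ∃ q : V → ℍ[ℝ], ∀ (c : V) (σ : Finset V), σ ⊆ s → σ.card ≤ 3 →
      LinearIndepOn ℝ (fun b => (ρ c b : ℍ[ℝ]) * q b) (σ : Set V) := by
  classical
  induction s using Finset.induction_on with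
  | empty =>
    refine ⟨0, fun c σ hσ _ => ?_⟩
    rw [Finset.subset_empty.1 hσ, Finset.coe_empty]
    exact linearIndepOn_empty _ _
  | insert a s ha ih =>
    obtain ⟨q, hq⟩ := ih
    obtain ⟨x, hx⟩ := Submodule.exists_forall_notMem_of_forall_ne_top
      (fun p : V × {σ : Finset V // σ.card ≤ 3} =>
        (Submodule.span ℝ ((fun b => (ρ p.1 b : ℍ[ℝ]) * q b) '' (p.2.1 : Set V))).comap
          (LinearMap.mulLeft ℝ (ρ p.1 a : ℍ[ℝ]))) (by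
      rintro ⟨c, σ, hσ⟩ htop
      have h1 : Submodule.span ℝ ((fun b => (ρ c b : ℍ[ℝ]) * q b) '' (σ : Set V)) = ⊤ := by
        refine eq_top_iff.2 fun y _ => ?_
        have h2 : star (ρ c a : ℍ[ℝ]) * y ∈ (⊤ : Submodule ℝ ℍ[ℝ]) := Submodule.mem_top
        rw [← htop, Submodule.mem_comap, LinearMap.mulLeft_apply, ← mul_assoc, (ρ c a).2.2,
          one_mul] at h2
        exact h2
      have h3 := finrank_span_finset_le_card (R := ℝ) (σ.image fun b => (ρ c b : ℍ[ℝ]) * q b)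
      rw [Set.finrank, Finset.coe_image, h1, finrank_top, Quaternion.finrank_eq_four] at h3
      have := Finset.card_image_le (s := σ) (f := fun b => (ρ c b : ℍ[ℝ]) * q b)
      omega)
    have hc : ∀ (c : V) (σ : Finset V), σ ⊆ s → Set.EqOn (fun b => (ρ c b : ℍ[ℝ]) * q b)
        (fun b => (ρ c b : ℍ[ℝ]) * Function.update q a x b) (σ : Set V) := fun c σ hσ b hb => by
      have : b ≠ a := fun h => ha (h ▸ hσ hb)
      simp only [Function.update_of_ne this]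
    refine ⟨Function.update q a x, fun c σ hσ h3 => ?_⟩
    by_cases haσ : a ∈ σ
    · have h4 : σ.erase a ⊆ s := by rwa [← Finset.subset_insert_iff]
      have h5 : (σ.erase a).card ≤ 3 := Finset.card_erase_le.trans h3
      rw [← Finset.insert_erase haσ, Finset.coe_insert]
      refine ((hq c _ h4 h5).congr (hc c _ h4)).insert ?_
      rw [← (hc c _ h4).image_eq]
      simpa using hx (c, ⟨_, h5⟩)
    · have h4 : σ ⊆ s := (Finset.subset_insert_iff_of_notMem haσ).1 hσ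
      exact (hq c _ h4 h3).congr (hc c _ h4)

omit [LinearOrder V] in
theorem Quat_lower {v : V → ℍ[ℝ]} {σ : Finset V} (h : LinearIndepOn ℝ v (σ : Set V)) :
    ∃ K : ℝ, 0 ≤ K ∧ ∀ m : V → ℝ, (∀ b, 0 ≤ m b) → (∀ b, m b ≠ 0 → b ∈ σ) →
      ∑ b, m b ≤ K * ‖∑ b, m b • v b‖ := by
  have h' : LinearIndependent ℝ fun b : σ => v b := h
  obtain ⟨K, -, hK⟩ := LinearMap.exists_antilipschitzWith _
    (LinearMap.ker_eq_bot.2 (linearIndependent_iff_injective_fintypeLinearCombination.1 h'))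
  refine ⟨σ.card * K, by positivity, fun m hm hσ => ?_⟩
  have h1 := hK.le_mul_dist (fun b : σ => m b) 0
  rw [dist_zero_right, map_zero, dist_zero_right, Fintype.linearCombination_apply,
    Finset.sum_coe_sort σ fun b => m b • v b] at h1
  have e1 : ∑ b, m b = ∑ b ∈ σ, m b :=
    (Finset.sum_subset (Finset.subset_univ σ) fun b _ hb => by
      by_contra h0; exact hb (hσ b h0)).symm
  have e2 : ∑ b, m b • v b = ∑ b ∈ σ, m b • v b :=
    (Finset.sum_subset (Finset.subset_univ σ) fun b _ hb => by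
      have : m b = 0 := by by_contra h0; exact hb (hσ b h0)
      rw [this, zero_smul]).symm
  rw [e1, e2, mul_assoc, ← nsmul_eq_mul]
  refine Finset.sum_le_card_nsmul _ _ _ fun b hb => le_trans ?_ h1
  exact (le_abs_self _).trans (norm_le_pi_norm (fun b : σ => m b) ⟨b, hb⟩)

set_option linter.unusedVariables false in
theorem exists_weights (hdim : ∀ σ : Finset V, Γ.IsClique (σ : Set V) → σ.card ≤ 3)
    (ρ : V → V → S3) (h1 : ∀ a, ρ a a = 1)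
    (h2 : ∀ a b c, Γ.IsClique {a, b, c} → ρ a b * ρ b c = ρ a c) :
    ∃ (q : V → ℍ[ℝ]) (κ : ℝ), 0 < κ ∧ ∀ (c : V) (m : V → ℝ), (∀ b, 0 ≤ m b) →
      Γ.IsClique ({b | m b ≠ 0} ∪ {c}) → κ * ∑ b, m b ≤ ‖∑ b, m b • ((ρ c b : ℍ[ℝ]) * q b)‖ := by
  obtain ⟨q, hq⟩ := Quat_exists_indep ρ Finset.univ
  have hK : ∀ p : V × Finset V, ∃ K : ℝ, 0 ≤ K ∧ (p.2.card ≤ 3 → ∀ m : V → ℝ, (∀ b, 0 ≤ m b) →
      (∀ b, m b ≠ 0 → b ∈ p.2) → ∑ b, m b ≤ K * ‖∑ b, m b • ((ρ p.1 b : ℍ[ℝ]) * q b)‖) := by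
    rintro ⟨c, σ⟩
    by_cases hσ : σ.card ≤ 3
    · obtain ⟨K, hK0, hK⟩ := Quat_lower (hq c σ (Finset.subset_univ _) hσ)
      exact ⟨K, hK0, fun _ => hK⟩
    · exact ⟨0, le_rfl, fun h => absurd h hσ⟩
  choose K hK0 hK using hK
  have hs : 0 ≤ ∑ p, K p := Finset.sum_nonneg fun p _ => hK0 p
  refine ⟨q, (∑ p, K p + 1)⁻¹, by positivity, fun c m hm hc => ?_⟩
  set σ : Finset V := Finset.univ.filter fun b => m b ≠ 0 with hσ
  have h3 : σ.card ≤ 3 := hdim σ (hc.subset fun b hb => Or.inl (by simpa [hσ] using hb))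
  have h4 := hK (c, σ) h3 m hm fun b hb => by simpa [hσ] using hb
  have h5 : K (c, σ) ≤ ∑ p, K p + 1 :=
    (Finset.single_le_sum (fun p _ => hK0 p) (Finset.mem_univ _)).trans (by linarith)
  rw [inv_mul_le_iff₀ (by positivity)]
  exact h4.trans (mul_le_mul_of_nonneg_right h5 (norm_nonneg _))

end Crest.Agent.R197
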