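import Crest.Agent.R197.Pw

/-! Boundary identities, gradings and cones. -/

set_option autoImplicit false

open Quaternion

namespace Crest.Agent.R197

open Crest.Agent.Lib.CWComb

variable {V : Type} [LinearOrder V] (Γ : SimpleGraph V)

theorem sgn_mul_self (a : V) (σ : Finset V) : sgn a σ * sgn a σ = 1 := by
  rw [sgn, ← mul_pow]
  simp

theorem Signs_erase_of_lt {a b : V} {σ : Finset V} (ha : a ∈ σ) (h : a < b) :
    sgn b (σ.erase a) = -sgn b σ := by
  have h1 : a ∈ σ.filter (· < b) := Finset.mem_filter.2 ⟨ha, h⟩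
  rw [sgn, sgn, Finset.filter_erase, ← Finset.card_erase_add_one h1, pow_succ]
  ring

theorem Signs_erase_of_not_lt {a b : V} (σ : Finset V) (h : ¬ a < b) :
    sgn b (σ.erase a) = sgn b σ := by
  have h1 : a ∉ σ.filter (· < b) := fun h' => h (Finset.mem_filter.1 h').2
  rw [sgn, sgn, Finset.filter_erase, Finset.erase_eq_of_notMem h1]

/-- the basic sign identity -/
theorem sgn_erase {a b : V} {σ : Finset V} (ha : a ∈ σ) (hb : b ∈ σ) (hab : a ≠ b) :
    sgn a σ * sgn b (σ.erase a) = -(sgn b σ * sgn a (σ.erase b)) := by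
  rcases lt_or_gt_of_ne hab with h | h
  · rw [Signs_erase_of_lt ha h, Signs_erase_of_not_lt σ (not_lt.2 h.le)]
    ring
  · rw [Signs_erase_of_lt hb h, Signs_erase_of_not_lt σ (not_lt.2 h.le)]
    ring

/-- an alternating double sum of a symmetric function vanishes -/
theorem Signs_sum_sum {M : Type} [AddCommGroup M] (σ : Finset V) (F : V → V → M)
    (hF : ∀ a ∈ σ, ∀ b ∈ σ, a ≠ b → F a b = F b a) :
    ∑ a ∈ σ, sgn a σ • ∑ b ∈ σ.erase a, sgn b (σ.erase a) • F a b = 0 := by
  simp only [Finset.smul_sum, smul_smul]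
  rw [← Finset.sum_finset_product' σ.offDiag σ (fun a => σ.erase a)
    (fun p => by simp only [Finset.mem_offDiag, Finset.mem_erase]; tauto)
    (f := fun a b => (sgn a σ * sgn b (σ.erase a)) • F a b)]
  refine Finset.sum_involution (fun p _ => p.swap) (fun p hp => ?_) (fun p hp _ h => ?_)
    (fun p hp => ?_) (fun _ _ => rfl)
  · obtain ⟨h1, h2, h3⟩ := Finset.mem_offDiag.1 hp
    rw [Prod.fst_swap, Prod.snd_swap, sgn_erase h1 h2 h3, hF _ h1 _ h2 h3, neg_smul, neg_add_cancel]
  · exact (Finset.mem_offDiag.1 hp).2.2 (congrArg Prod.snd h)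
  · obtain ⟨h1, h2, h3⟩ := Finset.mem_offDiag.1 hp
    exact Finset.mem_offDiag.2 ⟨h2, h1, h3.symm⟩

theorem Signs_sbd_single (σ : Finset V) (n : ℤ) : sbd (Finsupp.single σ n) =
    n • ∑ a ∈ σ, sgn a σ • Finsupp.single (σ.erase a) (1 : ℤ) :=
  Finsupp.linearCombination_single _ _ _

theorem Signs_cbd_single (c : Raag Γ × Finset V) (n : ℤ) : cbd Γ (Finsupp.single c n) =
    n • ∑ a ∈ c.2, sgn a c.2 • (Finsupp.single (c.1 * gen Γ a, c.2.erase a) (1 : ℤ) -
      Finsupp.single (c.1, c.2.erase a) 1) :=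
  Finsupp.linearCombination_single _ _ _

theorem Signs_aug_single (c : Raag Γ × Finset V) (n : ℤ) : aug Γ (Finsupp.single c n) =
    n • if c.2 = ∅ then 1 else 0 :=
  Finsupp.linearCombination_single _ _ _

theorem Signs_map_eq_sum {X M : Type} [AddCommGroup M] (f : (X →₀ ℤ) →ₗ[ℤ] M) (z : X →₀ ℤ) :
    f z = ∑ c ∈ z.support, f (Finsupp.single c (z c)) := by
  rw [← map_sum]
  exact congrArg f (Finsupp.sum_single z).symm

theorem sbd_sbd (z : Finset V →₀ ℤ) : sbd (sbd z) = 0 := by
  rw [Signs_map_eq_sum sbd z, map_sum]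
  refine Finset.sum_eq_zero fun σ _ => ?_
  rw [Signs_sbd_single, map_smul, map_sum]
  simp only [map_smul, Signs_sbd_single, one_smul]
  rw [Signs_sum_sum σ (fun a b => Finsupp.single ((σ.erase a).erase b) (1 : ℤ))
    fun a _ b _ _ => by rw [Finset.erase_right_comm], smul_zero]

theorem cbd_cbd (z : Raag Γ × Finset V →₀ ℤ) (hz : ∀ c ∈ z.support, Γ.IsClique (c.2 : Set V)) :
    cbd Γ (cbd Γ z) = 0 := by
  rw [Signs_map_eq_sum (cbd Γ) z, map_sum]
  refine Finset.sum_eq_zero fun c hc => ?_
  rw [Signs_cbd_single, map_smul, map_sum]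
  simp only [map_smul, map_sub, Signs_cbd_single, one_smul, ← Finset.sum_sub_distrib, ← smul_sub]
  rw [Signs_sum_sum c.2 (fun a b =>
    Finsupp.single (c.1 * gen Γ a * gen Γ b, (c.2.erase a).erase b) (1 : ℤ) -
      Finsupp.single (c.1 * gen Γ a, (c.2.erase a).erase b) 1 -
      (Finsupp.single (c.1 * gen Γ b, (c.2.erase a).erase b) 1 -
        Finsupp.single (c.1, (c.2.erase a).erase b) 1)) ?_, smul_zero]
  intro a ha b hb _
  rw [Finset.erase_right_comm, mul_assoc, (gen_comm_of_clique (hz c hc) ha hb).eq, ← mul_assoc]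
  abel

theorem aug_cbd (z : Raag Γ × Finset V →₀ ℤ) : aug Γ (cbd Γ z) = 0 := by
  rw [Signs_map_eq_sum (cbd Γ) z, map_sum]
  refine Finset.sum_eq_zero fun c _ => ?_
  rw [Signs_cbd_single, map_smul, map_sum]
  simp only [map_smul, map_sub, Signs_aug_single, sub_self, smul_zero, Finset.sum_const_zero]

theorem Signs_cbd_support {C : Set (Raag Γ × Finset V)} (z : Raag Γ × Finset V →₀ ℤ)
    (hz : ∀ c ∈ z.support, ∀ a ∈ c.2,
      (c.1 * gen Γ a, c.2.erase a) ∈ C ∧ (c.1, c.2.erase a) ∈ C) :
    ∀ c ∈ (cbd Γ z).support, c ∈ C := by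
  have : cbd Γ z ∈ Finsupp.supported ℤ ℤ C := by
    rw [Signs_map_eq_sum (cbd Γ) z]
    refine Submodule.sum_mem _ fun c hc => ?_
    rw [Signs_cbd_single]
    refine Submodule.smul_mem _ _ (Submodule.sum_mem _ fun a ha => Submodule.smul_mem _ _ ?_)
    exact Submodule.sub_mem _ (Finsupp.single_mem_supported ℤ _ (hz c hc a ha).1)
      (Finsupp.single_mem_supported ℤ _ (hz c hc a ha).2)
  exact fun c hc => (Finsupp.mem_supported ℤ _).1 this hc

theorem CubeSet.cbd_support {C : Set (Raag Γ × Finset V)} (hC : CubeSet Γ C)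
    (z : Raag Γ × Finset V →₀ ℤ) (hz : ∀ c ∈ z.support, c ∈ C) :
    ∀ c ∈ (cbd Γ z).support, c ∈ C :=
  Signs_cbd_support Γ z fun c hc a ha => ⟨hC.face₁ c (hz c hc) a ha, hC.face₀ c (hz c hc) a ha⟩

/-- the boundary lowers the dimension by one -/
theorem filter_cbd (z : Raag Γ × Finset V →₀ ℤ) (k : ℕ) :
    (cbd Γ z).filter (fun c => c.2.card = k) = cbd Γ (z.filter fun c => c.2.card = k + 1) := by
  induction z using Finsupp.induction_linear with
  | zero => rw [map_zero, Finsupp.filter_zero, Finsupp.filter_zero, map_zero]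
  | add f g hf hg => rw [map_add, Finsupp.filter_add, Finsupp.filter_add, map_add, hf, hg]
  | single c n =>
    have h := Signs_cbd_support Γ (C := {c' | c'.2.card + 1 = c.2.card}) (Finsupp.single c n)
      fun c' hc' a ha => by
        obtain rfl := Finset.mem_singleton.1 (Finsupp.support_single_subset hc')
        exact ⟨Finset.card_erase_add_one ha, Finset.card_erase_add_one ha⟩
    by_cases hc : c.2.card = k + 1
    · rw [Finsupp.filter_single_of_pos (fun c : Raag Γ × Finset V => c.2.card = k + 1) hc,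
        Finsupp.filter_eq_self_iff]
      intro c' hc'
      have : c'.2.card + 1 = c.2.card := h c' (Finsupp.mem_support_iff.2 hc')
      omega
    · rw [Finsupp.filter_single_of_neg (fun c : Raag Γ × Finset V => c.2.card = k + 1) hc, map_zero,
        Finsupp.filter_eq_zero_iff]
      intro c' hc'
      by_contra h'
      have : c'.2.card + 1 = c.2.card := h c' (Finsupp.mem_support_iff.2 h')
      omega

/-- graded form of acyclicity -/
theorem CAcyc.graded {C : Set (Raag Γ × Finset V)} (h : CAcyc Γ C) (k : ℕ)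
    (z : Raag Γ × Finset V →₀ ℤ) (hz : ∀ c ∈ z.support, c ∈ C ∧ c.2.card = k) (h0 : cbd Γ z = 0)
    (ha : aug Γ z = 0) :
    ∃ u : Raag Γ × Finset V →₀ ℤ, (∀ c ∈ u.support, c ∈ C ∧ c.2.card = k + 1) ∧ cbd Γ u = z := by
  obtain ⟨u, hu, huz⟩ := h z (fun c hc => (hz c hc).1) h0 ha
  refine ⟨u.filter fun c => c.2.card = k + 1, fun c hc => ?_, ?_⟩
  · rw [Finsupp.support_filter, Finset.mem_filter] at hc
    exact ⟨hu c hc.1, hc.2⟩
  · rw [← filter_cbd, huz, Finsupp.filter_eq_self_iff]
    exact fun c hc => (hz c (Finsupp.mem_support_iff.2 hc)).2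

/-- the cone contraction -/
noncomputable def Signs_cone (a : V) : (Finset V →₀ ℤ) →ₗ[ℤ] (Finset V →₀ ℤ) :=
  Finsupp.linearCombination ℤ fun σ =>
    if a ∈ σ then 0 else sgn a (insert a σ) • Finsupp.single (insert a σ) (1 : ℤ)

theorem Signs_cone_single (a : V) (σ : Finset V) (n : ℤ) : Signs_cone a (Finsupp.single σ n) =
    n • if a ∈ σ then 0 else sgn a (insert a σ) • Finsupp.single (insert a σ) (1 : ℤ) :=
  Finsupp.linearCombination_single _ _ _

theorem Signs_cone_htpy_single (a : V) (σ : Finset V) :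
    sbd (Signs_cone a (Finsupp.single σ 1)) + Signs_cone a (sbd (Finsupp.single σ 1)) =
      Finsupp.single σ 1 := by
  rw [Signs_cone_single, Signs_sbd_single, one_smul, one_smul, map_sum]
  simp only [map_smul, Signs_cone_single, one_smul]
  by_cases ha : a ∈ σ
  · rw [if_pos ha, map_zero, zero_add, Finset.sum_eq_single_of_mem a ha]
    · rw [if_neg (Finset.notMem_erase a σ), Finset.insert_erase ha, smul_smul, sgn_mul_self,
        one_smul]
    · intro b _ hba
      rw [if_pos (Finset.mem_erase.2 ⟨hba.symm, ha⟩), smul_zero]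
  · rw [if_neg ha, map_smul, Signs_sbd_single, one_smul, Finset.sum_insert ha, smul_add, smul_smul,
      sgn_mul_self, one_smul, Finset.erase_insert ha, add_assoc, add_eq_left, Finset.smul_sum,
      ← Finset.sum_add_distrib]
    refine Finset.sum_eq_zero fun b hb => ?_
    have hab : a ≠ b := fun h => ha (h ▸ hb)
    have h := sgn_erase (Finset.mem_insert_self a σ) (Finset.mem_insert_of_mem hb) hab
    rw [Finset.erase_insert ha] at h
    rw [if_neg fun h' => ha (Finset.mem_of_mem_erase h'), ← Finset.erase_insert_of_ne hab,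
      smul_smul, smul_smul, ← add_smul]
    have h1 := sgn_mul_self a (insert a σ)
    have h2 := sgn_mul_self a ((insert a σ).erase b)
    have : sgn a (insert a σ) * sgn b (insert a σ) + sgn b σ * sgn a ((insert a σ).erase b) = 0 := by
      linear_combination (sgn a (insert a σ) * sgn a ((insert a σ).erase b)) * h -
        (sgn a ((insert a σ).erase b) * sgn b σ) * h1 -
        (sgn a (insert a σ) * sgn b (insert a σ)) * h2
    rw [this, zero_smul]

theorem Signs_cone_htpy (a : V) (z : Finset V →₀ ℤ) :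
    sbd (Signs_cone a z) + Signs_cone a (sbd z) = z := by
  induction z using Finsupp.induction_linear with
  | zero => simp
  | add f g hf hg =>
    simp only [map_add]
    rw [add_add_add_comm, hf, hg]
  | single σ n =>
    rw [← Finsupp.smul_single_one, map_smul, map_smul, map_smul, map_smul, ← smul_add,
      Signs_cone_htpy_single]

/-- A cone is acyclic: use the contraction `σ ↦ sgn a (insert a σ) • [insert a σ]` for `a ∉ σ`,
`σ ↦ 0` for `a ∈ σ`. -/
theorem acyc_of_cone {K : Set (Finset V)} (a : V) (h : ∀ σ ∈ K, insert a σ ∈ K) : Acyc K := by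
  intro z hz h0
  refine ⟨Signs_cone a z, ?_, ?_⟩
  · have : Signs_cone a z ∈ Finsupp.supported ℤ ℤ K := by
      rw [Signs_map_eq_sum (Signs_cone a) z]
      refine Submodule.sum_mem _ fun σ hσ => ?_
      rw [Signs_cone_single]
      refine Submodule.smul_mem _ _ ?_
      split_ifs
      · exact Submodule.zero_mem _
      · exact Submodule.smul_mem _ _ (Finsupp.single_mem_supported ℤ _ (h σ (hz σ hσ)))
    exact fun c hc => (Finsupp.mem_supported ℤ _).1 this hc
  · have := Signs_cone_htpy a z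
    rwa [h0, map_zero, add_zero] at this

theorem acyc_empty : Acyc (∅ : Set (Finset V)) := by
  intro z hz h0
  have : z = 0 := Finsupp.support_eq_empty.1 (Finset.eq_empty_of_forall_notMem hz)
  exact ⟨z, hz, by rw [h0, this]⟩

end Crest.Agent.R197
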